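import Vale.Agent.Lib.P335.SplitMix

/-!
# Cells, blocks and rectangles for labeled graphs (KTV project)
A graph is a finset of cells (elements of `Sym2 (Fin n)`).
-/

open Finset

namespace KTV

open Vale.Agent.Lib.P335

variable {n : ℕ}

/-- `E n` is the type of cells. -/
abbrev Cell (n : ℕ) := Sym2 (Fin n)

/-- The block of the vertex pair `u, v`: the cells joining `u` or `v` to another vertex outside `{u, v}`.
The cell `s(u, v)` is not in it. -/
def blk (u v : Fin n) : EdgeSet n :=
  univ.filter fun e => ∃ w, w ≠ u ∧ w ≠ v ∧ (e = s(u, w) ∨ e = s(v, w))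

/-- The part of `G` outside the cell set `C`; two graphs agree outside `C` iff `off C G = off C G'`. -/
def off (C G : EdgeSet n) : EdgeSet n := G \ C

/-- The four cells of the rectangle `{u, v} × {x, y}`. -/
def rect (u v x y : Fin n) : EdgeSet n := {s(u, x), s(u, y), s(v, x), s(v, y)}

/-- The rectangle is alternating in `G`: one diagonal present, the other absent. -/
def active (u v x y : Fin n) (G : EdgeSet n) : Prop :=
  (s(u, x) ∈ G ∧ s(v, y) ∈ G ∧ s(u, y) ∉ G ∧ s(v, x) ∉ G) ∨
  (s(u, x) ∉ G ∧ s(v, y) ∉ G ∧ s(u, y) ∈ G ∧ s(v, x) ∈ G)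

/-- The switch on the rectangle: exchange the two diagonals. -/
def flip (u v x y : Fin n) (G : EdgeSet n) : EdgeSet n := symmDiff G (rect u v x y)

/-- Four distinct vertices. -/
def Distinct4 (u v x y : Fin n) : Prop :=
  u ≠ v ∧ u ≠ x ∧ u ≠ y ∧ v ≠ x ∧ v ≠ y ∧ x ≠ y

/-- The block projection `Q_{uv} f`. -/
noncomputable def Qb (d : Fin n → ℕ) (u v : Fin n) (f : EdgeSet n → ℝ) :
    EdgeSet n → ℝ :=
  cQ (Omega d) (off (blk u v)) f

/-- Antisymmetric energy of the rectangle `{u,v} × {x,y}`. -/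
noncomputable def Wq (d : Fin n → ℕ) (u v x y : Fin n) (f : EdgeSet n → ℝ) : ℝ :=
  open Classical in
  ∑ G ∈ (Omega d).filter (active u v x y), ((f G - f (flip u v x y G)) / 2) ^ 2

/-- The `U` term of the ordered pair `({u,v}, {x,y})`. -/
noncomputable def Uq (d : Fin n → ℕ) (u v x y : Fin n) (f : EdgeSet n → ℝ) : ℝ :=
  open Classical in
  ∑ G ∈ (Omega d).filter (active u v x y),
    (cond ((Omega d).filter (active u v x y)) (off (blk u v)) f G
      - cond (Omega d) (off (blk u v)) f G) ^ 2

end KTV
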