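import Vale.Agent.Lib.KTV.GraphConnect

/-!
# A block fibre is a Johnson slice: the bijection (KTV project)
`betaG u v G₀ A` is the graph with the same cells as `G₀` outside the block of `u, v`, where the
common neighbours of `u, v` stay, and where `u` (resp. `v`) is adjacent to the vertices of `A`
(resp. the complement of `A`) in the set of vertices adjacent to exactly one of `u, v`.
-/

open Finset

namespace KTV

open Vale.Agent.Lib.P335 Classical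

variable {n : ℕ} {u v : Fin n}

theorem mem_blk {e : Cell n} :
    e ∈ blk u v ↔ ∃ w, w ≠ u ∧ w ≠ v ∧ (e = s(u, w) ∨ e = s(v, w)) := by
  simp [blk]

theorem off_eq_iff {C G G' : EdgeSet n} :
    off C G = off C G' ↔ ∀ e, e ∉ C → (e ∈ G ↔ e ∈ G') := by
  unfold off
  constructor
  · intro h e he
    have := Finset.ext_iff.mp h e
    simpa [Finset.mem_sdiff, he] using this
  · intro h
    ext e
    simp only [Finset.mem_sdiff]
    by_cases he : e ∈ C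
    · simp [he]
    · simp [he, h e he]

theorem graph_ext_blk {G G' : EdgeSet n} (h0 : ∀ e, e ∉ blk u v → (e ∈ G ↔ e ∈ G'))
    (hu : ∀ w, w ≠ u → w ≠ v → (s(u, w) ∈ G ↔ s(u, w) ∈ G'))
    (hv : ∀ w, w ≠ u → w ≠ v → (s(v, w) ∈ G ↔ s(v, w) ∈ G')) : G = G' := by
  ext e
  by_cases he : e ∈ blk u v
  · obtain ⟨w, h1, h2, rfl | rfl⟩ := mem_blk.mp he
    · exact hu w h1 h2
    · exact hv w h1 h2
  · exact h0 e he

theorem cell_u_mem_blk {w : Fin n} (h1 : w ≠ u) (h2 : w ≠ v) : s(u, w) ∈ blk u v :=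
  mem_blk.mpr ⟨w, h1, h2, Or.inl rfl⟩

theorem cell_v_mem_blk {w : Fin n} (h1 : w ≠ u) (h2 : w ≠ v) : s(v, w) ∈ blk u v :=
  mem_blk.mpr ⟨w, h1, h2, Or.inr rfl⟩

/-- A cell with no endpoint in `{u, v}` is off the block. -/
theorem cell_off_blk {a b : Fin n} (h1 : a ≠ u) (h2 : a ≠ v) (h3 : b ≠ u) (h4 : b ≠ v) :
    s(a, b) ∉ blk u v := by
  rw [mem_blk]
  rintro ⟨w, _, _, h | h⟩
  · rw [Sym2.eq_iff] at h
    rcases h with ⟨h, _⟩ | ⟨_, h⟩
    · exact h1 h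
    · exact h3 h
  · rw [Sym2.eq_iff] at h
    rcases h with ⟨h, _⟩ | ⟨_, h⟩
    · exact h2 h
    · exact h4 h

theorem cell_uv_off_blk (huv : u ≠ v) : s(u, v) ∉ blk u v := by
  rw [mem_blk]
  rintro ⟨w, h1, h2, h | h⟩
  · rw [Sym2.eq_iff] at h
    rcases h with ⟨_, h⟩ | ⟨_, h⟩
    · exact h2 h.symm
    · exact huv h.symm
  · rw [Sym2.eq_iff] at h
    rcases h with ⟨h, _⟩ | ⟨h, _⟩
    · exact huv h
    · exact h1 h.symm

theorem cell_uu_off_blk (huv : u ≠ v) : s(u, u) ∉ blk u v := by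
  rw [mem_blk]
  rintro ⟨w, h1, _, h | h⟩
  · rw [Sym2.eq_iff] at h
    rcases h with ⟨_, h⟩ | ⟨h, _⟩
    · exact h1 h.symm
    · exact h1 h.symm
  · rw [Sym2.eq_iff] at h
    rcases h with ⟨h, _⟩ | ⟨_, h⟩
    · exact huv h
    · exact huv h

theorem cell_vv_off_blk (huv : u ≠ v) : s(v, v) ∉ blk u v := by
  rw [mem_blk]
  rintro ⟨w, _, h1, h | h⟩
  · rw [Sym2.eq_iff] at h
    rcases h with ⟨h, _⟩ | ⟨_, h⟩
    · exact huv h.symm
    · exact huv h.symm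
  · rw [Sym2.eq_iff] at h
    rcases h with ⟨_, h⟩ | ⟨h, _⟩
    · exact h1 h.symm
    · exact h1 h.symm

/-- Common neighbours of `u, v` outside `{u, v}`. -/
noncomputable def iSet (u v : Fin n) (G : EdgeSet n) : Finset (Fin n) :=
  univ.filter fun w => w ≠ u ∧ w ≠ v ∧ s(u, w) ∈ G ∧ s(v, w) ∈ G

/-- Vertices outside `{u, v}` adjacent to exactly one of `u, v`. -/
noncomputable def dSet (u v : Fin n) (G : EdgeSet n) : Finset (Fin n) :=
  univ.filter fun w => w ≠ u ∧ w ≠ v ∧ ((s(u, w) ∈ G ∧ s(v, w) ∉ G) ∨ (s(u, w) ∉ G ∧ s(v, w) ∈ G))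

/-- Vertices outside `{u, v}` adjacent to `u` only. -/
noncomputable def aSet (u v : Fin n) (G : EdgeSet n) : Finset (Fin n) :=
  univ.filter fun w => w ≠ u ∧ w ≠ v ∧ s(u, w) ∈ G ∧ s(v, w) ∉ G

theorem mem_iSet {G : EdgeSet n} {w : Fin n} :
    w ∈ iSet u v G ↔ w ≠ u ∧ w ≠ v ∧ s(u, w) ∈ G ∧ s(v, w) ∈ G := by
  simp [iSet]

theorem mem_dSet {G : EdgeSet n} {w : Fin n} :
    w ∈ dSet u v G ↔ w ≠ u ∧ w ≠ v ∧ ((s(u, w) ∈ G ∧ s(v, w) ∉ G) ∨ (s(u, w) ∉ G ∧ s(v, w) ∈ G)) := by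
  simp only [dSet, Finset.mem_filter, Finset.mem_univ, true_and]

theorem mem_aSet {G : EdgeSet n} {w : Fin n} :
    w ∈ aSet u v G ↔ w ≠ u ∧ w ≠ v ∧ s(u, w) ∈ G ∧ s(v, w) ∉ G := by
  simp only [aSet, Finset.mem_filter, Finset.mem_univ, true_and]

theorem aSet_subset (G : EdgeSet n) : aSet u v G ⊆ dSet u v G := by
  intro w hw
  rw [mem_aSet] at hw
  rw [mem_dSet]
  exact ⟨hw.1, hw.2.1, Or.inl hw.2.2⟩

theorem not_mem_both {G : EdgeSet n} {w : Fin n} (h1 : w ∈ iSet u v G) (h2 : w ∈ dSet u v G) :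
    False := by
  rw [mem_iSet] at h1
  rw [mem_dSet] at h2
  tauto

/-- The graph of the Johnson slice with `u`-part `A`. -/
noncomputable def betaG (u v : Fin n) (G₀ : EdgeSet n) (A : Finset (Fin n)) : EdgeSet n :=
  univ.filter fun e => (e ∉ blk u v ∧ e ∈ G₀) ∨ ∃ w, w ≠ u ∧ w ≠ v ∧
    ((e = s(u, w) ∧ (w ∈ iSet u v G₀ ∨ w ∈ A)) ∨
      (e = s(v, w) ∧ (w ∈ iSet u v G₀ ∨ (w ∈ dSet u v G₀ ∧ w ∉ A))))

theorem mem_betaG {G₀ : EdgeSet n} {A : Finset (Fin n)} {e : Cell n} :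
    e ∈ betaG u v G₀ A ↔ (e ∉ blk u v ∧ e ∈ G₀) ∨ ∃ w, w ≠ u ∧ w ≠ v ∧
    ((e = s(u, w) ∧ (w ∈ iSet u v G₀ ∨ w ∈ A)) ∨
      (e = s(v, w) ∧ (w ∈ iSet u v G₀ ∨ (w ∈ dSet u v G₀ ∧ w ∉ A)))) := by
  simp only [betaG, Finset.mem_filter, Finset.mem_univ, true_and]

theorem mem_betaG_off {G₀ : EdgeSet n} {A : Finset (Fin n)} {e : Cell n} (he : e ∉ blk u v) :
    e ∈ betaG u v G₀ A ↔ e ∈ G₀ := by
  rw [mem_betaG]
  constructor
  · rintro (⟨_, h⟩ | ⟨w, h1, h2, ⟨rfl, _⟩ | ⟨rfl, _⟩⟩)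
    · exact h
    · exact absurd (cell_u_mem_blk h1 h2) he
    · exact absurd (cell_v_mem_blk h1 h2) he
  · intro h
    exact Or.inl ⟨he, h⟩

theorem mem_betaG_u (huv : u ≠ v) {G₀ : EdgeSet n} {A : Finset (Fin n)} {w : Fin n} (h1 : w ≠ u)
    (h2 : w ≠ v) : s(u, w) ∈ betaG u v G₀ A ↔ w ∈ iSet u v G₀ ∨ w ∈ A := by
  rw [mem_betaG]
  constructor
  · rintro (⟨h, _⟩ | ⟨w', _, _, ⟨e, h⟩ | ⟨e, _⟩⟩)
    · exact absurd (cell_u_mem_blk h1 h2) h
    · rw [Sym2.congr_right.mp e]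
      exact h
    · rw [Sym2.eq_iff] at e
      rcases e with ⟨h3, _⟩ | ⟨_, h3⟩
      · exact absurd h3 huv
      · exact absurd h3 h2
  · intro h
    exact Or.inr ⟨w, h1, h2, Or.inl ⟨rfl, h⟩⟩

theorem mem_betaG_v (huv : u ≠ v) {G₀ : EdgeSet n} {A : Finset (Fin n)} {w : Fin n} (h1 : w ≠ u)
    (h2 : w ≠ v) : s(v, w) ∈ betaG u v G₀ A ↔ w ∈ iSet u v G₀ ∨ (w ∈ dSet u v G₀ ∧ w ∉ A) := by
  rw [mem_betaG]
  constructor
  · rintro (⟨h, _⟩ | ⟨w', _, _, ⟨e, _⟩ | ⟨e, h⟩⟩)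
    · exact absurd (cell_v_mem_blk h1 h2) h
    · rw [Sym2.eq_iff] at e
      rcases e with ⟨h3, _⟩ | ⟨_, h3⟩
      · exact absurd h3.symm huv
      · exact absurd h3 h1
    · rw [Sym2.congr_right.mp e]
      exact h
  · intro h
    exact Or.inr ⟨w, h1, h2, Or.inr ⟨rfl, h⟩⟩

/-- `betaG` at the `u`-part of `G₀` is `G₀`. -/
theorem betaG_self (huv : u ≠ v) (G₀ : EdgeSet n) : betaG u v G₀ (aSet u v G₀) = G₀ := by
  apply graph_ext_blk (u := u) (v := v)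
  · intro e he
    exact mem_betaG_off he
  · intro w h1 h2
    rw [mem_betaG_u huv h1 h2, mem_iSet, mem_aSet]
    tauto
  · intro w h1 h2
    rw [mem_betaG_v huv h1 h2, mem_iSet, mem_dSet, mem_aSet]
    tauto

/-- Splitting the degree at `u, v`. -/
theorem card_nbrs_split (G : EdgeSet n) (i : Fin n) (huv : u ≠ v) :
    (nbrs G i).card = (if s(i, u) ∈ G then 1 else 0) + (if s(i, v) ∈ G then 1 else 0)
      + (univ.filter fun w => w ≠ u ∧ w ≠ v ∧ s(i, w) ∈ G).card := by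
  unfold nbrs
  rw [Finset.card_filter, overlap_sum_split huv, Finset.card_filter, Finset.sum_filter]
  congr 1
  apply Finset.sum_congr rfl
  intro w _
  by_cases h : w ≠ u ∧ w ≠ v
  · simp [h]
  · have h' : ¬ (w ≠ u ∧ w ≠ v ∧ s(i, w) ∈ G) := fun h2 => h ⟨h2.1, h2.2.1⟩
    simp [h, h']

/-- The row of `u` in `betaG`. -/
theorem row_u_betaG (huv : u ≠ v) (G₀ : EdgeSet n) {A : Finset (Fin n)}
    (hA : A ⊆ dSet u v G₀) :
    (univ.filter fun w => w ≠ u ∧ w ≠ v ∧ s(u, w) ∈ betaG u v G₀ A).card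
      = (iSet u v G₀).card + A.card := by
  rw [← Finset.card_union_of_disjoint]
  · congr 1
    ext w
    simp only [Finset.mem_filter, Finset.mem_univ, true_and, Finset.mem_union]
    constructor
    · rintro ⟨h1, h2, h3⟩
      exact (mem_betaG_u huv h1 h2).mp h3
    · intro h
      have h0 : w ≠ u ∧ w ≠ v := by
        rcases h with h | h
        · have := mem_iSet.mp h
          exact ⟨this.1, this.2.1⟩
        · have := mem_dSet.mp (hA h)
          exact ⟨this.1, this.2.1⟩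
      exact ⟨h0.1, h0.2, (mem_betaG_u huv h0.1 h0.2).mpr h⟩
  · rw [Finset.disjoint_left]
    intro w h1 h2
    exact not_mem_both h1 (hA h2)

/-- The row of `v` in `betaG`. -/
theorem row_v_betaG (huv : u ≠ v) (G₀ : EdgeSet n) {A : Finset (Fin n)}
    (hA : A ⊆ dSet u v G₀) :
    (univ.filter fun w => w ≠ u ∧ w ≠ v ∧ s(v, w) ∈ betaG u v G₀ A).card + A.card
      = (iSet u v G₀).card + (dSet u v G₀).card := by
  have e : (univ.filter fun w => w ≠ u ∧ w ≠ v ∧ s(v, w) ∈ betaG u v G₀ A)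
      = iSet u v G₀ ∪ (dSet u v G₀ \ A) := by
    ext w
    simp only [Finset.mem_filter, Finset.mem_univ, true_and, Finset.mem_union, Finset.mem_sdiff]
    constructor
    · rintro ⟨h1, h2, h3⟩
      exact (mem_betaG_v huv h1 h2).mp h3
    · intro h
      have h0 : w ≠ u ∧ w ≠ v := by
        rcases h with h | h
        · have := mem_iSet.mp h
          exact ⟨this.1, this.2.1⟩
        · have := mem_dSet.mp h.1
          exact ⟨this.1, this.2.1⟩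
      exact ⟨h0.1, h0.2, (mem_betaG_v huv h0.1 h0.2).mpr h⟩
  have hd : Disjoint (iSet u v G₀) (dSet u v G₀ \ A) := by
    rw [Finset.disjoint_left]
    intro w h1 h2
    exact not_mem_both h1 (Finset.mem_sdiff.mp h2).1
  rw [e, Finset.card_union_of_disjoint hd, Finset.card_sdiff_of_subset hA]
  have := Finset.card_le_card hA
  omega

/-- The degree in `betaG` only depends on the size of `A`. -/
theorem card_nbrs_betaG (huv : u ≠ v) {G₀ : EdgeSet n} {A A' : Finset (Fin n)}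
    (hA : A ⊆ dSet u v G₀) (hA' : A' ⊆ dSet u v G₀) (hc : A.card = A'.card) (i : Fin n) :
    (nbrs (betaG u v G₀ A) i).card = (nbrs (betaG u v G₀ A') i).card := by
  rw [card_nbrs_split _ i huv, card_nbrs_split (betaG u v G₀ A') i huv]
  by_cases hiu : i = u
  · subst hiu
    rw [row_u_betaG huv G₀ hA, row_u_betaG huv G₀ hA', hc]
    simp only [mem_betaG_off (cell_uu_off_blk huv), mem_betaG_off (cell_uv_off_blk huv)]
  by_cases hiv : i = v
  · subst hiv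
    have h1 := row_v_betaG huv G₀ hA
    have h2 := row_v_betaG huv G₀ hA'
    have e1 : s(i, u) ∉ blk u i := by
      rw [Sym2.eq_swap]
      exact cell_uv_off_blk huv
    simp only [mem_betaG_off e1, mem_betaG_off (cell_vv_off_blk huv)]
    omega
  · have e1 : s(i, u) = s(u, i) := Sym2.eq_swap
    have e2 : s(i, v) = s(v, i) := Sym2.eq_swap
    rw [e1, e2]
    simp only [mem_betaG_u huv hiu hiv, mem_betaG_v huv hiu hiv]
    have e3 : (univ.filter fun w => w ≠ u ∧ w ≠ v ∧ s(i, w) ∈ betaG u v G₀ A)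
        = (univ.filter fun w => w ≠ u ∧ w ≠ v ∧ s(i, w) ∈ betaG u v G₀ A') := by
      ext w
      simp only [Finset.mem_filter, Finset.mem_univ, true_and]
      constructor
      · rintro ⟨h1, h2, h3⟩
        exact ⟨h1, h2, (mem_betaG_off (cell_off_blk hiu hiv h1 h2)).mpr
          ((mem_betaG_off (cell_off_blk hiu hiv h1 h2)).mp h3)⟩
      · rintro ⟨h1, h2, h3⟩
        exact ⟨h1, h2, (mem_betaG_off (cell_off_blk hiu hiv h1 h2)).mpr
          ((mem_betaG_off (cell_off_blk hiu hiv h1 h2)).mp h3)⟩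
    rw [e3]
    by_cases hI : i ∈ iSet u v G₀
    · simp [hI]
    by_cases hD : i ∈ dSet u v G₀
    · by_cases h1 : i ∈ A <;> by_cases h2 : i ∈ A' <;> simp [hI, hD, h1, h2]
    · have h1 : i ∉ A := fun h => hD (hA h)
      have h2 : i ∉ A' := fun h => hD (hA' h)
      simp [hI, hD, h1, h2]

/-- `betaG` lands in `Omega d`. -/
theorem betaG_mem {d : Fin n → ℕ} (huv : u ≠ v) {G₀ : EdgeSet n} (hG₀ : G₀ ∈ Omega d)
    {A : Finset (Fin n)} (hA : A ∈ powersetCard (aSet u v G₀).card (dSet u v G₀)) :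
    betaG u v G₀ A ∈ Omega d := by
  have hA' := Finset.mem_powersetCard.mp hA
  have hG := mem_Omega.mp hG₀
  rw [mem_Omega]
  constructor
  · intro e he
    rcases mem_betaG.mp he with ⟨_, h⟩ | ⟨w, h1, h2, ⟨rfl, _⟩ | ⟨rfl, _⟩⟩
    · exact hG.1 e h
    · simpa using h1.symm
    · simpa using h2.symm
  · intro i
    rw [← hG.2 i]
    have := card_nbrs_betaG huv hA'.1 (aSet_subset G₀) hA'.2 i
    rwa [betaG_self huv] at this

/-- Two realizations in the same fibre have the same cells at `u, v` up to exchange. -/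
theorem column_eq {d : Fin n → ℕ} (huv : u ≠ v) {G G₀ : EdgeSet n} (hG : G ∈ Omega d)
    (hG₀ : G₀ ∈ Omega d) (hoff : off (blk u v) G = off (blk u v) G₀) {w : Fin n} (h1 : w ≠ u)
    (h2 : w ≠ v) :
    (if s(u, w) ∈ G then 1 else 0) + (if s(v, w) ∈ G then 1 else 0)
      = (if s(u, w) ∈ G₀ then 1 else 0) + (if s(v, w) ∈ G₀ then 1 else 0) := by
  have e1 := card_nbrs_split G w huv
  have e2 := card_nbrs_split G₀ w huv
  rw [(mem_Omega.mp hG).2 w] at e1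
  rw [(mem_Omega.mp hG₀).2 w] at e2
  have e3 : (univ.filter fun x => x ≠ u ∧ x ≠ v ∧ s(w, x) ∈ G)
      = (univ.filter fun x => x ≠ u ∧ x ≠ v ∧ s(w, x) ∈ G₀) := by
    ext x
    simp only [Finset.mem_filter, Finset.mem_univ, true_and]
    have hoff' := off_eq_iff.mp hoff
    constructor
    · rintro ⟨h3, h4, h5⟩
      exact ⟨h3, h4, (hoff' _ (cell_off_blk h1 h2 h3 h4)).mp h5⟩
    · rintro ⟨h3, h4, h5⟩
      exact ⟨h3, h4, (hoff' _ (cell_off_blk h1 h2 h3 h4)).mpr h5⟩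
  rw [e3] at e1
  have s1 : s(w, u) = s(u, w) := Sym2.eq_swap
  have s2 : s(w, v) = s(v, w) := Sym2.eq_swap
  rw [s1, s2] at e1 e2
  omega

/-- The column condition in propositional form. -/
theorem column_cases {p q p' q' : Prop} [Decidable p] [Decidable q] [Decidable p'] [Decidable q']
    (h : (if p then 1 else 0) + (if q then 1 else 0)
      = ((if p' then 1 else 0) + (if q' then 1 else 0) : ℕ)) :
    ((p ∧ q) ↔ (p' ∧ q')) ∧ (((p ∧ ¬ q) ∨ (¬ p ∧ q)) ↔ ((p' ∧ ¬ q') ∨ (¬ p' ∧ q'))) := by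
  by_cases a1 : p <;> by_cases a2 : q <;> by_cases a3 : p' <;> by_cases a4 : q' <;>
    simp [a1, a2, a3, a4] at h ⊢

theorem iSet_eq_of_fibre {d : Fin n → ℕ} (huv : u ≠ v) {G G₀ : EdgeSet n} (hG : G ∈ Omega d)
    (hG₀ : G₀ ∈ Omega d) (hoff : off (blk u v) G = off (blk u v) G₀) :
    iSet u v G = iSet u v G₀ := by
  ext w
  rw [mem_iSet, mem_iSet]
  by_cases h1 : w = u
  · simp [h1]
  by_cases h2 : w = v
  · simp [h2]
  have := (column_cases (column_eq huv hG hG₀ hoff h1 h2)).1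
  simp only [ne_eq, h1, h2, not_false_eq_true, true_and]
  exact this

theorem dSet_eq_of_fibre {d : Fin n → ℕ} (huv : u ≠ v) {G G₀ : EdgeSet n} (hG : G ∈ Omega d)
    (hG₀ : G₀ ∈ Omega d) (hoff : off (blk u v) G = off (blk u v) G₀) :
    dSet u v G = dSet u v G₀ := by
  ext w
  rw [mem_dSet, mem_dSet]
  by_cases h1 : w = u
  · simp [h1]
  by_cases h2 : w = v
  · simp [h2]
  have := (column_cases (column_eq huv hG hG₀ hoff h1 h2)).2
  simp only [ne_eq, h1, h2, not_false_eq_true, true_and]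
  exact this

/-- Every graph of the fibre is a `betaG`. -/
theorem betaG_surj {d : Fin n → ℕ} (huv : u ≠ v) {G G₀ : EdgeSet n} (hG : G ∈ Omega d)
    (hG₀ : G₀ ∈ Omega d) (hoff : off (blk u v) G = off (blk u v) G₀) :
    aSet u v G ∈ powersetCard (aSet u v G₀).card (dSet u v G₀) ∧
      betaG u v G₀ (aSet u v G) = G := by
  have hI := iSet_eq_of_fibre huv hG hG₀ hoff
  have hD := dSet_eq_of_fibre huv hG hG₀ hoff
  have hoff' := off_eq_iff.mp hoff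
  refine ⟨Finset.mem_powersetCard.mpr ⟨?_, ?_⟩, ?_⟩
  · rw [← hD]
    exact aSet_subset G
  · -- the degree of `u`
    have e1 := card_nbrs_split G u huv
    have e2 := card_nbrs_split G₀ u huv
    rw [(mem_Omega.mp hG).2 u] at e1
    rw [(mem_Omega.mp hG₀).2 u] at e2
    have r1 := row_u_betaG huv G (aSet_subset G)
    have r2 := row_u_betaG huv G₀ (aSet_subset G₀)
    rw [betaG_self huv] at r1 r2
    rw [r1] at e1
    rw [r2, ← hI] at e2
    have h1 : s(u, u) ∈ G ↔ s(u, u) ∈ G₀ := hoff' _ (cell_uu_off_blk huv)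
    have h2 : s(u, v) ∈ G ↔ s(u, v) ∈ G₀ := hoff' _ (cell_uv_off_blk huv)
    simp only [h1, h2] at e1
    omega
  · apply graph_ext_blk (u := u) (v := v)
    · intro e he
      rw [mem_betaG_off he]
      exact (hoff' e he).symm
    · intro w h1 h2
      rw [mem_betaG_u huv h1 h2, ← hI, mem_iSet, mem_aSet]
      tauto
    · intro w h1 h2
      rw [mem_betaG_v huv h1 h2, ← hI, ← hD, mem_iSet, mem_dSet, mem_aSet]
      tauto

/-- `betaG` is injective on subsets of `D`. -/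
theorem betaG_inj (huv : u ≠ v) {G₀ : EdgeSet n} {k : ℕ} :
    Set.InjOn (betaG u v G₀) (powersetCard k (dSet u v G₀) : Set (Finset (Fin n))) := by
  intro A hA A' hA' h
  have hA1 := (Finset.mem_powersetCard.mp (Finset.mem_coe.mp hA)).1
  have hA2 := (Finset.mem_powersetCard.mp (Finset.mem_coe.mp hA')).1
  ext w
  constructor
  · intro hw
    have hw' := mem_dSet.mp (hA1 hw)
    have : s(u, w) ∈ betaG u v G₀ A :=
      (mem_betaG_u huv hw'.1 hw'.2.1).mpr (Or.inr hw)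
    rw [h, mem_betaG_u huv hw'.1 hw'.2.1] at this
    rcases this with h3 | h3
    · exact (not_mem_both h3 (hA1 hw)).elim
    · exact h3
  · intro hw
    have hw' := mem_dSet.mp (hA2 hw)
    have : s(u, w) ∈ betaG u v G₀ A' :=
      (mem_betaG_u huv hw'.1 hw'.2.1).mpr (Or.inr hw)
    rw [← h, mem_betaG_u huv hw'.1 hw'.2.1] at this
    rcases this with h3 | h3
    · exact (not_mem_both h3 (hA2 hw)).elim
    · exact h3

/-- The fibre of `off (blk u v)` through `G₀` as an image of a Johnson slice. -/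
theorem fibre_eq_betaG {d : Fin n → ℕ} (huv : u ≠ v) {G₀ : EdgeSet n} (hG₀ : G₀ ∈ Omega d) :
    (Omega d).filter (fun G => off (blk u v) G = off (blk u v) G₀)
      = (powersetCard (aSet u v G₀).card (dSet u v G₀)).image (betaG u v G₀) := by
  ext G
  rw [Finset.mem_filter, Finset.mem_image]
  constructor
  · rintro ⟨h1, h2⟩
    have := betaG_surj huv h1 hG₀ h2
    exact ⟨_, this.1, this.2⟩
  · rintro ⟨A, hA, rfl⟩
    refine ⟨betaG_mem huv hG₀ hA, ?_⟩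
    rw [off_eq_iff]
    intro e he
    exact mem_betaG_off he

theorem prop_active {P1 P2 P3 Q1 Q2 Q3 : Prop} (a1 : P2 → P3) (a2 : Q2 → Q3) (a3 : P1 → ¬ P3)
    (a4 : Q1 → ¬ Q3) :
    (((P1 ∨ P2) ∧ (Q1 ∨ (Q3 ∧ ¬ Q2)) ∧ ¬ (Q1 ∨ Q2) ∧ ¬ (P1 ∨ (P3 ∧ ¬ P2))) ∨
      (¬ (P1 ∨ P2) ∧ ¬ (Q1 ∨ (Q3 ∧ ¬ Q2)) ∧ (Q1 ∨ Q2) ∧ (P1 ∨ (P3 ∧ ¬ P2)))) ↔
      P3 ∧ Q3 ∧ ((P2 ∧ ¬ Q2) ∨ (¬ P2 ∧ Q2)) := by
  tauto

theorem prop_flip_u {I A Wj Wl : Prop} (h1 : Wj → A) (h2 : Wj → ¬ I) (h3 : Wl → ¬ A)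
    (h4 : Wl → ¬ I) (h5 : Wj → ¬ Wl) :
    (((I ∨ A) ∧ ¬ (Wj ∨ Wl)) ∨ ((Wj ∨ Wl) ∧ ¬ (I ∨ A))) ↔ I ∨ (Wl ∨ (¬ Wj ∧ A)) := by
  by_cases hj : Wj
  · simp [hj, h1 hj, h2 hj, h5 hj]
  · by_cases hl : Wl
    · simp [hj, hl, h3 hl, h4 hl]
    · simp [hj, hl]

theorem prop_flip_v {I D A Wj Wl : Prop} (h1 : Wj → A) (h1' : Wj → D) (h2 : Wj → ¬ I)
    (h3 : Wl → ¬ A) (h3' : Wl → D) (h4 : Wl → ¬ I) (h5 : Wj → ¬ Wl) :
    (((I ∨ (D ∧ ¬ A)) ∧ ¬ (Wj ∨ Wl)) ∨ ((Wj ∨ Wl) ∧ ¬ (I ∨ (D ∧ ¬ A)))) ↔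
      I ∨ (D ∧ ¬ (Wl ∨ (¬ Wj ∧ A))) := by
  by_cases hj : Wj
  · simp [hj, h1 hj, h1' hj, h2 hj, h5 hj]
  · by_cases hl : Wl
    · simp [hj, hl, h3 hl, h3' hl, h4 hl]
    · simp [hj, hl]

theorem prop_off {E R : Prop} (h : ¬ R) : ((E ∧ ¬ R) ∨ (R ∧ ¬ E)) ↔ E := by
  tauto

/-- Activity of a rectangle in `betaG`, as separation. -/
theorem active_betaG (huv : u ≠ v) {G₀ : EdgeSet n} {A : Finset (Fin n)}
    (hA : A ⊆ dSet u v G₀) {x y : Fin n} (hx1 : x ≠ u) (hx2 : x ≠ v) (hy1 : y ≠ u) (hy2 : y ≠ v) :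
    active u v x y (betaG u v G₀ A) ↔
      x ∈ dSet u v G₀ ∧ y ∈ dSet u v G₀ ∧ ((x ∈ A ∧ y ∉ A) ∨ (x ∉ A ∧ y ∈ A)) := by
  unfold active
  rw [mem_betaG_u huv hx1 hx2, mem_betaG_u huv hy1 hy2, mem_betaG_v huv hx1 hx2,
    mem_betaG_v huv hy1 hy2]
  exact prop_active (fun h => hA h) (fun h => hA h) (fun h h' => not_mem_both h h')
    (fun h h' => not_mem_both h h')

theorem rect_u_iff (huv : u ≠ v) {j l w : Fin n} (hj : j ≠ u) (hl : l ≠ u) (h2 : w ≠ v) :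
    s(u, w) ∈ rect u v j l ↔ w = j ∨ w = l := by
  rw [mem_rect, Sym2.eq_iff, Sym2.eq_iff, Sym2.eq_iff, Sym2.eq_iff]
  constructor
  · rintro ((⟨_, h⟩ | ⟨h3, _⟩) | (⟨_, h⟩ | ⟨h3, _⟩) | (⟨h3, _⟩ | ⟨_, h3⟩) | (⟨h3, _⟩ | ⟨_, h3⟩))
    · exact Or.inl h
    · exact absurd h3.symm hj
    · exact Or.inr h
    · exact absurd h3.symm hl
    · exact absurd h3 huv
    · exact absurd h3 h2
    · exact absurd h3 huv
    · exact absurd h3 h2
  · rintro (rfl | rfl)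
    · exact Or.inl (Or.inl ⟨rfl, rfl⟩)
    · exact Or.inr (Or.inl (Or.inl ⟨rfl, rfl⟩))

theorem rect_v_iff (huv : u ≠ v) {j l w : Fin n} (hj : j ≠ v) (hl : l ≠ v) (h1 : w ≠ u) :
    s(v, w) ∈ rect u v j l ↔ w = j ∨ w = l := by
  rw [mem_rect, Sym2.eq_iff, Sym2.eq_iff, Sym2.eq_iff, Sym2.eq_iff]
  constructor
  · rintro ((⟨h3, _⟩ | ⟨_, h3⟩) | (⟨h3, _⟩ | ⟨_, h3⟩) | (⟨_, h⟩ | ⟨h3, _⟩) | (⟨_, h⟩ | ⟨h3, _⟩))
    · exact absurd h3.symm huv
    · exact absurd h3 h1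
    · exact absurd h3.symm huv
    · exact absurd h3 h1
    · exact Or.inl h
    · exact absurd h3.symm hj
    · exact Or.inr h
    · exact absurd h3.symm hl
  · rintro (rfl | rfl)
    · exact Or.inr (Or.inr (Or.inl (Or.inl ⟨rfl, rfl⟩)))
    · exact Or.inr (Or.inr (Or.inr (Or.inl ⟨rfl, rfl⟩)))

/-- The flip is a transposition. -/
theorem flip_betaG (huv : u ≠ v) {G₀ : EdgeSet n} {A : Finset (Fin n)}
    (hA : A ⊆ dSet u v G₀) {j l : Fin n} (hj : j ∈ A) (hl : l ∈ dSet u v G₀ \ A) :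
    flip u v j l (betaG u v G₀ A) = betaG u v G₀ (insert l (A.erase j)) := by
  have hl' := Finset.mem_sdiff.mp hl
  have hj' := mem_dSet.mp (hA hj)
  have hl'' := mem_dSet.mp hl'.1
  have hjl : j ≠ l := fun h => hl'.2 (h ▸ hj)
  have hjI : j ∉ iSet u v G₀ := fun h => not_mem_both h (hA hj)
  have hlI : l ∉ iSet u v G₀ := fun h => not_mem_both h hl'.1
  apply graph_ext_blk (u := u) (v := v)
  · intro e he
    rw [mem_flip, mem_betaG_off he, mem_betaG_off he]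
    have : e ∉ rect u v j l := by
      intro h
      apply he
      rcases mem_rect.mp h with rfl | rfl | rfl | rfl
      · exact cell_u_mem_blk hj'.1 hj'.2.1
      · exact cell_u_mem_blk hl''.1 hl''.2.1
      · exact cell_v_mem_blk hj'.1 hj'.2.1
      · exact cell_v_mem_blk hl''.1 hl''.2.1
    exact prop_off this
  · intro w h1 h2
    rw [mem_flip, rect_u_iff huv hj'.1 hl''.1 h2, mem_betaG_u huv h1 h2, mem_betaG_u huv h1 h2,
      Finset.mem_insert, Finset.mem_erase]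
    exact prop_flip_u (fun h => h ▸ hj) (fun h => h ▸ hjI) (fun h => h ▸ hl'.2) (fun h => h ▸ hlI)
      (fun h h' => hjl (h.symm.trans h'))
  · intro w h1 h2
    rw [mem_flip, rect_v_iff huv hj'.2.1 hl''.2.1 h1, mem_betaG_v huv h1 h2, mem_betaG_v huv h1 h2,
      Finset.mem_insert, Finset.mem_erase]
    exact prop_flip_v (fun h => h ▸ hj) (fun h => h ▸ hA hj) (fun h => h ▸ hjI) (fun h => h ▸ hl'.2)
      (fun h => h ▸ hl'.1) (fun h => h ▸ hlI) (fun h h' => hjl (h.symm.trans h'))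

end KTV
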