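import Vale.Agent.Lib.KTV.Graph

/-!
# Connectivity of the switch graph on simple graphs with given degrees (KTV project)
Overlap-raising switches: for two different realizations, one of them admits a switch that
strictly raises the number of common edges.
-/

open Finset

namespace KTV

open Vale.Agent.Lib.P335 Classical

variable {n : ℕ}

theorem mem_flip {u v x y : Fin n} {G : EdgeSet n} {e : Cell n} :
    e ∈ flip u v x y G ↔ (e ∈ G ∧ e ∉ rect u v x y) ∨ (e ∈ rect u v x y ∧ e ∉ G) := by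
  unfold flip
  exact Finset.mem_symmDiff

theorem mem_rect {u v x y : Fin n} {e : Cell n} :
    e ∈ rect u v x y ↔ e = s(u, x) ∨ e = s(u, y) ∨ e = s(v, x) ∨ e = s(v, y) := by
  simp [rect]

/-- A vertex seeing the rectangle in exactly two cells keeps its degree under the flip. -/
theorem card_nbrs_symmDiff {G R : EdgeSet n} {i a b : Fin n} (hab : a ≠ b)
    (hR : ∀ j, s(i, j) ∈ R ↔ j = a ∨ j = b)
    (h : (s(i, a) ∈ G ∧ s(i, b) ∉ G) ∨ (s(i, a) ∉ G ∧ s(i, b) ∈ G)) :
    (nbrs (symmDiff G R) i).card = (nbrs G i).card := by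
  have key : ∀ {a b : Fin n}, a ≠ b → (∀ j, s(i, j) ∈ R ↔ j = a ∨ j = b) → s(i, a) ∈ G →
      s(i, b) ∉ G → (nbrs (symmDiff G R) i).card = (nbrs G i).card := by
    intro a b hab hR h1 h2
    have e : nbrs (symmDiff G R) i = insert b ((nbrs G i).erase a) := by
      ext j
      simp only [mem_nbrs, Finset.mem_symmDiff, hR, Finset.mem_insert, Finset.mem_erase]
      by_cases hja : j = a
      · subst hja
        simp [h1, hab]
      by_cases hjb : j = b
      · subst hjb
        simp [h2]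
      simp [hja, hjb]
    rw [e, Finset.card_insert_of_notMem (by simp [mem_nbrs, h2]),
      Finset.card_erase_of_mem (mem_nbrs.mpr h1)]
    have : 0 < (nbrs G i).card := Finset.card_pos.mpr ⟨a, mem_nbrs.mpr h1⟩
    omega
  rcases h with ⟨h1, h2⟩ | ⟨h1, h2⟩
  · exact key hab hR h1 h2
  · exact key hab.symm (fun j => (hR j).trans or_comm) h2 h1

/-- The flip of an active rectangle stays in `Omega d`. -/
theorem flip_mem {d : Fin n → ℕ} {u v x y : Fin n} (h : Distinct4 u v x y) {G : EdgeSet n}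
    (hG : G ∈ Omega d) (ha : active u v x y G) : flip u v x y G ∈ Omega d := by
  obtain ⟨huv, hux, huy, hvx, hvy, hxy⟩ := h
  rw [mem_Omega] at hG ⊢
  refine ⟨?_, ?_⟩
  · intro e he
    rcases mem_flip.mp he with ⟨h1, _⟩ | ⟨h1, _⟩
    · exact hG.1 e h1
    · rcases mem_rect.mp h1 with rfl | rfl | rfl | rfl <;> simp [*]
  · intro i
    rw [← hG.2 i]
    unfold flip
    by_cases hiu : i = u
    · subst hiu
      apply card_nbrs_symmDiff hxy
      · intro j
        simp only [mem_rect, Sym2.eq_iff]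
        constructor
        · rintro (⟨_, h⟩ | ⟨h1, h⟩ | ⟨_, h⟩ | ⟨h1, h⟩ | ⟨h1, h⟩ | ⟨h1, h⟩ | ⟨h1, h⟩ | ⟨h1, h⟩) <;>
            simp_all
        · rintro (rfl | rfl) <;> simp
      · rcases ha with ⟨h1, h2, h3, h4⟩ | ⟨h1, h2, h3, h4⟩
        · exact Or.inl ⟨h1, h3⟩
        · exact Or.inr ⟨h1, h3⟩
    by_cases hiv : i = v
    · subst hiv
      apply card_nbrs_symmDiff hxy
      · intro j
        simp only [mem_rect, Sym2.eq_iff]
        constructor
        · rintro (⟨h1, h⟩ | ⟨h1, h⟩ | ⟨h1, h⟩ | ⟨h1, h⟩ | ⟨h1, h⟩ | ⟨h1, h⟩ | ⟨h1, h⟩ | ⟨h1, h⟩) <;>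
            simp_all
        · rintro (rfl | rfl) <;> simp
      · rcases ha with ⟨h1, h2, h3, h4⟩ | ⟨h1, h2, h3, h4⟩
        · exact Or.inr ⟨h4, h2⟩
        · exact Or.inl ⟨h4, h2⟩
    by_cases hix : i = x
    · subst hix
      apply card_nbrs_symmDiff huv
      · intro j
        simp only [mem_rect, Sym2.eq_iff]
        constructor
        · rintro (⟨h1, h⟩ | ⟨h1, h⟩ | ⟨h1, h⟩ | ⟨h1, h⟩ | ⟨h1, h⟩ | ⟨h1, h⟩ | ⟨h1, h⟩ | ⟨h1, h⟩) <;>
            simp_all
        · rintro (rfl | rfl) <;> simp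
      · rcases ha with ⟨h1, h2, h3, h4⟩ | ⟨h1, h2, h3, h4⟩
        · left; rw [Sym2.eq_swap]; refine ⟨h1, ?_⟩; rw [Sym2.eq_swap]; exact h4
        · right; rw [Sym2.eq_swap]; refine ⟨h1, ?_⟩; rw [Sym2.eq_swap]; exact h4
    by_cases hiy : i = y
    · subst hiy
      apply card_nbrs_symmDiff huv
      · intro j
        simp only [mem_rect, Sym2.eq_iff]
        constructor
        · rintro (⟨h1, h⟩ | ⟨h1, h⟩ | ⟨h1, h⟩ | ⟨h1, h⟩ | ⟨h1, h⟩ | ⟨h1, h⟩ | ⟨h1, h⟩ | ⟨h1, h⟩) <;>
            simp_all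
        · rintro (rfl | rfl) <;> simp
      · rcases ha with ⟨h1, h2, h3, h4⟩ | ⟨h1, h2, h3, h4⟩
        · right; rw [Sym2.eq_swap]; refine ⟨h3, ?_⟩; rw [Sym2.eq_swap]; exact h2
        · left; rw [Sym2.eq_swap]; refine ⟨h3, ?_⟩; rw [Sym2.eq_swap]; exact h2
    · congr 1
      ext j
      simp only [mem_nbrs, Finset.mem_symmDiff]
      have : s(i, j) ∉ rect u v x y := by
        rw [mem_rect]
        simp only [Sym2.eq_iff]
        simp [hiu, hiv, hix, hiy]
      simp [this]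

/-- The overlap of the flipped set with `Y` strictly grows. -/
theorem card_inter_symmDiff_lt {X Y : EdgeSet n} {c1 c2 c3 c4 : Cell n} (h34 : c3 ≠ c4)
    (hX3 : c3 ∉ X) (hX4 : c4 ∉ X)
    (hY1 : c1 ∉ Y) (hY3 : c3 ∈ Y) (hY : ¬ (c2 ∈ Y ∧ c4 ∉ Y)) {R : EdgeSet n}
    (hR : R = {c1, c2, c3, c4}) :
    (X ∩ Y).card < (symmDiff X R ∩ Y).card := by
  subst hR
  by_cases h2 : c2 ∈ Y
  · have h4 : c4 ∈ Y := by
      by_contra h
      exact hY ⟨h2, h⟩
    -- `X ∩ Y ⊆ insert c2 ((X' ∩ Y) \ {c3, c4})`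
    have hs : X ∩ Y ⊆ insert c2 ((symmDiff X {c1, c2, c3, c4} ∩ Y) \ {c3, c4}) := by
      intro e he
      rw [Finset.mem_inter] at he
      rw [Finset.mem_insert, Finset.mem_sdiff, Finset.mem_inter, Finset.mem_symmDiff]
      by_cases he2 : e = c2
      · exact Or.inl he2
      right
      have he1 : e ≠ c1 := fun h => hY1 (h ▸ he.2)
      have he3 : e ≠ c3 := fun h => hX3 (h ▸ he.1)
      have he4 : e ≠ c4 := fun h => hX4 (h ▸ he.1)
      simp [he1, he2, he3, he4, he.1, he.2]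
    have hsub : ({c3, c4} : EdgeSet n) ⊆ symmDiff X {c1, c2, c3, c4} ∩ Y := by
      intro e he
      rw [Finset.mem_insert, Finset.mem_singleton] at he
      rw [Finset.mem_inter, Finset.mem_symmDiff]
      rcases he with rfl | rfl
      · exact ⟨Or.inr ⟨by simp, hX3⟩, hY3⟩
      · exact ⟨Or.inr ⟨by simp, hX4⟩, h4⟩
    have hc1 := Finset.card_le_card hs
    have hc2 := Finset.card_insert_le c2 ((symmDiff X {c1, c2, c3, c4} ∩ Y) \ {c3, c4})
    have hc3 := Finset.card_sdiff_of_subset hsub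
    have hc4 : ({c3, c4} : EdgeSet n).card = 2 := Finset.card_pair h34
    have hc5 := Finset.card_le_card hsub
    omega
  · apply Finset.card_lt_card
    rw [Finset.ssubset_iff_of_subset]
    · refine ⟨c3, ?_, ?_⟩
      · rw [Finset.mem_inter, Finset.mem_symmDiff]
        exact ⟨Or.inr ⟨by simp, hX3⟩, hY3⟩
      · rw [Finset.mem_inter]
        exact fun h => hX3 h.1
    · intro e he
      rw [Finset.mem_inter] at he ⊢
      refine ⟨?_, he.2⟩
      rw [Finset.mem_symmDiff]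
      left
      refine ⟨he.1, ?_⟩
      have he1 : e ≠ c1 := fun h => hY1 (h ▸ he.2)
      have he2 : e ≠ c2 := fun h => h2 (h ▸ he.2)
      have he3 : e ≠ c3 := fun h => hX3 (h ▸ he.1)
      have he4 : e ≠ c4 := fun h => hX4 (h ▸ he.1)
      simp [he1, he2, he3, he4]

theorem ind_case (A B C D : Prop) [Decidable A] [Decidable B] [Decidable C] [Decidable D]
    (hk : 0 < (if A then (1 : ℤ) else 0) - (if B then 1 else 0) - (if C then 1 else 0)
      + (if D then 1 else 0)) (hn : ¬ (A ∧ ¬ B)) : D ∧ ¬ C ∧ ¬ (B ∧ ¬ A) := by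
  by_cases a1 : A <;> by_cases a2 : B <;> by_cases a3 : C <;> by_cases a4 : D <;>
    simp_all

/-- Two different realizations: one of them admits a switch that raises the number of common
cells. -/
theorem exists_gain_graph {d : Fin n → ℕ} {X Y : EdgeSet n} (hX : X ∈ Omega d) (hY : Y ∈ Omega d)
    (hne : X ≠ Y) :
    (∃ u v a b, Distinct4 u v a b ∧ active u v a b X ∧ (X ∩ Y).card < (flip u v a b X ∩ Y).card) ∨
    (∃ u v a b, Distinct4 u v a b ∧ active u v a b Y ∧ (Y ∩ X).card < (flip u v a b Y ∩ X).card) := by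
  have hX' := mem_Omega.mp hX
  have hY' := mem_Omega.mp hY
  obtain ⟨u, hu⟩ : ∃ u, nbrs X u ≠ nbrs Y u := by
    by_contra h
    push Not at h
    apply hne
    ext e
    induction e using Sym2.ind with
    | _ a b =>
      have := Finset.ext_iff.mp (h a) b
      simpa [mem_nbrs] using this
  have hcard : (nbrs X u).card = (nbrs Y u).card := by rw [hX'.2, hY'.2]
  obtain ⟨j, hj, hj'⟩ : ∃ j, j ∈ nbrs X u ∧ j ∉ nbrs Y u := by
    by_contra h
    push Not at h
    exact hu (Finset.eq_of_subset_of_card_le h hcard.ge)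
  obtain ⟨l, hl', hl⟩ : ∃ l, l ∈ nbrs Y u ∧ l ∉ nbrs X u := by
    by_contra h
    push Not at h
    exact hu (Finset.eq_of_subset_of_card_le h hcard.le).symm
  rw [mem_nbrs] at hj hj' hl hl'
  have hjl : j ≠ l := fun h => hl (h ▸ hj)
  have huj : u ≠ j := by
    rintro rfl
    exact irrefl_of_Omega hX u hj
  have hul : u ≠ l := by
    rintro rfl
    exact irrefl_of_Omega hY u hl'
  let w : Fin n → ℤ := fun a => (if s(l, a) ∈ X then 1 else 0) - (if s(j, a) ∈ X then 1 else 0)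
    - (if s(l, a) ∈ Y then 1 else 0) + (if s(j, a) ∈ Y then 1 else 0)
  have hdeg : ∀ (G : EdgeSet n) (i : Fin n), ∑ a, (if s(i, a) ∈ G then (1 : ℤ) else 0)
      = ((nbrs G i).card : ℤ) := by
    intro G i
    unfold nbrs
    rw [Finset.card_filter]
    push_cast
    rfl
  have hsum : ∑ a, w a = 0 := by
    simp only [w, Finset.sum_add_distrib, Finset.sum_sub_distrib, hdeg, hX'.2, hY'.2]
    ring
  have hwu : w u = -2 := by
    have h1 : s(l, u) ∉ X := by rw [Sym2.eq_swap]; exact hl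
    have h2 : s(j, u) ∈ X := by rw [Sym2.eq_swap]; exact hj
    have h3 : s(l, u) ∈ Y := by rw [Sym2.eq_swap]; exact hl'
    have h4 : s(j, u) ∉ Y := by rw [Sym2.eq_swap]; exact hj'
    simp [w, h1, h2, h3, h4]
  have hwjl : w j + w l = 0 := by
    have h1 : s(j, j) ∉ X := irrefl_of_Omega hX j
    have h2 : s(l, l) ∉ X := irrefl_of_Omega hX l
    have h3 : s(j, j) ∉ Y := irrefl_of_Omega hY j
    have h4 : s(l, l) ∉ Y := irrefl_of_Omega hY l
    have e : s(j, l) = s(l, j) := Sym2.eq_swap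
    simp only [w, h1, h2, h3, h4, if_false, e]
    ring
  obtain ⟨k, hku, hkj, hkl, hk⟩ : ∃ k, k ≠ u ∧ k ≠ j ∧ k ≠ l ∧ 0 < w k := by
    by_contra h
    push Not at h
    have hs : ∑ a, w a = w u + (w j + w l) + ∑ a ∈ ((univ.erase u).erase j).erase l, w a := by
      rw [← Finset.add_sum_erase _ _ (Finset.mem_univ u),
        ← Finset.add_sum_erase (univ.erase u) _ (Finset.mem_erase.mpr ⟨huj.symm, Finset.mem_univ j⟩),
        ← Finset.add_sum_erase ((univ.erase u).erase j) _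
          (Finset.mem_erase.mpr ⟨hjl.symm, Finset.mem_erase.mpr ⟨hul.symm, Finset.mem_univ l⟩⟩)]
      ring
    have hneg : ∑ a ∈ ((univ.erase u).erase j).erase l, w a ≤ 0 := by
      apply Finset.sum_nonpos
      intro a ha
      simp only [Finset.mem_erase, Finset.mem_univ, and_true] at ha
      exact h a ha.2.2 ha.2.1 ha.1
    rw [hsum, hwu, hwjl] at hs
    omega
  have d1 : Distinct4 u k j l := ⟨hku.symm, huj, hul, hkj, hkl, hjl⟩
  have d2 : Distinct4 u k l j := ⟨hku.symm, hul, huj, hkl, hkj, hjl.symm⟩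
  have ne1 : s(u, j) ≠ s(k, l) := by
    simp only [ne_eq, Sym2.eq_iff]; rintro (⟨h, _⟩ | ⟨h, _⟩)
    · exact hku h.symm
    · exact hul h
  have ne2 : s(u, j) ≠ s(u, l) := by
    simp only [ne_eq, Sym2.eq_iff]; rintro (⟨_, h⟩ | ⟨h, _⟩)
    · exact hjl h
    · exact hul h
  have ne3 : s(u, j) ≠ s(k, j) := by
    simp only [ne_eq, Sym2.eq_iff]; rintro (⟨h, _⟩ | ⟨h, _⟩)
    · exact hku h.symm
    · exact huj h
  have ne4 : s(k, l) ≠ s(u, l) := by
    simp only [ne_eq, Sym2.eq_iff]; rintro (⟨h, _⟩ | ⟨h, _⟩)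
    · exact hku h
    · exact hkl h
  have ne5 : s(k, l) ≠ s(k, j) := by
    simp only [ne_eq, Sym2.eq_iff]; rintro (⟨_, h⟩ | ⟨h, _⟩)
    · exact hjl h.symm
    · exact hkj h
  have ne6 : s(u, l) ≠ s(k, j) := by
    simp only [ne_eq, Sym2.eq_iff]; rintro (⟨h, _⟩ | ⟨h, _⟩)
    · exact hku h.symm
    · exact huj h
  by_cases hcase : s(k, l) ∈ X ∧ s(k, j) ∉ X
  · left
    refine ⟨u, k, j, l, d1, Or.inl ⟨hj, hcase.1, hl, hcase.2⟩, ?_⟩
    unfold flip
    apply card_inter_symmDiff_lt (c1 := s(u, j)) (c2 := s(k, l)) (c3 := s(u, l)) (c4 := s(k, j))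
      ne6 hl hcase.2 hj' hl'
    · rintro ⟨h1, h2⟩
      have e1 : s(l, k) ∈ X := by rw [Sym2.eq_swap]; exact hcase.1
      have e2 : s(j, k) ∉ X := by rw [Sym2.eq_swap]; exact hcase.2
      have e3 : s(l, k) ∈ Y := by rw [Sym2.eq_swap]; exact h1
      have e4 : s(j, k) ∉ Y := by rw [Sym2.eq_swap]; exact h2
      simp [w, e1, e2, e3, e4] at hk
    · ext e
      simp only [rect, Finset.mem_insert, Finset.mem_singleton]
      tauto
  · have hc2 : s(k, j) ∈ Y ∧ s(k, l) ∉ Y ∧ ¬ (s(k, j) ∈ X ∧ s(k, l) ∉ X) := by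
      have e1 : s(l, k) = s(k, l) := Sym2.eq_swap
      have e2 : s(j, k) = s(k, j) := Sym2.eq_swap
      simp only [w, e1, e2] at hk
      exact ind_case _ _ _ _ hk hcase
    right
    refine ⟨u, k, l, j, d2, Or.inl ⟨hl', hc2.1, hj', hc2.2.1⟩, ?_⟩
    unfold flip
    apply card_inter_symmDiff_lt (c1 := s(u, l)) (c2 := s(k, j)) (c3 := s(u, j)) (c4 := s(k, l))
      ne1 hj' hc2.2.1 hl hj hc2.2.2
    ext e
    simp only [rect, Finset.mem_insert, Finset.mem_singleton]
    tauto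

/-- A function invariant under all switches is constant on `Omega d`. -/
theorem const_of_flip_invariant {d : Fin n → ℕ} (f : EdgeSet n → ℝ)
    (hf : ∀ u v x y, Distinct4 u v x y → ∀ G ∈ Omega d, active u v x y G →
      f (flip u v x y G) = f G) :
    ∀ G ∈ Omega d, ∀ G' ∈ Omega d, f G = f G' := by
  have key : ∀ m : ℕ, ∀ X ∈ Omega d, ∀ Y ∈ Omega d,
      (univ : Finset (Cell n)).card - (X ∩ Y).card = m → f X = f Y := by
    intro m
    induction m using Nat.strong_induction_on with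
    | _ m ih =>
      intro X hX Y hY hm
      by_cases hne : X = Y
      · rw [hne]
      rcases exists_gain_graph hX hY hne with ⟨u, v, a, b, hd, ha, hgain⟩ | ⟨u, v, a, b, hd, ha, hgain⟩
      · have hle := Finset.card_le_card (Finset.subset_univ (flip u v a b X ∩ Y))
        have := ih _ (show (univ : Finset (Cell n)).card - (flip u v a b X ∩ Y).card < m by omega)
          _ (flip_mem hd hX ha) Y hY rfl
        rw [← hf u v a b hd X hX ha, this]
      · have hle := Finset.card_le_card (Finset.subset_univ (flip u v a b Y ∩ X))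
        have hcomm : (Y ∩ X).card = (X ∩ Y).card := by rw [Finset.inter_comm]
        have := ih _ (show (univ : Finset (Cell n)).card - (flip u v a b Y ∩ X).card < m by omega)
          _ (flip_mem hd hY ha) X hX rfl
        rw [← hf u v a b hd Y hY ha, this]
  intro G hG G' hG'
  exact key _ G hG G' hG' rfl

end KTV
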