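import Vale.Agent.Lib.KTV.GraphBeta

/-!
# Exchange of disjoint cell sets on realizations of a degree vector (KTV project)
Two realizations that differ from a third one on disjoint cell sets can be glued, and the cell
facts for blocks and rectangles.
-/

open Finset

namespace KTV.Exch

open Vale.Agent.Lib.P335 Classical

variable {n : ℕ}

/-- The indicator of a cell in a graph. -/
noncomputable def bit (H : EdgeSet n) (e : Cell n) : ℕ := if e ∈ H then 1 else 0

theorem bit_le_one (H : EdgeSet n) (e : Cell n) : bit H e ≤ 1 := by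
  unfold bit
  split_ifs <;> omega

theorem bit_eq_one {H : EdgeSet n} {e : Cell n} : bit H e = 1 ↔ e ∈ H := by
  unfold bit
  split_ifs with h <;> simp [h]

theorem bit_eq_zero {H : EdgeSet n} {e : Cell n} : bit H e = 0 ↔ e ∉ H := by
  unfold bit
  split_ifs with h <;> simp [h]

theorem bit_congr {H H' : EdgeSet n} {e : Cell n} (h : e ∈ H ↔ e ∈ H') : bit H e = bit H' e := by
  unfold bit
  simp only [h]

theorem card_nbrs_sum (H : EdgeSet n) (i : Fin n) : (nbrs H i).card = ∑ j, bit H s(i, j) := by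
  unfold nbrs bit
  rw [Finset.card_filter]

theorem sum_two_nat {a b : Fin n} (hab : a ≠ b) (F : Fin n → ℕ) :
    ∑ j, F j = F a + F b + ∑ j ∈ univ.filter (fun z => z ≠ a ∧ z ≠ b), F j := by
  have hu : (univ : Finset (Fin n)) = {a, b} ∪ univ.filter (fun z => z ≠ a ∧ z ≠ b) := by
    ext z
    simp only [Finset.mem_univ, Finset.mem_union, Finset.mem_insert, Finset.mem_singleton,
      Finset.mem_filter, true_and, true_iff]
    tauto
  have hd : Disjoint ({a, b} : Finset (Fin n)) (univ.filter (fun z => z ≠ a ∧ z ≠ b)) := by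
    rw [Finset.disjoint_left]
    intro z hz hz'
    simp only [Finset.mem_insert, Finset.mem_singleton] at hz
    simp only [Finset.mem_filter, Finset.mem_univ, true_and] at hz'
    tauto
  conv_lhs => rw [hu]
  rw [Finset.sum_union hd, Finset.sum_pair hab]

theorem deg_add_pointwise {H1 H2 H3 H4 : EdgeSet n} {i : Fin n}
    (h : ∀ j, bit H1 s(i, j) + bit H2 s(i, j) = bit H3 s(i, j) + bit H4 s(i, j)) :
    (nbrs H1 i).card + (nbrs H2 i).card = (nbrs H3 i).card + (nbrs H4 i).card := by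
  simp only [card_nbrs_sum, ← Finset.sum_add_distrib]
  exact Finset.sum_congr rfl (fun j _ => h j)

theorem deg_add_two {H1 H2 H3 H4 : EdgeSet n} {i a b : Fin n} (hab : a ≠ b)
    (h : ∀ j, j ≠ a → j ≠ b → bit H1 s(i, j) + bit H2 s(i, j) = bit H3 s(i, j) + bit H4 s(i, j))
    (h2 : bit H1 s(i, a) + bit H1 s(i, b) + (bit H2 s(i, a) + bit H2 s(i, b))
        = bit H3 s(i, a) + bit H3 s(i, b) + (bit H4 s(i, a) + bit H4 s(i, b))) :
    (nbrs H1 i).card + (nbrs H2 i).card = (nbrs H3 i).card + (nbrs H4 i).card := by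
  simp only [card_nbrs_sum]
  rw [sum_two_nat hab (fun j => bit H1 s(i, j)), sum_two_nat hab (fun j => bit H2 s(i, j)),
    sum_two_nat hab (fun j => bit H3 s(i, j)), sum_two_nat hab (fun j => bit H4 s(i, j))]
  have e : ∑ j ∈ univ.filter (fun z => z ≠ a ∧ z ≠ b), bit H1 s(i, j)
      + ∑ j ∈ univ.filter (fun z => z ≠ a ∧ z ≠ b), bit H2 s(i, j)
      = ∑ j ∈ univ.filter (fun z => z ≠ a ∧ z ≠ b), bit H3 s(i, j)
      + ∑ j ∈ univ.filter (fun z => z ≠ a ∧ z ≠ b), bit H4 s(i, j) := by
    rw [← Finset.sum_add_distrib, ← Finset.sum_add_distrib]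
    apply Finset.sum_congr rfl
    intro j hj
    have hj' := (Finset.mem_filter.mp hj).2
    exact h j hj'.1 hj'.2
  omega

theorem two_bits_of_deg {G G' : EdgeSet n} {i a b : Fin n} (hab : a ≠ b)
    (hd : (nbrs G i).card = (nbrs G' i).card)
    (h : ∀ j, j ≠ a → j ≠ b → (s(i, j) ∈ G ↔ s(i, j) ∈ G')) :
    bit G s(i, a) + bit G s(i, b) = bit G' s(i, a) + bit G' s(i, b) := by
  rw [card_nbrs_sum, card_nbrs_sum, sum_two_nat hab (fun j => bit G s(i, j)),
    sum_two_nat hab (fun j => bit G' s(i, j))] at hd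
  have e : ∑ j ∈ univ.filter (fun z => z ≠ a ∧ z ≠ b), bit G s(i, j)
      = ∑ j ∈ univ.filter (fun z => z ≠ a ∧ z ≠ b), bit G' s(i, j) := by
    apply Finset.sum_congr rfl
    intro j hj
    have hj' := (Finset.mem_filter.mp hj).2
    exact bit_congr (h j hj'.1 hj'.2)
  omega

/-- The graph with the cells of `C` from `G1`, those of `C'` from `G2`, the others from `G`. -/
def glue (C C' G G1 G2 : EdgeSet n) : EdgeSet n :=
  (G1 ∩ C) ∪ (G2 ∩ C') ∪ (G \ (C ∪ C'))

section Glue

variable {C C' G G1 G2 : EdgeSet n} {e : Cell n}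

theorem mem_glue_left (hCC : Disjoint C C') (he : e ∈ C) : e ∈ glue C C' G G1 G2 ↔ e ∈ G1 := by
  have he' : e ∉ C' := Finset.disjoint_left.mp hCC he
  simp [glue, he, he']

theorem mem_glue_right (hCC : Disjoint C C') (he' : e ∈ C') : e ∈ glue C C' G G1 G2 ↔ e ∈ G2 := by
  have he : e ∉ C := Finset.disjoint_right.mp hCC he'
  simp [glue, he, he']

theorem mem_glue_off (he : e ∉ C) (he' : e ∉ C') : e ∈ glue C C' G G1 G2 ↔ e ∈ G := by
  simp [glue, he, he']

end Glue

/-- The exchange principle. -/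
theorem exchange {d : Fin n → ℕ} {C C' G G1 G2 : EdgeSet n} (hCC : Disjoint C C')
    (hG : G ∈ Omega d) (hG1 : G1 ∈ Omega d) (hG2 : G2 ∈ Omega d)
    (h1 : off C G1 = off C G) (h2 : off C' G2 = off C' G) :
    ∃! Z, Z ∈ Omega d ∧ off C' Z = off C' G1 ∧ off C Z = off C G2 := by
  have h1' := off_eq_iff.mp h1
  have h2' := off_eq_iff.mp h2
  have r1 : off C' (glue C C' G G1 G2) = off C' G1 := by
    rw [off_eq_iff]
    intro e he'
    by_cases he : e ∈ C
    · exact mem_glue_left hCC he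
    · rw [mem_glue_off he he', h1' e he]
  have r2 : off C (glue C C' G G1 G2) = off C G2 := by
    rw [off_eq_iff]
    intro e he
    by_cases he' : e ∈ C'
    · exact mem_glue_right hCC he'
    · rw [mem_glue_off he he', h2' e he']
  refine ⟨glue C C' G G1 G2, ⟨?_, r1, r2⟩, ?_⟩
  · rw [mem_Omega]
    have hG' := mem_Omega.mp hG
    have hG1' := mem_Omega.mp hG1
    have hG2' := mem_Omega.mp hG2
    refine ⟨?_, ?_⟩
    · intro e he
      simp only [glue, Finset.mem_union, Finset.mem_inter, Finset.mem_sdiff] at he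
      rcases he with (⟨h, _⟩ | ⟨h, _⟩) | ⟨h, _⟩
      · exact hG1'.1 e h
      · exact hG2'.1 e h
      · exact hG'.1 e h
    · intro i
      have key : (nbrs (glue C C' G G1 G2) i).card + (nbrs G i).card
          = (nbrs G1 i).card + (nbrs G2 i).card := by
        apply deg_add_pointwise
        intro j
        by_cases he : s(i, j) ∈ C
        · have he' : s(i, j) ∉ C' := Finset.disjoint_left.mp hCC he
          rw [bit_congr (mem_glue_left hCC he), bit_congr (h2' _ he')]
        · by_cases he' : s(i, j) ∈ C'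
          · rw [bit_congr (mem_glue_right hCC he'), bit_congr (h1' _ he)]
            omega
          · rw [bit_congr (mem_glue_off he he'), bit_congr (h1' _ he), bit_congr (h2' _ he')]
      rw [hG'.2 i, hG1'.2 i, hG2'.2 i] at key
      omega
  · rintro Z ⟨_, z1, z2⟩
    have z1' := off_eq_iff.mp z1
    have z2' := off_eq_iff.mp z2
    have r1' := off_eq_iff.mp r1
    have r2' := off_eq_iff.mp r2
    ext e
    by_cases he' : e ∈ C'
    · have he : e ∉ C := Finset.disjoint_right.mp hCC he'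
      rw [z2' e he, r2' e he]
    · rw [z1' e he', r1' e he']

section Cells

variable {u v x y : Fin n}

theorem mem_blk_mk {a b : Fin n} : s(a, b) ∈ blk u v ↔
    ((a = u ∨ a = v) ∧ b ≠ u ∧ b ≠ v) ∨ ((b = u ∨ b = v) ∧ a ≠ u ∧ a ≠ v) := by
  simp only [blk, Finset.mem_filter, Finset.mem_univ, true_and]
  constructor
  · rintro ⟨w, h1, h2, h3 | h3⟩
    · rcases Sym2.eq_iff.mp h3 with ⟨rfl, rfl⟩ | ⟨rfl, rfl⟩
      · exact Or.inl ⟨Or.inl rfl, h1, h2⟩
      · exact Or.inr ⟨Or.inl rfl, h1, h2⟩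
    · rcases Sym2.eq_iff.mp h3 with ⟨rfl, rfl⟩ | ⟨rfl, rfl⟩
      · exact Or.inl ⟨Or.inr rfl, h1, h2⟩
      · exact Or.inr ⟨Or.inr rfl, h1, h2⟩
  · rintro (⟨rfl | rfl, h1, h2⟩ | ⟨rfl | rfl, h1, h2⟩)
    · exact ⟨b, h1, h2, Or.inl rfl⟩
    · exact ⟨b, h1, h2, Or.inr rfl⟩
    · exact ⟨a, h1, h2, Or.inl Sym2.eq_swap⟩
    · exact ⟨a, h1, h2, Or.inr Sym2.eq_swap⟩

theorem rect_sub_left (h : Distinct4 u v x y) : rect u v x y ⊆ blk u v := by
  obtain ⟨h1, h2, h3, h4, h5, h6⟩ := h
  intro e he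
  rcases mem_rect.mp he with rfl | rfl | rfl | rfl <;> rw [mem_blk_mk] <;>
    simp [h2.symm, h3.symm, h4.symm, h5.symm]

theorem rect_sub_right (h : Distinct4 u v x y) : rect u v x y ⊆ blk x y := by
  obtain ⟨h1, h2, h3, h4, h5, h6⟩ := h
  intro e he
  rcases mem_rect.mp he with rfl | rfl | rfl | rfl <;> rw [mem_blk_mk] <;>
    simp [h2, h3, h4, h5, h2.symm, h3.symm, h4.symm, h5.symm]

theorem blk_inter_sub (h : Distinct4 u v x y) {e : Cell n} (h1 : e ∈ blk u v) (h2 : e ∈ blk x y) :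
    e ∈ rect u v x y := by
  obtain ⟨a1, a2, a3, a4, a5, a6⟩ := h
  induction e using Sym2.ind with
  | _ a b =>
    rw [mem_blk_mk] at h1 h2
    rw [mem_rect]
    rcases h1 with ⟨p1 | p1, p2, p3⟩ | ⟨p1 | p1, p2, p3⟩ <;>
      rcases h2 with ⟨q1 | q1, q2, q3⟩ | ⟨q1 | q1, q2, q3⟩ <;> subst p1 <;> try subst q1
    all_goals first
      | exact absurd rfl ‹_›
      | simp_all [Sym2.eq_swap]

/-- The cells of the block of `u, v` outside the rectangle. -/
def cA (u v x y : Fin n) : EdgeSet n := blk u v \ rect u v x y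

/-- The cells of the block of `x, y` outside the rectangle. -/
def cB (u v x y : Fin n) : EdgeSet n := blk x y \ rect u v x y

theorem disj_cA_blk (h : Distinct4 u v x y) : Disjoint (cA u v x y) (blk x y) := by
  rw [Finset.disjoint_left]
  intro e he he'
  have := Finset.mem_sdiff.mp he
  exact this.2 (blk_inter_sub h this.1 he')

theorem disj_blk_cB (h : Distinct4 u v x y) : Disjoint (blk u v) (cB u v x y) := by
  rw [Finset.disjoint_left]
  intro e he he'
  have := Finset.mem_sdiff.mp he'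
  exact this.2 (blk_inter_sub h he this.1)

theorem disj_cA_cB (h : Distinct4 u v x y) : Disjoint (cA u v x y) (cB u v x y) := by
  rw [Finset.disjoint_left]
  intro e he he'
  have h1 := Finset.mem_sdiff.mp he
  have h2 := Finset.mem_sdiff.mp he'
  exact h1.2 (blk_inter_sub h h1.1 h2.1)

end Cells

end KTV.Exch
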