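import Vale.Agent.Lib.P335.Johnson

/-!
# Johnson slices: sharp gap and the Bessel bound for separation events (KTV project)
Uses `var`, `johnsonE` of `Vale.Agent.Lib.P335`.

Both theorems rest on one first-level Bessel inequality `bessel_one`: the vector
`y ↦ ∑_{A ∋ y} K A` has variance at most `C(m-2,s) ∑ K²` for *every* `K` on the slice.
-/

open Finset

namespace KTV

open Vale.Agent.Lib.P335 Classical

variable {κ : Type*} [DecidableEq κ]

/-- `A` separates `x` and `y`. -/
def sep (x y : κ) (A : Finset κ) : Prop := (x ∈ A ∧ y ∉ A) ∨ (x ∉ A ∧ y ∈ A)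

/-- The sum of `K` over the sets of the slice containing `y`. -/
noncomputable def bet (D : Finset κ) (s : ℕ) (K : Finset κ → ℝ) (y : κ) : ℝ :=
  ∑ A ∈ powersetCard s D, if y ∈ A then K A else 0

/-- The number of sets of the slice containing `y` and avoiding `z`. -/
theorem card_filter_mem_notMem {D : Finset κ} {y z : κ} (hy : y ∈ D) (hz : z ∈ D) (hyz : y ≠ z)
    (s : ℕ) :
    ((powersetCard (s + 1) D).filter (fun A => y ∈ A ∧ z ∉ A)).card = (D.card - 2).choose s := by
  have himg : (powersetCard (s + 1) D).filter (fun A => y ∈ A ∧ z ∉ A)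
      = (powersetCard s ((D.erase y).erase z)).image (insert y) := by
    ext A
    simp only [mem_filter, mem_powersetCard, mem_image]
    constructor
    · rintro ⟨⟨hAD, hAc⟩, hyA, hzA⟩
      refine ⟨A.erase y, ⟨?_, ?_⟩, insert_erase hyA⟩
      · intro b hb
        have hb' := mem_erase.mp hb
        simp only [mem_erase]
        exact ⟨fun h => hzA (h ▸ hb'.2), hb'.1, hAD hb'.2⟩
      · rw [card_erase_of_mem hyA, hAc]
        rfl
    · rintro ⟨B, ⟨hBD, hBc⟩, rfl⟩
      have hyB : y ∉ B := fun h => by
        have := hBD h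
        simp at this
      have hzB : z ∉ B := fun h => by
        have := hBD h
        simp at this
      refine ⟨⟨?_, ?_⟩, mem_insert_self _ _, ?_⟩
      · intro b hb
        rcases mem_insert.mp hb with rfl | hb
        · exact hy
        · exact mem_of_mem_erase (mem_of_mem_erase (hBD hb))
      · rw [card_insert_of_notMem hyB, hBc]
      · intro h
        rcases mem_insert.mp h with h | h
        · exact hyz h.symm
        · exact hzB h
  have hinj : Set.InjOn (insert y) (powersetCard s ((D.erase y).erase z) : Set (Finset κ)) := by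
    intro B hB B' hB' h
    have h1 : y ∉ B := fun h' => by
      have := (mem_powersetCard.mp (mem_coe.mp hB)).1 h'
      simp at this
    have h2 : y ∉ B' := fun h' => by
      have := (mem_powersetCard.mp (mem_coe.mp hB')).1 h'
      simp at this
    have := congrArg (fun X => X.erase y) h
    simpa [erase_insert h1, erase_insert h2] using this
  rw [himg, card_image_of_injOn hinj, card_powersetCard, card_erase_of_mem, card_erase_of_mem hy]
  · congr 1
  · exact mem_erase.mpr ⟨hyz.symm, hz⟩

/-- The quadratic form of a zero-sum vector on the slice. -/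
theorem sum_sq_slice (D : Finset κ) (s : ℕ) (t : κ → ℝ) (ht : ∑ y ∈ D, t y = 0) :
    ∑ A ∈ powersetCard (s + 1) D, (∑ y ∈ D, if y ∈ A then t y else 0) ^ 2
      = ((D.card - 2).choose s : ℝ) * ∑ y ∈ D, t y ^ 2 := by
  set c : ℝ := ((D.card - 2).choose s : ℝ) with hc
  have key : ∀ y ∈ D, ∑ z ∈ D, (∑ A ∈ powersetCard (s + 1) D,
      (if y ∈ A then (1 : ℝ) else 0) * (if z ∈ A then 1 else 0)) * t z = c * t y := by
    intro y hy
    set n1 : ℝ := ∑ A ∈ powersetCard (s + 1) D, if y ∈ A then (1 : ℝ) else 0 with hn1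
    have hz : ∀ z ∈ D, (∑ A ∈ powersetCard (s + 1) D,
        (if y ∈ A then (1 : ℝ) else 0) * (if z ∈ A then 1 else 0))
        = n1 - (if z = y then 0 else c) := by
      intro z hzD
      by_cases hzy : z = y
      · subst hzy
        simp only [if_true, sub_zero, hn1]
        apply sum_congr rfl
        intro A _
        split_ifs <;> simp
      · rw [if_neg hzy]
        have e : ∀ A ∈ powersetCard (s + 1) D,
            (if y ∈ A then (1 : ℝ) else 0) * (if z ∈ A then 1 else 0)
              = (if y ∈ A then (1 : ℝ) else 0) - (if y ∈ A ∧ z ∉ A then 1 else 0) := by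
          intro A _
          by_cases h1 : y ∈ A <;> by_cases h2 : z ∈ A <;> simp [h1, h2]
        rw [sum_congr rfl e, sum_sub_distrib, ← hn1, sum_boole,
          card_filter_mem_notMem hy hzD (Ne.symm hzy)]
    calc ∑ z ∈ D, (∑ A ∈ powersetCard (s + 1) D,
          (if y ∈ A then (1 : ℝ) else 0) * (if z ∈ A then 1 else 0)) * t z
        = ∑ z ∈ D, (n1 - (if z = y then 0 else c)) * t z :=
          sum_congr rfl fun z hzD => by rw [hz z hzD]
      _ = ∑ z ∈ D, (n1 * t z - c * t z + (if z = y then c * t z else 0)) := by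
          apply sum_congr rfl
          intro z _
          split_ifs <;> ring
      _ = c * t y := by
          rw [sum_add_distrib, sum_sub_distrib, ← mul_sum, ← mul_sum, ht,
            sum_ite_eq' D y]
          simp [hy]
  calc ∑ A ∈ powersetCard (s + 1) D, (∑ y ∈ D, if y ∈ A then t y else 0) ^ 2
      = ∑ A ∈ powersetCard (s + 1) D, ∑ y ∈ D, ∑ z ∈ D,
          t y * (((if y ∈ A then (1 : ℝ) else 0) * (if z ∈ A then 1 else 0)) * t z) := by
        apply sum_congr rfl
        intro A _
        rw [sq, sum_mul_sum]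
        apply sum_congr rfl
        intro y _
        apply sum_congr rfl
        intro z _
        split_ifs <;> ring
    _ = ∑ y ∈ D, t y * ∑ z ∈ D, (∑ A ∈ powersetCard (s + 1) D,
          (if y ∈ A then (1 : ℝ) else 0) * (if z ∈ A then 1 else 0)) * t z := by
        rw [sum_comm]
        apply sum_congr rfl
        intro y _
        rw [sum_comm, mul_sum]
        apply sum_congr rfl
        intro z _
        rw [← mul_sum, ← sum_mul]
    _ = ∑ y ∈ D, t y * (c * t y) := sum_congr rfl fun y hy => by rw [key y hy]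
    _ = c * ∑ y ∈ D, t y ^ 2 := by
        rw [mul_sum]
        apply sum_congr rfl
        intro y _
        ring

omit [DecidableEq κ] in
/-- Centered vectors: the variance is the sum of squares of the deviations. -/
theorem var_eq_sum_dev (D : Finset κ) (β : κ → ℝ) :
    var D β = ∑ y ∈ D, (β y - (∑ z ∈ D, β z) / (D.card : ℝ)) ^ 2 := by
  unfold var
  rcases D.eq_empty_or_nonempty with rfl | hD
  · simp
  · have hc : (D.card : ℝ) ≠ 0 := by
      have : (0 : ℝ) < (D.card : ℝ) := by exact_mod_cast D.card_pos.mpr hD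
      exact this.ne'
    set S := ∑ z ∈ D, β z with hS
    have : ∀ y ∈ D, (β y - S / (D.card : ℝ)) ^ 2
        = β y ^ 2 - 2 * (S / (D.card : ℝ)) * β y + (S / (D.card : ℝ)) ^ 2 := by
      intro y _
      ring
    rw [sum_congr rfl this, sum_add_distrib, sum_sub_distrib, ← mul_sum, ← hS, sum_const,
      nsmul_eq_mul]
    field_simp
    ring

/-- First-level Bessel inequality on the slice, for an arbitrary function `K`. -/
theorem bessel_one (D : Finset κ) (s : ℕ) (K : Finset κ → ℝ) :
    var D (bet D (s + 1) K)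
      ≤ ((D.card - 2).choose s : ℝ) * ∑ A ∈ powersetCard (s + 1) D, K A ^ 2 := by
  set β := bet D (s + 1) K with hβ
  set μ : ℝ := (∑ z ∈ D, β z) / (D.card : ℝ) with hμ
  set t : κ → ℝ := fun y => β y - μ with ht
  have h0 : ∑ y ∈ D, t y = 0 := by
    simp only [ht, sum_sub_distrib, sum_const, nsmul_eq_mul]
    rcases D.eq_empty_or_nonempty with rfl | hD
    · simp
    · have hc : (D.card : ℝ) ≠ 0 := by
        have : (0 : ℝ) < (D.card : ℝ) := by exact_mod_cast D.card_pos.mpr hD
        exact this.ne'
      rw [hμ]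
      field_simp
      ring
  have hV : ∑ y ∈ D, t y ^ 2 = var D β := (var_eq_sum_dev D β).symm
  have hV2 : ∑ y ∈ D, t y * β y = var D β := by
    rw [← hV]
    have : ∀ y ∈ D, t y * β y = t y ^ 2 + μ * t y := by
      intro y _
      simp only [ht]
      ring
    rw [sum_congr rfl this, sum_add_distrib, ← mul_sum, h0]
    ring
  have hdual : ∑ A ∈ powersetCard (s + 1) D, K A * (∑ y ∈ D, if y ∈ A then t y else 0)
      = ∑ y ∈ D, t y * β y := by
    simp only [mul_sum]
    rw [sum_comm]
    apply sum_congr rfl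
    intro y _
    rw [hβ]
    unfold bet
    rw [mul_sum]
    apply sum_congr rfl
    intro A _
    split_ifs <;> ring
  have hcs := Finset.sum_mul_sq_le_sq_mul_sq (powersetCard (s + 1) D) K
    (fun A => ∑ y ∈ D, if y ∈ A then t y else 0)
  rw [hdual, sum_sq_slice D s t h0, hV, hV2] at hcs
  have hVn : 0 ≤ var D β := var_nonneg _ _
  rcases hVn.eq_or_lt with h | h
  · rw [← h]
    exact mul_nonneg (Nat.cast_nonneg _) (sum_nonneg fun _ _ => sq_nonneg _)
  · have h2 : var D β * var D β
        ≤ (((D.card - 2).choose s : ℝ) * ∑ A ∈ powersetCard (s + 1) D, K A ^ 2) * var D β := by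
      calc var D β * var D β = var D β ^ 2 := by ring
        _ ≤ _ := hcs
        _ = _ := by ring
    exact le_of_mul_le_mul_right h2 h

/-- The sum of the level-one coefficients. -/
theorem sum_bet (D : Finset κ) (s : ℕ) (K : Finset κ → ℝ) :
    ∑ y ∈ D, bet D s K y = (s : ℝ) * ∑ A ∈ powersetCard s D, K A := by
  unfold bet
  rw [sum_comm, mul_sum]
  apply sum_congr rfl
  intro A hA
  have h := mem_powersetCard.mp hA
  rw [sum_ite_mem, inter_eq_right.mpr h.1, sum_const, h.2, nsmul_eq_mul]

/-- For a centered function the sum of the squares of the level-one coefficients is small. -/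
theorem sum_bet_sq_le (D : Finset κ) (s : ℕ) (G : Finset κ → ℝ)
    (hG : ∑ A ∈ powersetCard (s + 1) D, G A = 0) :
    ∑ x ∈ D, bet D (s + 1) G x ^ 2
      ≤ ((D.card - 2).choose s : ℝ) * ∑ A ∈ powersetCard (s + 1) D, G A ^ 2 := by
  have h := bessel_one D s G
  unfold var at h
  rw [sum_bet, hG] at h
  simpa using h

/-- The separation indicator in terms of level-one data. -/
theorem sep_ite (x y : κ) (A : Finset κ) (v : ℝ) :
    (if sep x y A then v else 0)
      = (if y ∈ A then (if x ∈ A then -v else v) else 0) + (if x ∈ A then v else 0) := by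
  unfold sep
  by_cases h1 : x ∈ A <;> by_cases h2 : y ∈ A <;> simp [h1, h2]

/-- The number of sets of the slice separating `x` and `y`. -/
theorem card_filter_sep {D : Finset κ} {x y : κ} (hx : x ∈ D) (hy : y ∈ D) (hxy : x ≠ y) (s : ℕ) :
    (((powersetCard (s + 1) D).filter (sep x y)).card : ℝ)
      = 2 * ((D.card - 2).choose s : ℝ) := by
  have e : ∀ A ∈ powersetCard (s + 1) D, (if sep x y A then (1 : ℝ) else 0)
      = (if x ∈ A ∧ y ∉ A then 1 else 0) + (if y ∈ A ∧ x ∉ A then 1 else 0) := by
    intro A _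
    unfold sep
    by_cases h1 : x ∈ A <;> by_cases h2 : y ∈ A <;> simp [h1, h2]
  have h := sum_congr rfl e
  rw [sum_add_distrib, sum_boole, sum_boole, sum_boole, card_filter_mem_notMem hx hy hxy,
    card_filter_mem_notMem hy hx (Ne.symm hxy)] at h
  rw [h]
  ring

/-- One row of the separation sums. -/
theorem sep_row_bound (D : Finset κ) (s : ℕ) (G : Finset κ → ℝ)
    (hG : ∑ A ∈ powersetCard (s + 1) D, G A = 0) {x : κ} (hx : x ∈ D) :
    ∑ y ∈ D.erase x, (∑ A ∈ (powersetCard (s + 1) D).filter (sep x y), G A) ^ 2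
      ≤ ((D.card - 2).choose s : ℝ) * ∑ A ∈ powersetCard (s + 1) D, G A ^ 2
        + (D.card : ℝ) * bet D (s + 1) G x ^ 2 := by
  set K : Finset κ → ℝ := fun A => if x ∈ A then -G A else G A with hK
  set b := bet D (s + 1) K with hb
  set β := bet D (s + 1) G x with hβ
  have hm : (0 : ℝ) < (D.card : ℝ) := by exact_mod_cast D.card_pos.mpr ⟨x, hx⟩
  have h1 : ∀ y, ∑ A ∈ (powersetCard (s + 1) D).filter (sep x y), G A = b y + β := by
    intro y
    rw [sum_filter, hb, hβ]
    unfold bet
    rw [← sum_add_distrib]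
    apply sum_congr rfl
    intro A _
    exact sep_ite x y A (G A)
  have hKsum : ∑ A ∈ powersetCard (s + 1) D, K A = -2 * β := by
    have e : ∀ A ∈ powersetCard (s + 1) D, K A = G A - 2 * (if x ∈ A then G A else 0) := by
      intro A _
      simp only [hK]
      split_ifs <;> ring
    rw [sum_congr rfl e, sum_sub_distrib, hG, ← mul_sum, hβ]
    unfold bet
    ring
  have hKsq : ∑ A ∈ powersetCard (s + 1) D, K A ^ 2 = ∑ A ∈ powersetCard (s + 1) D, G A ^ 2 := by
    apply sum_congr rfl
    intro A _
    simp only [hK]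
    split_ifs <;> ring
  have h2 : ∑ y ∈ D, b y = ((s : ℝ) + 1) * (-2 * β) := by
    rw [hb, sum_bet, hKsum]
    push_cast
    ring
  have h3 := bessel_one D s K
  rw [hKsq] at h3
  have h4 : ∑ y ∈ D.erase x, (b y + β) ^ 2 ≤ ∑ y ∈ D, (b y + β) ^ 2 :=
    sum_le_sum_of_subset_of_nonneg (erase_subset _ _) fun _ _ _ => sq_nonneg _
  have h5 : ∑ y ∈ D, (b y + β) ^ 2
      = var D b + (∑ y ∈ D, b y) ^ 2 / (D.card : ℝ) + 2 * β * ∑ y ∈ D, b y
        + (D.card : ℝ) * β ^ 2 := by
    have e : ∀ y ∈ D, (b y + β) ^ 2 = b y ^ 2 + 2 * β * b y + β ^ 2 := by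
      intro y _
      ring
    rw [sum_congr rfl e, sum_add_distrib, sum_add_distrib, ← mul_sum, sum_const, nsmul_eq_mul]
    unfold var
    ring
  -- the correction term is nonpositive
  have h6 : (∑ y ∈ D, b y) ^ 2 / (D.card : ℝ) + 2 * β * ∑ y ∈ D, b y ≤ 0 := by
    rw [h2]
    by_cases hk : s + 1 ≤ D.card
    · have hk' : (s : ℝ) + 1 ≤ (D.card : ℝ) := by exact_mod_cast hk
      have hs : (0 : ℝ) < (s : ℝ) + 1 := by positivity
      have e : (((s : ℝ) + 1) * (-2 * β)) ^ 2 / (D.card : ℝ) + 2 * β * (((s : ℝ) + 1) * (-2 * β))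
          = - (4 * ((s : ℝ) + 1) * β ^ 2 * ((D.card : ℝ) - ((s : ℝ) + 1)) / (D.card : ℝ)) := by
        field_simp
        ring
      rw [e]
      have : 0 ≤ 4 * ((s : ℝ) + 1) * β ^ 2 * ((D.card : ℝ) - ((s : ℝ) + 1)) / (D.card : ℝ) := by
        apply div_nonneg _ hm.le
        apply mul_nonneg _ (by linarith)
        positivity
      linarith
    · have hemp : powersetCard (s + 1) D = ∅ := powersetCard_eq_empty.mpr (by omega)
      have : β = 0 := by
        rw [hβ]
        unfold bet
        rw [hemp]
        simp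
      rw [this]
      simp
  calc ∑ y ∈ D.erase x, (∑ A ∈ (powersetCard (s + 1) D).filter (sep x y), G A) ^ 2
      = ∑ y ∈ D.erase x, (b y + β) ^ 2 := sum_congr rfl fun y _ => by rw [h1 y]
    _ ≤ ∑ y ∈ D, (b y + β) ^ 2 := h4
    _ ≤ _ := by
      rw [h5]
      linarith

/-- The double sum of the squared separation sums. -/
theorem sep_total_bound (D : Finset κ) (s : ℕ) (G : Finset κ → ℝ)
    (hG : ∑ A ∈ powersetCard (s + 1) D, G A = 0) :
    ∑ x ∈ D, ∑ y ∈ D.erase x, (∑ A ∈ (powersetCard (s + 1) D).filter (sep x y), G A) ^ 2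
      ≤ 2 * (D.card : ℝ) * (((D.card - 2).choose s : ℝ)
          * ∑ A ∈ powersetCard (s + 1) D, G A ^ 2) := by
  set T : ℝ := ((D.card - 2).choose s : ℝ) * ∑ A ∈ powersetCard (s + 1) D, G A ^ 2 with hT
  have h1 : ∑ x ∈ D, ∑ y ∈ D.erase x,
        (∑ A ∈ (powersetCard (s + 1) D).filter (sep x y), G A) ^ 2
      ≤ ∑ x ∈ D, (T + (D.card : ℝ) * bet D (s + 1) G x ^ 2) :=
    sum_le_sum fun x hx => sep_row_bound D s G hG hx
  rw [sum_add_distrib, sum_const, nsmul_eq_mul, ← mul_sum] at h1
  have h2 := sum_bet_sq_le D s G hG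
  have h3 : (D.card : ℝ) * ∑ x ∈ D, bet D (s + 1) G x ^ 2 ≤ (D.card : ℝ) * T :=
    mul_le_mul_of_nonneg_left h2 (Nat.cast_nonneg _)
  linarith

/-- Centering on the slice. -/
theorem sum_center {ι : Type*} (J : Finset ι) (F : ι → ℝ) :
    ∑ A ∈ J, (F A - (∑ B ∈ J, F B) / (J.card : ℝ)) = 0 := by
  rw [sum_sub_distrib, sum_const, nsmul_eq_mul]
  rcases J.eq_empty_or_nonempty with rfl | hJ
  · simp
  · have hc : (J.card : ℝ) ≠ 0 := by
      have : (0 : ℝ) < (J.card : ℝ) := by exact_mod_cast J.card_pos.mpr hJ
      exact this.ne'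
    field_simp
    ring

/-- Bessel bound for the separation events; `F` centered on the slice is replaced by `F - mean`. -/
theorem johnson_bessel (D : Finset κ) (s : ℕ) (F : Finset κ → ℝ) :
    ∑ x ∈ D, ∑ y ∈ D.erase x,
      (∑ A ∈ (powersetCard s D).filter (sep x y),
          (F A - (∑ B ∈ powersetCard s D, F B) / ((powersetCard s D).card : ℝ))) ^ 2 /
        (((powersetCard s D).filter (sep x y)).card : ℝ)
      ≤ (D.card : ℝ) * var (powersetCard s D) F := by
  have hV0 := var_nonneg (powersetCard s D) F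
  cases s with
  | zero =>
    have e : ∀ x y : κ, (powersetCard 0 D).filter (sep x y) = ∅ := by
      intro x y
      rw [powersetCard_zero, filter_eq_empty_iff]
      intro A hA
      rw [mem_singleton] at hA
      subst hA
      simp [sep]
    simp only [e]
    simp only [sum_empty, ne_eq, OfNat.ofNat_ne_zero, not_false_eq_true, zero_pow, card_empty,
      Nat.cast_zero, div_zero, sum_const_zero]
    exact mul_nonneg (Nat.cast_nonneg _) hV0
  | succ s =>
    set J := powersetCard (s + 1) D with hJ
    set G : Finset κ → ℝ := fun A => F A - (∑ B ∈ J, F B) / (J.card : ℝ) with hGdef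
    have hG : ∑ A ∈ J, G A = 0 := sum_center J F
    have hVG : ∑ A ∈ J, G A ^ 2 = var J F := (var_eq_sum_dev J F).symm
    set C : ℝ := ((D.card - 2).choose s : ℝ) with hC
    have hterm : ∀ x ∈ D, ∀ y ∈ D.erase x,
        (∑ A ∈ J.filter (sep x y), G A) ^ 2 / ((J.filter (sep x y)).card : ℝ)
          = (∑ A ∈ J.filter (sep x y), G A) ^ 2 / (2 * C) := by
      intro x hx y hy
      have hy' := mem_erase.mp hy
      rw [hJ, card_filter_sep hx hy'.2 (Ne.symm hy'.1)]
    have hsum : ∑ x ∈ D, ∑ y ∈ D.erase x,
        (∑ A ∈ J.filter (sep x y), G A) ^ 2 / ((J.filter (sep x y)).card : ℝ)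
          = (∑ x ∈ D, ∑ y ∈ D.erase x, (∑ A ∈ J.filter (sep x y), G A) ^ 2) / (2 * C) := by
      rw [sum_div]
      apply sum_congr rfl
      intro x hx
      rw [sum_div]
      exact sum_congr rfl (hterm x hx)
    rw [hsum]
    have hbound := sep_total_bound D s G hG
    rw [hVG] at hbound
    have hC0 : 0 ≤ C := Nat.cast_nonneg _
    rcases hC0.eq_or_lt with h | h
    · rw [← h]
      simp only [mul_zero, div_zero]
      exact mul_nonneg (Nat.cast_nonneg _) hV0
    · rw [div_le_iff₀ (by positivity)]
      calc _ ≤ 2 * (D.card : ℝ) * (C * var J F) := hbound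
        _ = _ := by ring

/-- Double counting of (element, set avoiding it) against (larger set, marked element). -/
theorem sum_insert_erase (D : Finset κ) (s : ℕ) (H : κ → Finset κ → ℝ) :
    ∑ x ∈ D, ∑ B ∈ powersetCard s (D.erase x), H x B
      = ∑ A ∈ powersetCard (s + 1) D, ∑ j ∈ A, H j (A.erase j) := by
  rw [Finset.sum_sigma', Finset.sum_sigma']
  apply Finset.sum_nbij' (fun z => ⟨insert z.1 z.2, z.1⟩) (fun z => ⟨z.2, z.1.erase z.2⟩)
  · rintro ⟨x, B⟩ hz
    simp only [mem_sigma, mem_powersetCard] at hz ⊢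
    have hxB : x ∉ B := fun h => by
      have := hz.2.1 h
      simp at this
    refine ⟨⟨?_, ?_⟩, mem_insert_self _ _⟩
    · exact insert_subset hz.1 (hz.2.1.trans (erase_subset _ _))
    · rw [card_insert_of_notMem hxB, hz.2.2]
  · rintro ⟨A, j⟩ hz
    simp only [mem_sigma, mem_powersetCard] at hz ⊢
    refine ⟨hz.1.1 hz.2, erase_subset_erase _ hz.1.1, ?_⟩
    rw [card_erase_of_mem hz.2, hz.1.2]
    rfl
  · rintro ⟨x, B⟩ hz
    simp only [mem_sigma, mem_powersetCard] at hz
    have hxB : x ∉ B := fun h => by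
      have := hz.2.1 h
      simp at this
    simp only [erase_insert hxB]
  · rintro ⟨A, j⟩ hz
    simp only [mem_sigma] at hz
    simp only [insert_erase hz.2]
  · rintro ⟨x, B⟩ hz
    simp only [mem_sigma, mem_powersetCard] at hz
    have hxB : x ∉ B := fun h => by
      have := hz.2.1 h
      simp at this
    simp only [erase_insert hxB]

/-- Summing the cross energies over all elements gives the energy. -/
theorem sum_crossE (D : Finset κ) (s : ℕ) (F : Finset κ → ℝ) :
    ∑ x ∈ D, crossE (D.erase x) s x F = johnsonE D (s + 1) F := by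
  unfold crossE johnsonE
  rw [sum_insert_erase D s
    (fun x B => ∑ l ∈ (D.erase x) \ B, (F (insert x B) - F (insert l B)) ^ 2)]
  apply sum_congr rfl
  intro A hA
  apply sum_congr rfl
  intro j hj
  have hAD := (mem_powersetCard.mp hA).1
  have e : (D.erase j) \ (A.erase j) = D \ A := by
    ext b
    simp only [mem_sdiff, mem_erase, not_and]
    constructor
    · rintro ⟨⟨h1, h2⟩, h3⟩
      exact ⟨h2, fun h => h3 h1 h⟩
    · rintro ⟨h1, h2⟩
      refine ⟨⟨?_, h1⟩, fun _ h => h2 h⟩
      rintro rfl
      exact h2 hj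
  rw [e, insert_erase hj]

/-- Splitting a sum over a slice along one element. -/
theorem sum_split {x : κ} {D : Finset κ} (hx : x ∉ D) (s : ℕ) (K : Finset κ → ℝ) :
    ∑ A ∈ powersetCard (s + 1) (insert x D), K A
      = ∑ A ∈ powersetCard (s + 1) D, K A + ∑ B ∈ powersetCard s D, K (insert x B) := by
  have hdisj : Disjoint (powersetCard (s + 1) D) ((powersetCard s D).image (insert x)) := by
    rw [Finset.disjoint_left]
    intro A hA hA'
    obtain ⟨B, _, rfl⟩ := Finset.mem_image.mp hA'
    exact not_mem_of_powerset hx hA (Finset.mem_insert_self _ _)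
  have hinj : Set.InjOn (insert x) (powersetCard s D : Set (Finset κ)) := by
    intro B hB B' hB' h
    have h1 := not_mem_of_powerset hx (Finset.mem_coe.mp hB)
    have h2 := not_mem_of_powerset hx (Finset.mem_coe.mp hB')
    have := congrArg (fun X => X.erase x) h
    simpa [Finset.erase_insert h1, Finset.erase_insert h2] using this
  rw [Finset.powersetCard_succ_insert hx, Finset.sum_union hdisj, Finset.sum_image hinj]

/-- Splitting the variance of a slice along one element. -/
theorem var_split {x : κ} {D : Finset κ} (hx : x ∉ D) (s : ℕ) (F : Finset κ → ℝ) :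
    var (powersetCard (s + 1) (insert x D)) F
      = var (powersetCard (s + 1) D) F + var (powersetCard s D) (fun B => F (insert x B))
        + ((∑ A ∈ powersetCard (s + 1) D, F A) ^ 2 / ((powersetCard (s + 1) D).card : ℝ)
          + (∑ B ∈ powersetCard s D, F (insert x B)) ^ 2 / ((powersetCard s D).card : ℝ)
          - ((∑ A ∈ powersetCard (s + 1) D, F A) + ∑ B ∈ powersetCard s D, F (insert x B)) ^ 2
            / (((powersetCard (s + 1) D).card : ℝ) + ((powersetCard s D).card : ℝ))) := by
  have hdisj : Disjoint (powersetCard (s + 1) D) ((powersetCard s D).image (insert x)) := by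
    rw [Finset.disjoint_left]
    intro A hA hA'
    obtain ⟨B, _, rfl⟩ := Finset.mem_image.mp hA'
    exact not_mem_of_powerset hx hA (Finset.mem_insert_self _ _)
  have hinj : Set.InjOn (insert x) (powersetCard s D : Set (Finset κ)) := by
    intro B hB B' hB' h
    have h1 := not_mem_of_powerset hx (Finset.mem_coe.mp hB)
    have h2 := not_mem_of_powerset hx (Finset.mem_coe.mp hB')
    have := congrArg (fun X => X.erase x) h
    simpa [Finset.erase_insert h1, Finset.erase_insert h2] using this
  unfold var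
  rw [Finset.powersetCard_succ_insert hx, Finset.sum_union hdisj, Finset.sum_union hdisj,
    Finset.sum_image hinj, Finset.sum_image hinj, Finset.card_union_of_disjoint hdisj,
    Finset.card_image_of_injOn hinj]
  push_cast
  ring

/-- The level-one coefficient at an inserted element. -/
theorem bet_insert {x : κ} {D : Finset κ} (hx : x ∉ D) (s : ℕ) (K : Finset κ → ℝ) :
    bet (insert x D) (s + 1) K x = ∑ B ∈ powersetCard s D, K (insert x B) := by
  have hdisj : Disjoint (powersetCard (s + 1) D) ((powersetCard s D).image (insert x)) := by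
    rw [Finset.disjoint_left]
    intro A hA hA'
    obtain ⟨B, _, rfl⟩ := Finset.mem_image.mp hA'
    exact not_mem_of_powerset hx hA (Finset.mem_insert_self _ _)
  have hinj : Set.InjOn (insert x) (powersetCard s D : Set (Finset κ)) := by
    intro B hB B' hB' h
    have h1 := not_mem_of_powerset hx (Finset.mem_coe.mp hB)
    have h2 := not_mem_of_powerset hx (Finset.mem_coe.mp hB')
    have := congrArg (fun X => X.erase x) h
    simpa [Finset.erase_insert h1, Finset.erase_insert h2] using this
  unfold bet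
  rw [Finset.powersetCard_succ_insert hx, Finset.sum_union hdisj, Finset.sum_image hinj]
  have e0 : ∑ A ∈ powersetCard (s + 1) D, (if x ∈ A then K A else 0) = 0 := by
    apply sum_eq_zero
    intro A hA
    rw [if_neg (not_mem_of_powerset hx hA)]
  rw [e0, zero_add]
  apply sum_congr rfl
  intro B _
  rw [if_pos (mem_insert_self _ _)]

/-- Slices with at most one set have no variance. -/
theorem var_slice_of_le (D : Finset κ) (s : ℕ) (hs : D.card ≤ s) (F : Finset κ → ℝ) :
    var (powersetCard s D) F = 0 := by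
  rcases hs.eq_or_lt with h | h
  · subst h
    rw [powersetCard_self, var_singleton]
  · rw [powersetCard_eq_empty.mpr h]
    simp [var]

/-- The inductive step of the sharp gap. -/
theorem johnson_sharp_step (D : Finset κ) (s : ℕ) (F : Finset κ → ℝ) (m : ℝ)
    (hcard : (D.card : ℝ) = m + 1) (hm2 : 2 ≤ m) (hs : s + 1 < D.card)
    (ih : ∀ x ∈ D, ∀ (t : ℕ) (F' : Finset κ → ℝ),
      2 * m * var (powersetCard t (D.erase x)) F' ≤ johnsonE (D.erase x) t F') :
    2 * (m + 1) * var (powersetCard (s + 1) D) F ≤ johnsonE D (s + 1) F := by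
  set V := var (powersetCard (s + 1) D) F with hV
  set E := johnsonE D (s + 1) F with hE
  set J := powersetCard (s + 1) D with hJ
  set G : Finset κ → ℝ := fun A => F A - (∑ B ∈ J, F B) / (J.card : ℝ) with hGdef
  have hG : ∑ A ∈ J, G A = 0 := sum_center J F
  have hVG : ∑ A ∈ J, G A ^ 2 = V := (var_eq_sum_dev J F).symm
  set C : ℝ := ((D.card - 2).choose s : ℝ) with hC
  have hβ : ∑ x ∈ D, bet D (s + 1) G x ^ 2 ≤ C * V := by
    have := sum_bet_sq_le D s G hG
    rwa [hVG] at this
  -- the cardinalities
  have hm' : 2 ≤ D.card - 1 := by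
    have : (2 : ℝ) + 1 ≤ (D.card : ℝ) := by linarith
    have h3 : 3 ≤ D.card := by exact_mod_cast this
    omega
  obtain ⟨M, hM⟩ : ∃ M, D.card = M + 1 := ⟨D.card - 1, by omega⟩
  have hMm : (M : ℝ) = m := by
    have : ((M + 1 : ℕ) : ℝ) = m + 1 := by rw [← hM, hcard]
    push_cast at this
    linarith
  have hsM : s + 1 ≤ M := by omega
  have hchoose2 : D.card - 2 = M - 1 := by omega
  set n0 : ℝ := (M.choose (s + 1) : ℝ) with hn0
  set n1 : ℝ := (M.choose s : ℝ) with hn1
  have hn0p : 0 < n0 := by
    rw [hn0]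
    exact_mod_cast Nat.choose_pos hsM
  have hn1p : 0 < n1 := by
    rw [hn1]
    exact_mod_cast Nat.choose_pos (by omega)
  have hM1 : M - 1 + 1 = M := by omega
  -- `M C = (s+1) n0 = (M - s) n1`
  have hr0 : m * C = ((s : ℝ) + 1) * n0 := by
    have := Nat.add_one_mul_choose_eq (M - 1) s
    rw [hM1] at this
    have h' : ((M * (M - 1).choose s : ℕ) : ℝ) = ((M.choose (s + 1) * (s + 1) : ℕ) : ℝ) := by
      rw [this]
    push_cast at h'
    rw [hC, hchoose2, ← hMm, hn0, h']
    ring
  have hr1 : m * C = (m - s) * n1 := by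
    have := Nat.choose_mul_succ_eq (M - 1) s
    rw [hM1] at this
    have h' : (((M - 1).choose s * M : ℕ) : ℝ) = ((M.choose s * (M - s) : ℕ) : ℝ) := by
      rw [this]
    push_cast [Nat.cast_sub (show s ≤ M by omega)] at h'
    rw [hC, hchoose2, ← hMm, hn1]
    linarith
  have hsm : (s : ℝ) + 1 ≤ m := by
    rw [← hMm]
    exact_mod_cast hsM
  have hmpos : 0 < m := by linarith
  have hsp : (0 : ℝ) < (s : ℝ) + 1 := by positivity
  have hqp : 0 < m - s := by linarith
  set W : ℝ := (n0 + n1) / (n0 * n1) with hW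
  -- the row inequality
  have hrow : ∀ x ∈ D, 2 * m * (V - W * bet D (s + 1) G x ^ 2)
      ≤ E - 2 * crossE (D.erase x) s x F := by
    intro x hx
    have hxD' : x ∉ D.erase x := notMem_erase _ _
    have hins : insert x (D.erase x) = D := insert_erase hx
    have h1 := johnsonE_insert hxD' s F
    rw [hins] at h1
    have h2 := var_split hxD' s F
    rw [hins] at h2
    have hi0 := ih x hx (s + 1) F
    have hi1 := ih x hx s (fun B => F (insert x B))
    have hc0 : (((powersetCard (s + 1) (D.erase x)).card : ℕ) : ℝ) = n0 := by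
      rw [card_powersetCard, card_erase_of_mem hx, hM]
      rfl
    have hc1 : (((powersetCard s (D.erase x)).card : ℕ) : ℝ) = n1 := by
      rw [card_powersetCard, card_erase_of_mem hx, hM]
      rfl
    rw [hc0, hc1] at h2
    -- the coefficient
    set a0 : ℝ := ∑ A ∈ powersetCard (s + 1) (D.erase x), F A with ha0
    set a1 : ℝ := ∑ B ∈ powersetCard s (D.erase x), F (insert x B) with ha1
    have hsplit : ∀ K : Finset κ → ℝ, ∑ A ∈ J, K A
        = ∑ A ∈ powersetCard (s + 1) (D.erase x), K A
          + ∑ B ∈ powersetCard s (D.erase x), K (insert x B) := by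
      intro K
      rw [hJ]
      conv_lhs => rw [← hins]
      exact sum_split hxD' s K
    have hJc : ((J.card : ℕ) : ℝ) = n0 + n1 := by
      have := hsplit (fun _ => 1)
      simp only [sum_const, nsmul_eq_mul, mul_one] at this
      rw [this, hc0, hc1]
    have hJs : ∑ A ∈ J, F A = a0 + a1 := hsplit F
    have hbet : bet D (s + 1) G x = a1 - n1 * ((a0 + a1) / (n0 + n1)) := by
      have h3 := bet_insert hxD' s G
      rw [hins] at h3
      rw [h3]
      simp only [hGdef]
      rw [sum_sub_distrib, sum_const, nsmul_eq_mul, hc1, hJs, hJc]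
    have hbtw : a0 ^ 2 / n0 + a1 ^ 2 / n1 - (a0 + a1) ^ 2 / (n0 + n1)
        = W * bet D (s + 1) G x ^ 2 := by
      rw [hbet, hW]
      have : n0 + n1 ≠ 0 := by positivity
      field_simp
      ring
    have hVsub : V - W * bet D (s + 1) G x ^ 2
        = var (powersetCard (s + 1) (D.erase x)) F
          + var (powersetCard s (D.erase x)) (fun B => F (insert x B)) := by
      rw [← hbtw, hV, hJ, h2]
      ring
    rw [hVsub, mul_add, hE, h1]
    linarith
  have hcross := sum_crossE D s F
  have hsum := sum_le_sum hrow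
  rw [← mul_sum, sum_sub_distrib, sum_sub_distrib, sum_const, nsmul_eq_mul, sum_const, nsmul_eq_mul,
    ← mul_sum, ← mul_sum, hcross, hcard] at hsum
  have hWp : 0 ≤ W := by
    rw [hW]
    positivity
  have hWC : m * (W * C) = m + 1 := by
    have e1 : m * C / n1 = m - s := by
      rw [hr1]
      field_simp
    have e0 : m * C / n0 = (s : ℝ) + 1 := by
      rw [hr0]
      field_simp
    calc m * (W * C) = m * C / n1 + m * C / n0 := by
          rw [hW]
          field_simp
      _ = m + 1 := by
          rw [e1, e0]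
          ring
  have h4 : W * ∑ x ∈ D, bet D (s + 1) G x ^ 2 ≤ W * (C * V) :=
    mul_le_mul_of_nonneg_left hβ hWp
  have h5 : m * (W * ∑ x ∈ D, bet D (s + 1) G x ^ 2) ≤ (m + 1) * V := by
    calc m * (W * ∑ x ∈ D, bet D (s + 1) G x ^ 2) ≤ m * (W * (C * V)) :=
          mul_le_mul_of_nonneg_left h4 hmpos.le
      _ = (m * (W * C)) * V := by ring
      _ = (m + 1) * V := by rw [hWC]
  have h6 : (m - 1) * (2 * (m + 1) * V) ≤ (m - 1) * E := by
    nlinarith [hsum, h5]
  exact le_of_mul_le_mul_left h6 (by linarith)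

/-- Sharp Johnson gap: the Laplacian `∑_{x<y} (1-τ_xy)` has spectral gap `m=|D|`.
(`johnsonE` counts each edge twice.) -/
theorem johnson_gap_sharp (D : Finset κ) (s : ℕ) (F : Finset κ → ℝ) :
    2 * (D.card : ℝ) * var (powersetCard s D) F ≤ johnsonE D s F := by
  suffices H : ∀ n : ℕ, ∀ D : Finset κ, D.card = n → ∀ (s : ℕ) (F : Finset κ → ℝ),
      2 * (n : ℝ) * var (powersetCard s D) F ≤ johnsonE D s F from H _ D rfl s F
  intro n
  induction n with
  | zero =>
    intro D _ s F
    simpa using johnsonE_nonneg D s F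
  | succ M ih =>
    intro D hD s F
    by_cases hM : M + 1 ≤ 2
    · have h1 := Vale.Agent.Lib.P335.johnson_gap D s F
      have hV := var_nonneg (powersetCard s D) F
      have h2 : ((M + 1 : ℕ) : ℝ) ≤ 2 := by exact_mod_cast hM
      nlinarith
    · cases s with
      | zero =>
        rw [powersetCard_zero, var_singleton]
        simpa using johnsonE_nonneg D 0 F
      | succ s =>
        by_cases hs : s + 1 < D.card
        · have hm2 : (2 : ℝ) ≤ (M : ℝ) := by
            have : 2 ≤ M := by omega
            exact_mod_cast this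
          have := johnson_sharp_step D s F (M : ℝ) (by rw [hD]; push_cast; ring) hm2 hs
            (fun x hx t F' => ih (D.erase x) (by rw [card_erase_of_mem hx, hD]; rfl) t F')
          push_cast
          exact this
        · rw [var_slice_of_le D (s + 1) (by omega)]
          simpa using johnsonE_nonneg D (s + 1) F

end KTV
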