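import Vale.Agent.Lib.KTV.GraphBeta
import Vale.Agent.Lib.KTV.JohnsonSharp

/-!
# A block fibre is a Johnson slice (KTV project)
For `u ≠ v` the fibre of `off (blk u v)` through `G` is in bijection with `powersetCard k D`,
`D` = vertices `w ∉ {u,v}` adjacent to exactly one of `u,v`, via `G' ↦ {w ∈ D | s(u,w) ∈ G'}`.
The flip of the rectangle `{u,v} × {x,y}` is the transposition of `x,y`.
-/

open Finset

namespace KTV

open Vale.Agent.Lib.P335 Classical

variable {n : ℕ}

/-- Ordered pairs `(x,y)` of distinct vertices outside `{u,v}`. -/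
def pairsOff (u v : Fin n) : Finset (Fin n × Fin n) :=
  univ.filter fun q => q.1 ≠ q.2 ∧ q.1 ≠ u ∧ q.1 ≠ v ∧ q.2 ≠ u ∧ q.2 ≠ v

theorem flip_swap (u v x y : Fin n) (G : EdgeSet n) : flip u v y x G = flip u v x y G := by
  have : rect u v y x = rect u v x y := by
    ext e
    simp only [mem_rect]
    tauto
  unfold flip
  rw [this]

section Fibre

variable {d : Fin n → ℕ} {u v : Fin n} {G₀ : EdgeSet n}

/-- The active pairs of a fixed `betaG`. -/
theorem pairs_active_sum (huv : u ≠ v) {A : Finset (Fin n)} (hA : A ⊆ dSet u v G₀)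
    (w : Fin n × Fin n → ℝ) :
    ∑ q ∈ pairsOff u v, (if active u v q.1 q.2 (betaG u v G₀ A) then w q else 0)
      = ∑ j ∈ A, ∑ l ∈ dSet u v G₀ \ A, (w (j, l) + w (l, j)) := by
  rw [← Finset.sum_filter]
  have e : (pairsOff u v).filter (fun q => active u v q.1 q.2 (betaG u v G₀ A))
      = (A ×ˢ (dSet u v G₀ \ A)) ∪ ((dSet u v G₀ \ A) ×ˢ A) := by
    ext ⟨x, y⟩
    simp only [Finset.mem_filter, pairsOff, Finset.mem_univ, true_and, Finset.mem_union,
      Finset.mem_product, Finset.mem_sdiff]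
    constructor
    · rintro ⟨⟨_, h1, h2, h3, h4⟩, h5⟩
      obtain ⟨a1, a2, a3 | a3⟩ := (active_betaG huv hA h1 h2 h3 h4).mp h5
      · exact Or.inl ⟨a3.1, a2, a3.2⟩
      · exact Or.inr ⟨⟨a1, a3.1⟩, a3.2⟩
    · rintro (⟨h1, h2⟩ | ⟨h1, h2⟩)
      · have hx := mem_dSet.mp (hA h1)
        have hy := mem_dSet.mp h2.1
        have hne : x ≠ y := fun h => h2.2 (h ▸ h1)
        exact ⟨⟨hne, hx.1, hx.2.1, hy.1, hy.2.1⟩, (active_betaG huv hA hx.1 hx.2.1 hy.1 hy.2.1).mpr
          ⟨hA h1, h2.1, Or.inl ⟨h1, h2.2⟩⟩⟩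
      · have hx := mem_dSet.mp h1.1
        have hy := mem_dSet.mp (hA h2)
        have hne : x ≠ y := fun h => h1.2 (h ▸ h2)
        exact ⟨⟨hne, hx.1, hx.2.1, hy.1, hy.2.1⟩, (active_betaG huv hA hx.1 hx.2.1 hy.1 hy.2.1).mpr
          ⟨h1.1, hA h2, Or.inr ⟨h1.2, h2⟩⟩⟩
  have hd : Disjoint (A ×ˢ (dSet u v G₀ \ A)) ((dSet u v G₀ \ A) ×ˢ A) := by
    rw [Finset.disjoint_left]
    rintro ⟨x, y⟩ h1 h2
    simp only [Finset.mem_product, Finset.mem_sdiff] at h1 h2
    exact h2.1.2 h1.1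
  rw [e, Finset.sum_union hd, Finset.sum_product, Finset.sum_product,
    Finset.sum_comm (s := dSet u v G₀ \ A), ← Finset.sum_add_distrib]
  apply Finset.sum_congr rfl
  intro j _
  rw [Finset.sum_add_distrib]

/-- The antisymmetric energy of a fibre is half of the Johnson energy. -/
theorem fibre_W (huv : u ≠ v) (hG₀ : G₀ ∈ Omega d) (f : EdgeSet n → ℝ) :
    ∑ q ∈ pairsOff u v, ∑ G ∈ ((Omega d).filter
        (fun G => off (blk u v) G = off (blk u v) G₀)).filter (active u v q.1 q.2),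
      ((f G - f (flip u v q.1 q.2 G)) / 2) ^ 2
      = johnsonE (dSet u v G₀) (aSet u v G₀).card (fun A => f (betaG u v G₀ A)) / 2 := by
  rw [fibre_eq_betaG huv hG₀]
  simp only [Finset.sum_filter]
  rw [Finset.sum_comm, Finset.sum_image (betaG_inj huv)]
  unfold johnsonE
  rw [Finset.sum_div]
  apply Finset.sum_congr rfl
  intro A hA
  have hA' := (Finset.mem_powersetCard.mp hA).1
  rw [pairs_active_sum huv hA'
    (fun q => ((f (betaG u v G₀ A) - f (flip u v q.1 q.2 (betaG u v G₀ A))) / 2) ^ 2)]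
  rw [Finset.sum_div]
  apply Finset.sum_congr rfl
  intro j hj
  rw [Finset.sum_div]
  apply Finset.sum_congr rfl
  intro l hl
  simp only
  rw [flip_swap u v j l, flip_betaG huv hA' hj hl]
  ring

theorem sum_const_sq {α : Type*} (P : Finset α) (f : α → ℝ) (m : ℝ) :
    ∑ _G ∈ P, ((∑ y ∈ P, f y) / (P.card : ℝ) - m) ^ 2
      = (∑ y ∈ P, (f y - m)) ^ 2 / (P.card : ℝ) := by
  rcases P.eq_empty_or_nonempty with rfl | hP
  · simp
  have hc : (P.card : ℝ) ≠ 0 := by
    have := P.card_pos.mpr hP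
    positivity
  rw [Finset.sum_const, nsmul_eq_mul, Finset.sum_sub_distrib, Finset.sum_const, nsmul_eq_mul]
  field_simp

/-- The `U` term of a fibre for `x, y ∈ D`. -/
theorem fibre_U_term (huv : u ≠ v) (hG₀ : G₀ ∈ Omega d) (f : EdgeSet n → ℝ) {x y : Fin n}
    (hx : x ∈ dSet u v G₀) (hy : y ∈ dSet u v G₀) :
    ∑ G ∈ ((Omega d).filter (fun G => off (blk u v) G = off (blk u v) G₀)).filter (active u v x y),
      (Vale.Agent.Lib.P335.cond ((Omega d).filter (active u v x y)) (off (blk u v)) f G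
        - Vale.Agent.Lib.P335.cond (Omega d) (off (blk u v)) f G) ^ 2
    = (∑ A ∈ (powersetCard (aSet u v G₀).card (dSet u v G₀)).filter (sep x y),
        (f (betaG u v G₀ A) - (∑ B ∈ powersetCard (aSet u v G₀).card (dSet u v G₀),
            f (betaG u v G₀ B)) / ((powersetCard (aSet u v G₀).card (dSet u v G₀)).card : ℝ))) ^ 2 /
        (((powersetCard (aSet u v G₀).card (dSet u v G₀)).filter (sep x y)).card : ℝ) := by
  set J := powersetCard (aSet u v G₀).card (dSet u v G₀) with hJ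
  have hx' := mem_dSet.mp hx
  have hy' := mem_dSet.mp hy
  have hP : ((Omega d).filter (fun G => off (blk u v) G = off (blk u v) G₀)).filter
      (active u v x y) = (J.filter (sep x y)).image (betaG u v G₀) := by
    rw [fibre_eq_betaG huv hG₀]
    ext G
    simp only [Finset.mem_filter, Finset.mem_image]
    constructor
    · rintro ⟨⟨A, hA, rfl⟩, h2⟩
      have hA' := (Finset.mem_powersetCard.mp hA).1
      exact ⟨A, ⟨hA, ((active_betaG huv hA' hx'.1 hx'.2.1 hy'.1 hy'.2.1).mp h2).2.2⟩, rfl⟩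
    · rintro ⟨A, ⟨hA, h2⟩, rfl⟩
      have hA' := (Finset.mem_powersetCard.mp hA).1
      exact ⟨⟨A, hA, rfl⟩, (active_betaG huv hA' hx'.1 hx'.2.1 hy'.1 hy'.2.1).mpr ⟨hx, hy, h2⟩⟩
  have hinj : Set.InjOn (betaG u v G₀) (J.filter (sep x y) : Set (Finset (Fin n))) := by
    intro A hA A' hA' h
    exact betaG_inj huv (Finset.mem_coe.mpr (Finset.mem_filter.mp (Finset.mem_coe.mp hA)).1)
      (Finset.mem_coe.mpr (Finset.mem_filter.mp (Finset.mem_coe.mp hA')).1) h
  set P := ((Omega d).filter (fun G => off (blk u v) G = off (blk u v) G₀)).filter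
      (active u v x y) with hPdef
  have hfib : ∀ G ∈ P, off (blk u v) G = off (blk u v) G₀ := fun G hG =>
    (Finset.mem_filter.mp (Finset.mem_filter.mp hG).1).2
  have hc1 : ∀ G ∈ P, Vale.Agent.Lib.P335.cond ((Omega d).filter (active u v x y))
      (off (blk u v)) f G = (∑ y ∈ P, f y) / (P.card : ℝ) := by
    intro G hG
    unfold Vale.Agent.Lib.P335.cond
    rw [hfib G hG, Finset.filter_comm]
  have hc2 : ∀ G ∈ P, Vale.Agent.Lib.P335.cond (Omega d) (off (blk u v)) f G
      = (∑ B ∈ J, f (betaG u v G₀ B)) / (J.card : ℝ) := by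
    intro G hG
    unfold Vale.Agent.Lib.P335.cond
    rw [hfib G hG, fibre_eq_betaG huv hG₀, Finset.sum_image (betaG_inj huv),
      Finset.card_image_of_injOn (betaG_inj huv)]
  rw [Finset.sum_congr rfl (fun G hG => by rw [hc1 G hG, hc2 G hG]), sum_const_sq]
  rw [hP, Finset.sum_image hinj, Finset.card_image_of_injOn hinj]

/-- The `U` term of a fibre vanishes if `x` or `y` is not in `D`. -/
theorem fibre_active_empty (huv : u ≠ v) (hG₀ : G₀ ∈ Omega d) {x y : Fin n} (hx1 : x ≠ u)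
    (hx2 : x ≠ v) (hy1 : y ≠ u) (hy2 : y ≠ v)
    (h : ¬ (x ∈ dSet u v G₀ ∧ y ∈ dSet u v G₀)) :
    ((Omega d).filter (fun G => off (blk u v) G = off (blk u v) G₀)).filter (active u v x y) = ∅ := by
  rw [fibre_eq_betaG huv hG₀, Finset.filter_eq_empty_iff]
  intro G hG
  obtain ⟨A, hA, rfl⟩ := Finset.mem_image.mp hG
  have hA' := (Finset.mem_powersetCard.mp hA).1
  intro h2
  have := (active_betaG huv hA' hx1 hx2 hy1 hy2).mp h2
  exact h ⟨this.1, this.2.1⟩

/-- Sum over pairs off `{u, v}` of a function supported on pairs in `D`. -/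
theorem pairsOff_sum {D : Finset (Fin n)} (hD : ∀ w ∈ D, w ≠ u ∧ w ≠ v)
    (T : Fin n × Fin n → ℝ)
    (hT : ∀ q ∈ pairsOff u v, ¬ (q.1 ∈ D ∧ q.2 ∈ D) → T q = 0) :
    ∑ q ∈ pairsOff u v, T q = ∑ x ∈ D, ∑ y ∈ D.erase x, T (x, y) := by
  have e1 : ∑ q ∈ pairsOff u v, T q
      = ∑ q ∈ (pairsOff u v).filter (fun q => q.1 ∈ D ∧ q.2 ∈ D), T q := by
    symm
    apply Finset.sum_subset (Finset.filter_subset _ _)
    intro q hq hq2
    apply hT q hq
    intro h3
    exact hq2 (Finset.mem_filter.mpr ⟨hq, h3⟩)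
  rw [e1]
  apply Finset.sum_finset_product
  rintro ⟨x, y⟩
  simp only [Finset.mem_filter, pairsOff, Finset.mem_univ, true_and, Finset.mem_erase]
  constructor
  · rintro ⟨⟨h0, _⟩, h1, h2⟩
    exact ⟨h1, Ne.symm h0, h2⟩
  · rintro ⟨h1, h0, h2⟩
    exact ⟨⟨Ne.symm h0, (hD x h1).1, (hD x h1).2, (hD y h2).1, (hD y h2).2⟩, h1, h2⟩

/-- Per-fibre inequality for `U` and `W`. -/
theorem fibre_U_le (huv : u ≠ v) (hG₀ : G₀ ∈ Omega d) (f : EdgeSet n → ℝ) :
    ∑ q ∈ pairsOff u v, ∑ G ∈ ((Omega d).filter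
        (fun G => off (blk u v) G = off (blk u v) G₀)).filter (active u v q.1 q.2),
      (Vale.Agent.Lib.P335.cond ((Omega d).filter (active u v q.1 q.2)) (off (blk u v)) f G
        - Vale.Agent.Lib.P335.cond (Omega d) (off (blk u v)) f G) ^ 2
    ≤ ∑ q ∈ pairsOff u v, ∑ G ∈ ((Omega d).filter
        (fun G => off (blk u v) G = off (blk u v) G₀)).filter (active u v q.1 q.2),
      ((f G - f (flip u v q.1 q.2 G)) / 2) ^ 2 := by
  rw [fibre_W huv hG₀, pairsOff_sum (D := dSet u v G₀)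
    (fun w hw => ⟨(mem_dSet.mp hw).1, (mem_dSet.mp hw).2.1⟩)]
  · have e : ∀ x ∈ dSet u v G₀, ∀ y ∈ (dSet u v G₀).erase x,
        ∑ G ∈ ((Omega d).filter (fun G => off (blk u v) G = off (blk u v) G₀)).filter
            (active u v x y),
          (Vale.Agent.Lib.P335.cond ((Omega d).filter (active u v x y)) (off (blk u v)) f G
            - Vale.Agent.Lib.P335.cond (Omega d) (off (blk u v)) f G) ^ 2
        = (∑ A ∈ (powersetCard (aSet u v G₀).card (dSet u v G₀)).filter (sep x y),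
            (f (betaG u v G₀ A) - (∑ B ∈ powersetCard (aSet u v G₀).card (dSet u v G₀),
                f (betaG u v G₀ B)) /
                  ((powersetCard (aSet u v G₀).card (dSet u v G₀)).card : ℝ))) ^ 2 /
            (((powersetCard (aSet u v G₀).card (dSet u v G₀)).filter (sep x y)).card : ℝ) :=
      fun x hx y hy => fibre_U_term huv hG₀ f hx (Finset.mem_of_mem_erase hy)
    rw [Finset.sum_congr rfl (fun x hx => Finset.sum_congr rfl (fun y hy => e x hx y hy))]
    have h1 := johnson_bessel (dSet u v G₀) (aSet u v G₀).card (fun A => f (betaG u v G₀ A))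
    have h2 := johnson_gap_sharp (dSet u v G₀) (aSet u v G₀).card (fun A => f (betaG u v G₀ A))
    linarith
  · rintro ⟨x, y⟩ hq hn
    have hq' := Finset.mem_filter.mp hq
    simp only at hq' hn
    show ∑ G ∈ ((Omega d).filter (fun G => off (blk u v) G = off (blk u v) G₀)).filter
        (active u v x y), _ = 0
    rw [fibre_active_empty huv hG₀ hq'.2.2.1 hq'.2.2.2.1 hq'.2.2.2.2.1 hq'.2.2.2.2.2 hn]
    simp

end Fibre

/-- Sum over a filtered set, by fibres of `off (blk u v)`. -/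
theorem sum_by_fibres {α : Type*} [DecidableEq α] (Ω : Finset (EdgeSet n)) (π : EdgeSet n → α)
    (A : EdgeSet n → Prop) (φ : EdgeSet n → ℝ) :
    ∑ G ∈ Ω.filter A, φ G = ∑ t ∈ Ω.image π, ∑ G ∈ (Ω.filter (fun G => π G = t)).filter A, φ G := by
  rw [← Finset.sum_fiberwise_of_maps_to (s := Ω.filter A) (t := Ω.image π) (g := π)
    (fun G hG => Finset.mem_image_of_mem _ (Finset.mem_filter.mp hG).1)]
  apply Finset.sum_congr rfl
  intro t _
  rw [Finset.filter_comm]

/-- The `U` terms are dominated by the antisymmetric energy of the block. -/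
theorem fiber_U_le_W (d : Fin n → ℕ) {u v : Fin n} (huv : u ≠ v) (f : EdgeSet n → ℝ) :
    ∑ q ∈ pairsOff u v, Uq d u v q.1 q.2 f ≤ ∑ q ∈ pairsOff u v, Wq d u v q.1 q.2 f := by
  unfold Uq Wq
  have hU : ∑ q ∈ pairsOff u v, ∑ G ∈ (Omega d).filter (active u v q.1 q.2),
        (Vale.Agent.Lib.P335.cond ((Omega d).filter (active u v q.1 q.2)) (off (blk u v)) f G
          - Vale.Agent.Lib.P335.cond (Omega d) (off (blk u v)) f G) ^ 2
      = ∑ t ∈ (Omega d).image (off (blk u v)), ∑ q ∈ pairsOff u v,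
        ∑ G ∈ ((Omega d).filter (fun G => off (blk u v) G = t)).filter (active u v q.1 q.2),
        (Vale.Agent.Lib.P335.cond ((Omega d).filter (active u v q.1 q.2)) (off (blk u v)) f G
          - Vale.Agent.Lib.P335.cond (Omega d) (off (blk u v)) f G) ^ 2 := by
    rw [Finset.sum_comm (s := (Omega d).image (off (blk u v)))]
    exact Finset.sum_congr rfl (fun q _ => sum_by_fibres _ _ _ _)
  have hW : ∑ q ∈ pairsOff u v, ∑ G ∈ (Omega d).filter (active u v q.1 q.2),
        ((f G - f (flip u v q.1 q.2 G)) / 2) ^ 2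
      = ∑ t ∈ (Omega d).image (off (blk u v)), ∑ q ∈ pairsOff u v,
        ∑ G ∈ ((Omega d).filter (fun G => off (blk u v) G = t)).filter (active u v q.1 q.2),
        ((f G - f (flip u v q.1 q.2 G)) / 2) ^ 2 := by
    rw [Finset.sum_comm (s := (Omega d).image (off (blk u v)))]
    exact Finset.sum_congr rfl (fun q _ => sum_by_fibres _ _ _ _)
  rw [hU, hW]
  apply Finset.sum_le_sum
  intro t ht
  obtain ⟨G₀, hG₀, rfl⟩ := Finset.mem_image.mp ht
  exact fibre_U_le huv hG₀ f

/-- The block variance is dominated by the antisymmetric energy of the block. -/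
theorem fiber_Q_le_W (d : Fin n → ℕ) {u v : Fin n} (huv : u ≠ v) (f : EdgeSet n → ℝ) :
    2 * ipS (Omega d) (Qb d u v f) (Qb d u v f) ≤ ∑ q ∈ pairsOff u v, Wq d u v q.1 q.2 f := by
  unfold Wq
  have hmaps : ∀ G ∈ Omega d, off (blk u v) G ∈ (Omega d).image (off (blk u v)) :=
    fun G hG => Finset.mem_image_of_mem _ hG
  have hW : ∑ q ∈ pairsOff u v, ∑ G ∈ (Omega d).filter (active u v q.1 q.2),
        ((f G - f (flip u v q.1 q.2 G)) / 2) ^ 2
      = ∑ t ∈ (Omega d).image (off (blk u v)), ∑ q ∈ pairsOff u v,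
        ∑ G ∈ ((Omega d).filter (fun G => off (blk u v) G = t)).filter (active u v q.1 q.2),
        ((f G - f (flip u v q.1 q.2 G)) / 2) ^ 2 := by
    rw [Finset.sum_comm (s := (Omega d).image (off (blk u v)))]
    exact Finset.sum_congr rfl (fun q _ => sum_by_fibres _ _ _ _)
  rw [hW]
  unfold ipS Qb
  rw [← Finset.sum_fiberwise_of_maps_to hmaps, Finset.mul_sum]
  apply Finset.sum_le_sum
  intro t ht
  obtain ⟨G₀, hG₀, rfl⟩ := Finset.mem_image.mp ht
  rw [fibre_W huv hG₀]
  have e1 : ∑ G ∈ (Omega d).filter (fun G => off (blk u v) G = off (blk u v) G₀),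
      cQ (Omega d) (off (blk u v)) f G * cQ (Omega d) (off (blk u v)) f G
      = var ((Omega d).filter (fun G => off (blk u v) G = off (blk u v) G₀)) f := by
    rw [← sum_cQ_sq (Omega d) (off (blk u v)) f hG₀]
    exact Finset.sum_congr rfl (fun G _ => (sq _).symm)
  rw [e1, fibre_eq_betaG huv hG₀, var_image (betaG_inj huv)]
  have := johnson_gap (dSet u v G₀) (aSet u v G₀).card (fun A => f (betaG u v G₀ A))
  linarith

end KTV
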