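import Vale.Agent.Lib.KTV.GraphBeta

/-!
# The odd rectangles and the remaining states of the pair bound (KTV project)
Fields `T_D, T_a, T_b, T_square, rest` of the pair data of two disjoint vertex pairs.
-/

open Finset

namespace KTV

open Vale.Agent.Lib.P335 Classical

variable {n : ℕ} {u v x y : Fin n}

/-- Bits of the four cells. -/
noncomputable def tbit (e : Cell n) (G : EdgeSet n) : ℕ := if e ∈ G then 1 else 0

theorem tbit_le (e : Cell n) (G : EdgeSet n) : tbit e G ≤ 1 := by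
  unfold tbit
  split_ifs <;> simp

theorem tbit_eq_one {e : Cell n} {G : EdgeSet n} : tbit e G = 1 ↔ e ∈ G := by
  unfold tbit
  split_ifs with h <;> simp [h]

theorem tbit_eq_zero {e : Cell n} {G : EdgeSet n} : tbit e G = 0 ↔ e ∉ G := by
  unfold tbit
  split_ifs with h <;> simp [h]

theorem mem_iff_of_tbit_eq {e : Cell n} {G G' : EdgeSet n} (h : tbit e G = tbit e G') :
    e ∈ G ↔ e ∈ G' := by
  rw [← tbit_eq_one, ← tbit_eq_one, h]

/-- The four cells of a rectangle are distinct. -/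
theorem cells_ne (h : Distinct4 u v x y) :
    s(u, x) ≠ s(u, y) ∧ s(u, x) ≠ s(v, x) ∧ s(u, x) ≠ s(v, y) ∧ s(u, y) ≠ s(v, x) ∧
      s(u, y) ≠ s(v, y) ∧ s(v, x) ≠ s(v, y) := by
  obtain ⟨huv, hux, huy, hvx, hvy, hxy⟩ := h
  simp only [ne_eq, Sym2.eq_iff]
  refine ⟨?_, ?_, ?_, ?_, ?_, ?_⟩ <;> rintro (⟨h1, h2⟩ | ⟨h1, h2⟩)
  all_goals first
    | exact hxy h2
    | exact hxy h1
    | exact hxy h2.symm
    | exact hxy h1.symm
    | exact huv h1
    | exact huv h2
    | exact huv h1.symm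
    | exact huv h2.symm
    | exact hux h1
    | exact huy h1
    | exact hvx h1
    | exact hvy h1

/-- The number of edges in the rectangle. -/
theorem card_rect_inter (h : Distinct4 u v x y) (G : EdgeSet n) :
    (rect u v x y ∩ G).card = tbit s(u, x) G + tbit s(u, y) G + tbit s(v, x) G + tbit s(v, y) G := by
  obtain ⟨h1, h2, h3, h4, h5, h6⟩ := cells_ne h
  have e : rect u v x y ∩ G = (rect u v x y).filter (· ∈ G) := by
    ext c
    simp
  rw [e, Finset.card_filter]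
  unfold rect tbit
  rw [Finset.sum_insert (by simp [h1, h2, h3]), Finset.sum_insert (by simp [h4, h5]),
    Finset.sum_insert (by simp [h6]), Finset.sum_singleton]
  ring

/-- The column sums at `x, y` are invariant in an `a`-fibre. -/
theorem a_inv {d : Fin n → ℕ} (h : Distinct4 u v x y) {G G' : EdgeSet n} (hG : G ∈ Omega d)
    (hG' : G' ∈ Omega d) (hoff : off (blk u v) G = off (blk u v) G') :
    tbit s(u, x) G + tbit s(v, x) G = tbit s(u, x) G' + tbit s(v, x) G' ∧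
      tbit s(u, y) G + tbit s(v, y) G = tbit s(u, y) G' + tbit s(v, y) G' := by
  obtain ⟨huv, hux, huy, hvx, hvy, hxy⟩ := h
  exact ⟨column_eq huv hG hG' hoff hux.symm hvx.symm, column_eq huv hG hG' hoff huy.symm hvy.symm⟩

/-- The row sums at `u, v` are invariant in a `b`-fibre. -/
theorem b_inv {d : Fin n → ℕ} (h : Distinct4 u v x y) {G G' : EdgeSet n} (hG : G ∈ Omega d)
    (hG' : G' ∈ Omega d) (hoff : off (blk x y) G = off (blk x y) G') :
    tbit s(u, x) G + tbit s(u, y) G = tbit s(u, x) G' + tbit s(u, y) G' ∧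
      tbit s(v, x) G + tbit s(v, y) G = tbit s(v, x) G' + tbit s(v, y) G' := by
  obtain ⟨huv, hux, huy, hvx, hvy, hxy⟩ := h
  have h1 := column_eq hxy hG hG' hoff hux huy
  have h2 := column_eq hxy hG hG' hoff hvx hvy
  have e1 : s(x, u) = s(u, x) := Sym2.eq_swap
  have e2 : s(y, u) = s(u, y) := Sym2.eq_swap
  have e3 : s(x, v) = s(v, x) := Sym2.eq_swap
  have e4 : s(y, v) = s(v, y) := Sym2.eq_swap
  rw [e1, e2] at h1
  rw [e3, e4] at h2
  exact ⟨h1, h2⟩

theorem T_D (d : Fin n → ℕ) (u v x y : Fin n) (h : Distinct4 u v x y) :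
    ∀ G ∈ Omega d, ((rect u v x y) ∩ G).card = 1 ∨ ((rect u v x y) ∩ G).card = 3 →
      ¬ active u v x y G := by
  intro G _ hT ha
  rw [card_rect_inter h] at hT
  have e : tbit s(u, x) G + tbit s(u, y) G + tbit s(v, x) G + tbit s(v, y) G = 2 := by
    rcases ha with ⟨h1, h2, h3, h4⟩ | ⟨h1, h2, h3, h4⟩
    · rw [tbit_eq_one.mpr h1, tbit_eq_one.mpr h2, tbit_eq_zero.mpr h3, tbit_eq_zero.mpr h4]
    · rw [tbit_eq_zero.mpr h1, tbit_eq_zero.mpr h2, tbit_eq_one.mpr h3, tbit_eq_one.mpr h4]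
  omega

theorem T_a (d : Fin n → ℕ) (u v x y : Fin n) (h : Distinct4 u v x y) :
    ∀ G ∈ Omega d, ∀ G' ∈ Omega d, ((rect u v x y) ∩ G).card = 1 ∨ ((rect u v x y) ∩ G).card = 3 →
      off (blk u v) G = off (blk u v) G' →
        ((rect u v x y) ∩ G').card = 1 ∨ ((rect u v x y) ∩ G').card = 3 := by
  intro G hG G' hG' hT hoff
  rw [card_rect_inter h] at hT ⊢
  have := a_inv h hG hG' hoff
  omega

theorem T_b (d : Fin n → ℕ) (u v x y : Fin n) (h : Distinct4 u v x y) :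
    ∀ G ∈ Omega d, ∀ G' ∈ Omega d, ((rect u v x y) ∩ G).card = 1 ∨ ((rect u v x y) ∩ G).card = 3 →
      off (blk x y) G = off (blk x y) G' →
        ((rect u v x y) ∩ G').card = 1 ∨ ((rect u v x y) ∩ G').card = 3 := by
  intro G hG G' hG' hT hoff
  rw [card_rect_inter h] at hT ⊢
  have := b_inv h hG hG' hoff
  omega

/-- The rectangle lies in both blocks. -/
theorem rect_mem_blk_uv (h : Distinct4 u v x y) {e : Cell n} (he : e ∈ rect u v x y) :
    e ∈ blk u v := by
  obtain ⟨huv, hux, huy, hvx, hvy, hxy⟩ := h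
  rcases mem_rect.mp he with rfl | rfl | rfl | rfl
  · exact cell_u_mem_blk hux.symm hvx.symm
  · exact cell_u_mem_blk huy.symm hvy.symm
  · exact cell_v_mem_blk hux.symm hvx.symm
  · exact cell_v_mem_blk huy.symm hvy.symm

theorem rect_mem_blk_xy (h : Distinct4 u v x y) {e : Cell n} (he : e ∈ rect u v x y) :
    e ∈ blk x y := by
  obtain ⟨huv, hux, huy, hvx, hvy, hxy⟩ := h
  rcases mem_rect.mp he with rfl | rfl | rfl | rfl
  · rw [Sym2.eq_swap]; exact cell_u_mem_blk hux huy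
  · rw [Sym2.eq_swap]; exact cell_v_mem_blk hux huy
  · rw [Sym2.eq_swap]; exact cell_u_mem_blk hvx hvy
  · rw [Sym2.eq_swap]; exact cell_v_mem_blk hvx hvy

/-- A cell of the block of `u, v` outside the rectangle is off the block of `x, y`. -/
theorem not_blk_xy_of (h : Distinct4 u v x y) {e : Cell n} (he : e ∈ blk u v)
    (hr : e ∉ rect u v x y) : e ∉ blk x y := by
  obtain ⟨huv, hux, huy, hvx, hvy, hxy⟩ := h
  obtain ⟨w, h1, h2, rfl | rfl⟩ := mem_blk.mp he
  · have hwx : w ≠ x := by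
      rintro rfl
      exact hr (mem_rect.mpr (Or.inl rfl))
    have hwy : w ≠ y := by
      rintro rfl
      exact hr (mem_rect.mpr (Or.inr (Or.inl rfl)))
    exact cell_off_blk hux huy hwx hwy
  · have hwx : w ≠ x := by
      rintro rfl
      exact hr (mem_rect.mpr (Or.inr (Or.inr (Or.inl rfl))))
    have hwy : w ≠ y := by
      rintro rfl
      exact hr (mem_rect.mpr (Or.inr (Or.inr (Or.inr rfl))))
    exact cell_off_blk hvx hvy hwx hwy

/-- The pattern of an odd rectangle with prescribed row and column sums. -/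
theorem pattern_exists {R S t : ℕ}
    (h : (t = 1 ∧ R ≤ 1 ∧ S ≤ 1) ∨ (t = 3 ∧ 1 ≤ R ∧ R ≤ 2 ∧ 1 ≤ S ∧ S ≤ 2)) :
    ∃ a b c e : ℕ, a ≤ 1 ∧ b ≤ 1 ∧ c ≤ 1 ∧ e ≤ 1 ∧ a + b = R ∧ a + c = S ∧ a + b + c + e = t := by
  rcases h with ⟨rfl, h1, h2⟩ | ⟨rfl, h1, h2, h3, h4⟩
  · interval_cases R <;> interval_cases S
    · exact ⟨0, 0, 0, 1, by omega⟩
    · exact ⟨0, 0, 1, 0, by omega⟩
    · exact ⟨0, 1, 0, 0, by omega⟩
    · exact ⟨1, 0, 0, 0, by omega⟩
  · interval_cases R <;> interval_cases S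
    · exact ⟨0, 1, 1, 1, by omega⟩
    · exact ⟨1, 0, 1, 1, by omega⟩
    · exact ⟨1, 1, 0, 1, by omega⟩
    · exact ⟨1, 1, 1, 0, by omega⟩

/-- The glued graph: on the block of `u, v` outside the rectangle it is `G1`, off the block of
`u, v` it is `G2`, and on the rectangle it has the given bits. -/
noncomputable def tglue (u v x y : Fin n) (G1 G2 : EdgeSet n) (a b c e : ℕ) : EdgeSet n :=
  univ.filter fun z =>
    if z ∈ rect u v x y then
      (z = s(u, x) ∧ a = 1) ∨ (z = s(u, y) ∧ b = 1) ∨ (z = s(v, x) ∧ c = 1) ∨ (z = s(v, y) ∧ e = 1)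
    else if z ∈ blk u v then z ∈ G1 else z ∈ G2

theorem mem_tglue_off {G1 G2 : EdgeSet n} {a b c e : ℕ} (h : Distinct4 u v x y) {z : Cell n}
    (hz : z ∉ blk u v) : z ∈ tglue u v x y G1 G2 a b c e ↔ z ∈ G2 := by
  have hr : z ∉ rect u v x y := fun hh => hz (rect_mem_blk_uv h hh)
  simp only [tglue, Finset.mem_filter, Finset.mem_univ, true_and, if_neg hr, if_neg hz]

theorem mem_tglue_blk {G1 G2 : EdgeSet n} {a b c e : ℕ} {z : Cell n}
    (hz : z ∈ blk u v) (hr : z ∉ rect u v x y) : z ∈ tglue u v x y G1 G2 a b c e ↔ z ∈ G1 := by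
  simp only [tglue, Finset.mem_filter, Finset.mem_univ, true_and, if_neg hr, if_pos hz]

theorem tglue_bits {G1 G2 : EdgeSet n} {a b c e : ℕ} (h : Distinct4 u v x y) (ha : a ≤ 1)
    (hb : b ≤ 1) (hc : c ≤ 1) (he : e ≤ 1) :
    tbit s(u, x) (tglue u v x y G1 G2 a b c e) = a ∧ tbit s(u, y) (tglue u v x y G1 G2 a b c e) = b ∧
      tbit s(v, x) (tglue u v x y G1 G2 a b c e) = c ∧ tbit s(v, y) (tglue u v x y G1 G2 a b c e) = e := by
  obtain ⟨h1, h2, h3, h4, h5, h6⟩ := cells_ne h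
  have key : ∀ z ∈ rect u v x y, z ∈ tglue u v x y G1 G2 a b c e ↔
      (z = s(u, x) ∧ a = 1) ∨ (z = s(u, y) ∧ b = 1) ∨ (z = s(v, x) ∧ c = 1) ∨
        (z = s(v, y) ∧ e = 1) := by
    intro z hz
    simp only [tglue, Finset.mem_filter, Finset.mem_univ, true_and, if_pos hz]
  have bitv : ∀ {z : Cell n} {m : ℕ}, m ≤ 1 → (z ∈ tglue u v x y G1 G2 a b c e ↔ m = 1) →
      tbit z (tglue u v x y G1 G2 a b c e) = m := by
    intro z m hm hz
    unfold tbit
    by_cases h0 : m = 1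
    · rw [if_pos (hz.mpr h0), h0]
    · rw [if_neg (fun hh => h0 (hz.mp hh))]
      omega
  refine ⟨bitv ha ?_, bitv hb ?_, bitv hc ?_, bitv he ?_⟩
  · rw [key _ (mem_rect.mpr (Or.inl rfl))]
    simp [h1, h2, h3]
  · rw [key _ (mem_rect.mpr (Or.inr (Or.inl rfl)))]
    simp [h1.symm, h4, h5]
  · rw [key _ (mem_rect.mpr (Or.inr (Or.inr (Or.inl rfl))))]
    simp [h2.symm, h4.symm, h6]
  · rw [key _ (mem_rect.mpr (Or.inr (Or.inr (Or.inr rfl))))]
    simp [h3.symm, h5.symm, h6.symm]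

/-- Graphs that agree off a block have the same degree minus block bits at vertices outside the
pair. -/
theorem deg_of_off {p q : Fin n} (hpq : p ≠ q) {G G' : EdgeSet n}
    (hoff : off (blk p q) G = off (blk p q) G') {w : Fin n} (h1 : w ≠ p) (h2 : w ≠ q) :
    (nbrs G w).card + (tbit s(w, p) G' + tbit s(w, q) G')
      = (nbrs G' w).card + (tbit s(w, p) G + tbit s(w, q) G) := by
  have e1 := card_nbrs_split G w hpq
  have e2 := card_nbrs_split G' w hpq
  have e3 : (univ.filter fun z => z ≠ p ∧ z ≠ q ∧ s(w, z) ∈ G)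
      = (univ.filter fun z => z ≠ p ∧ z ≠ q ∧ s(w, z) ∈ G') := by
    ext z
    simp only [Finset.mem_filter, Finset.mem_univ, true_and]
    have hoff' := off_eq_iff.mp hoff
    constructor
    · rintro ⟨h3, h4, h5⟩
      exact ⟨h3, h4, (hoff' _ (cell_off_blk h1 h2 h3 h4)).mp h5⟩
    · rintro ⟨h3, h4, h5⟩
      exact ⟨h3, h4, (hoff' _ (cell_off_blk h1 h2 h3 h4)).mpr h5⟩
  rw [e3] at e1
  unfold tbit
  omega

theorem arith_unique {a b c e a' b' c' e' : ℕ} (l1 : a ≤ 1) (l2 : b ≤ 1) (l3 : c ≤ 1) (l4 : e ≤ 1)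
    (m1 : a' ≤ 1) (m2 : b' ≤ 1) (m3 : c' ≤ 1) (m4 : e' ≤ 1) (h1 : a + b = a' + b')
    (h2 : c + e = c' + e') (h3 : a + c = a' + c') (h4 : b + e = b' + e')
    (ht : a + b + c + e = 1 ∨ a + b + c + e = 3) : a = a' ∧ b = b' ∧ c = c' ∧ e = e' := by
  omega

theorem arith_pattern {a0 b0 c0 e0 a1 b1 c1 e1 a2 b2 c2 e2 : ℕ} (l0 : a0 ≤ 1) (l1 : b0 ≤ 1)
    (l2 : c0 ≤ 1) (l3 : e0 ≤ 1) (m0 : a1 ≤ 1) (m1 : b1 ≤ 1) (m2 : c1 ≤ 1) (m3 : e1 ≤ 1)
    (n0 : a2 ≤ 1) (n1 : b2 ≤ 1) (n2 : c2 ≤ 1) (n3 : e2 ≤ 1)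
    (i1 : a1 + c1 = a0 + c0) (i2 : b1 + e1 = b0 + e0) (i3 : a2 + b2 = a0 + b0) (i4 : c2 + e2 = c0 + e0)
    (hT : a0 + b0 + c0 + e0 = 1 ∨ a0 + b0 + c0 + e0 = 3) :
    ∃ a b c e : ℕ, a ≤ 1 ∧ b ≤ 1 ∧ c ≤ 1 ∧ e ≤ 1 ∧ a + b = a1 + b1 ∧ c + e = c1 + e1 ∧
      a + c = a2 + c2 ∧ b + e = b2 + e2 := by
  obtain ⟨a, b, c, e, ha, hb, hc, he, hR, hS, ht⟩ := pattern_exists
    (R := a1 + b1) (S := a2 + c2) (t := a0 + b0 + c0 + e0) (by omega)
  exact ⟨a, b, c, e, ha, hb, hc, he, hR, by omega, hS, by omega⟩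

/-- The glued graph has the right degrees. -/
theorem tglue_mem {d : Fin n → ℕ} (h : Distinct4 u v x y) {G G1 G2 : EdgeSet n}
    (hG : G ∈ Omega d) (hG1 : G1 ∈ Omega d) (hG2 : G2 ∈ Omega d)
    (hoff1 : off (blk u v) G1 = off (blk u v) G) (hoff2 : off (blk x y) G2 = off (blk x y) G)
    {a b c e : ℕ} (ha : a ≤ 1) (hb : b ≤ 1) (hc : c ≤ 1) (he : e ≤ 1)
    (hb12 : off (blk x y) (tglue u v x y G1 G2 a b c e) = off (blk x y) G1)
    (ha12 : off (blk u v) (tglue u v x y G1 G2 a b c e) = off (blk u v) G2)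
    (r1 : a + b = tbit s(u, x) G1 + tbit s(u, y) G1) (r2 : c + e = tbit s(v, x) G1 + tbit s(v, y) G1)
    (s1 : a + c = tbit s(u, x) G2 + tbit s(v, x) G2) (s2 : b + e = tbit s(u, y) G2 + tbit s(v, y) G2) :
    tglue u v x y G1 G2 a b c e ∈ Omega d := by
  obtain ⟨huv, hux, huy, hvx, hvy, hxy⟩ := id h
  obtain ⟨g0, g1, g2, g3⟩ := tglue_bits (G1 := G1) (G2 := G2) h ha hb hc he
  have off1 := off_eq_iff.mp hoff1
  have dG1 := (mem_Omega.mp hG1).2
  have dG2 := (mem_Omega.mp hG2).2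
  rw [mem_Omega]
  constructor
  · intro z hz
    by_cases hr : z ∈ rect u v x y
    · rcases mem_rect.mp hr with rfl | rfl | rfl | rfl
      · simpa using hux
      · simpa using huy
      · simpa using hvx
      · simpa using hvy
    · by_cases hzu : z ∈ blk u v
      · exact (mem_Omega.mp hG1).1 z ((mem_tglue_blk hzu hr).mp hz)
      · exact (mem_Omega.mp hG2).1 z ((mem_tglue_off h hzu).mp hz)
  · intro i
    by_cases hiu : i = u
    · subst hiu
      have := deg_of_off hxy hb12 hux huy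
      rw [g0, g1, r1] at this
      rw [← dG1 i]
      exact Nat.add_right_cancel this
    by_cases hiv : i = v
    · subst hiv
      have := deg_of_off hxy hb12 hvx hvy
      rw [g2, g3, r2] at this
      rw [← dG1 i]
      exact Nat.add_right_cancel this
    by_cases hix : i = x
    · subst hix
      have := deg_of_off huv ha12 (Ne.symm hux) (Ne.symm hvx)
      have e1 : s(i, u) = s(u, i) := Sym2.eq_swap
      have e2 : s(i, v) = s(v, i) := Sym2.eq_swap
      rw [e1, e2, g0, g2, s1] at this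
      rw [← dG2 i]
      exact Nat.add_right_cancel this
    by_cases hiy : i = y
    · subst hiy
      have := deg_of_off huv ha12 (Ne.symm huy) (Ne.symm hvy)
      have e1 : s(i, u) = s(u, i) := Sym2.eq_swap
      have e2 : s(i, v) = s(v, i) := Sym2.eq_swap
      rw [e1, e2, g1, g3, s2] at this
      rw [← dG2 i]
      exact Nat.add_right_cancel this
    · have key := deg_of_off hxy hb12 hix hiy
      have c1 : s(i, x) ∉ blk u v := cell_off_blk hiu hiv (Ne.symm hux) (Ne.symm hvx)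
      have c2 : s(i, y) ∉ blk u v := cell_off_blk hiu hiv (Ne.symm huy) (Ne.symm hvy)
      have b1 : tbit s(i, x) (tglue u v x y G1 G2 a b c e) = tbit s(i, x) G2 := by
        unfold tbit
        simp only [mem_tglue_off h c1]
      have b2 : tbit s(i, y) (tglue u v x y G1 G2 a b c e) = tbit s(i, y) G2 := by
        unfold tbit
        simp only [mem_tglue_off h c2]
      have b3 : tbit s(i, x) G1 = tbit s(i, x) G := by
        unfold tbit
        simp only [off1 _ c1]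
      have b4 : tbit s(i, y) G1 = tbit s(i, y) G := by
        unfold tbit
        simp only [off1 _ c2]
      have col := column_eq hxy hG2 hG hoff2 (w := i) hix hiy
      have e1 : s(x, i) = s(i, x) := Sym2.eq_swap
      have e2 : s(y, i) = s(i, y) := Sym2.eq_swap
      rw [e1, e2] at col
      have col' : tbit s(i, x) G2 + tbit s(i, y) G2 = tbit s(i, x) G + tbit s(i, y) G := col
      rw [b1, b2, b3, b4, col'] at key
      rw [← dG1 i]
      exact Nat.add_right_cancel key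

/-- The completion of the square for an odd rectangle. -/
theorem T_square (d : Fin n → ℕ) (u v x y : Fin n) (h : Distinct4 u v x y) :
    ∀ G ∈ Omega d, ∀ G1 ∈ Omega d, ∀ G2 ∈ Omega d,
      ((rect u v x y) ∩ G).card = 1 ∨ ((rect u v x y) ∩ G).card = 3 →
      off (blk u v) G1 = off (blk u v) G → off (blk x y) G2 = off (blk x y) G →
      ∃! G12, G12 ∈ Omega d ∧ off (blk x y) G12 = off (blk x y) G1 ∧
        off (blk u v) G12 = off (blk u v) G2 := by
  intro G hG G1 hG1 G2 hG2 hT hoff1 hoff2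
  rw [card_rect_inter h] at hT
  have i1 := a_inv h hG1 hG hoff1
  have i2 := b_inv h hG2 hG hoff2
  obtain ⟨a, b, c, e, ha, hb, hc, he, r1, r2, s1, s2⟩ := arith_pattern
    (tbit_le s(u, x) G) (tbit_le s(u, y) G) (tbit_le s(v, x) G) (tbit_le s(v, y) G)
    (tbit_le s(u, x) G1) (tbit_le s(u, y) G1) (tbit_le s(v, x) G1) (tbit_le s(v, y) G1)
    (tbit_le s(u, x) G2) (tbit_le s(u, y) G2) (tbit_le s(v, x) G2) (tbit_le s(v, y) G2)
    i1.1 i1.2 i2.1 i2.2 hT
  obtain ⟨g0, g1, g2, g3⟩ := tglue_bits (G1 := G1) (G2 := G2) h ha hb hc he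
  have off1 := off_eq_iff.mp hoff1
  have off2 := off_eq_iff.mp hoff2
  have hb12 : off (blk x y) (tglue u v x y G1 G2 a b c e) = off (blk x y) G1 := by
    rw [off_eq_iff]
    intro z hz
    have hr : z ∉ rect u v x y := fun hh => hz (rect_mem_blk_xy h hh)
    by_cases hzu : z ∈ blk u v
    · exact mem_tglue_blk hzu hr
    · rw [mem_tglue_off h hzu, off2 z hz, off1 z hzu]
  have ha12 : off (blk u v) (tglue u v x y G1 G2 a b c e) = off (blk u v) G2 := by
    rw [off_eq_iff]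
    intro z hz
    exact mem_tglue_off h hz
  have hmem := tglue_mem h hG hG1 hG2 hoff1 hoff2 ha hb hc he hb12 ha12 r1 r2 s1 s2
  refine ⟨tglue u v x y G1 G2 a b c e, ⟨hmem, hb12, ha12⟩, ?_⟩
  rintro G' ⟨hG', hb', ha'⟩
  have j1 := a_inv h hG' hG2 ha'
  have j2 := b_inv h hG' hG1 hb'
  have hodd : a + b + c + e = 1 ∨ a + b + c + e = 3 := by
    have e0 : a + b + c + e = (a + b) + (c + e) := by ring
    have e1 : tbit s(u, x) G1 + tbit s(u, y) G1 + (tbit s(v, x) G1 + tbit s(v, y) G1)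
        = (tbit s(u, x) G1 + tbit s(v, x) G1) + (tbit s(u, y) G1 + tbit s(v, y) G1) := by ring
    have e2 : tbit s(u, x) G + tbit s(u, y) G + tbit s(v, x) G + tbit s(v, y) G
        = (tbit s(u, x) G + tbit s(v, x) G) + (tbit s(u, y) G + tbit s(v, y) G) := by ring
    rw [e0, r1, r2, e1, i1.1, i1.2, ← e2]
    exact hT
  obtain ⟨q0, q1, q2, q3⟩ := arith_unique ha hb hc he (tbit_le s(u, x) G') (tbit_le s(u, y) G')
    (tbit_le s(v, x) G') (tbit_le s(v, y) G') (r1.trans j2.1.symm) (r2.trans j2.2.symm)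
    (s1.trans j1.1.symm) (s2.trans j1.2.symm) hodd
  have offa := off_eq_iff.mp ha'
  have offb := off_eq_iff.mp hb'
  ext z
  by_cases hr : z ∈ rect u v x y
  · rcases mem_rect.mp hr with rfl | rfl | rfl | rfl
    · exact mem_iff_of_tbit_eq (q0.symm.trans g0.symm)
    · exact mem_iff_of_tbit_eq (q1.symm.trans g1.symm)
    · exact mem_iff_of_tbit_eq (q2.symm.trans g2.symm)
    · exact mem_iff_of_tbit_eq (q3.symm.trans g3.symm)
  · by_cases hzu : z ∈ blk u v
    · rw [offb z (not_blk_xy_of h hzu hr)]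
      exact (mem_tglue_blk hzu hr).symm
    · rw [offa z hzu]
      exact (mem_tglue_off h hzu).symm

/-- The states which are neither active nor odd: one of the two fibres does not move the
rectangle. -/
theorem rest_field (d : Fin n → ℕ) (u v x y : Fin n) (h : Distinct4 u v x y) :
    ∀ G ∈ Omega d, ¬ active u v x y G →
      ¬ (((rect u v x y) ∩ G).card = 1 ∨ ((rect u v x y) ∩ G).card = 3) →
      (∀ G' ∈ Omega d, off (blk u v) G = off (blk u v) G' →
        off (blk u v \ rect u v x y) G = off (blk u v \ rect u v x y) G') ∨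
      (∀ G' ∈ Omega d, off (blk x y) G = off (blk x y) G' →
        off (blk x y \ rect u v x y) G = off (blk x y \ rect u v x y) G') := by
  intro G hG hna hnT
  rw [card_rect_inter h] at hnT
  have l0 := tbit_le s(u, x) G
  have l1 := tbit_le s(u, y) G
  have l2 := tbit_le s(v, x) G
  have l3 := tbit_le s(v, y) G
  have hna1 : ¬ (tbit s(u, x) G = 1 ∧ tbit s(v, y) G = 1 ∧ tbit s(u, y) G = 0 ∧ tbit s(v, x) G = 0) := by
    rintro ⟨h1, h2, h3, h4⟩
    exact hna (Or.inl ⟨tbit_eq_one.mp h1, tbit_eq_one.mp h2, tbit_eq_zero.mp h3, tbit_eq_zero.mp h4⟩)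
  have hna2 : ¬ (tbit s(u, x) G = 0 ∧ tbit s(v, y) G = 0 ∧ tbit s(u, y) G = 1 ∧ tbit s(v, x) G = 1) := by
    rintro ⟨h1, h2, h3, h4⟩
    exact hna (Or.inr ⟨tbit_eq_zero.mp h1, tbit_eq_zero.mp h2, tbit_eq_one.mp h3, tbit_eq_one.mp h4⟩)
  have hcase : (tbit s(u, x) G = tbit s(v, x) G ∧ tbit s(u, y) G = tbit s(v, y) G) ∨
      (tbit s(u, x) G = tbit s(u, y) G ∧ tbit s(v, x) G = tbit s(v, y) G) := by
    omega
  have final : ∀ (C : EdgeSet n) (G' : EdgeSet n), off C G = off C G' →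
      (∀ z ∈ rect u v x y, (z ∈ G ↔ z ∈ G')) → off (C \ rect u v x y) G = off (C \ rect u v x y) G' := by
    intro C G' hoff hrect
    rw [off_eq_iff]
    intro z hz
    by_cases hr : z ∈ rect u v x y
    · exact hrect z hr
    · have hzC : z ∉ C := fun hh => hz (Finset.mem_sdiff.mpr ⟨hh, hr⟩)
      exact off_eq_iff.mp hoff z hzC
  rcases hcase with ⟨h1, h2⟩ | ⟨h1, h2⟩
  · left
    intro G' hG' hoff
    apply final _ _ hoff
    have i1 := a_inv h hG hG' hoff
    have p0 := tbit_le s(u, x) G'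
    have p1 := tbit_le s(u, y) G'
    have p2 := tbit_le s(v, x) G'
    have p3 := tbit_le s(v, y) G'
    intro z hz
    rcases mem_rect.mp hz with rfl | rfl | rfl | rfl <;> apply mem_iff_of_tbit_eq <;> omega
  · right
    intro G' hG' hoff
    apply final _ _ hoff
    have i1 := b_inv h hG hG' hoff
    have p0 := tbit_le s(u, x) G'
    have p1 := tbit_le s(u, y) G'
    have p2 := tbit_le s(v, x) G'
    have p3 := tbit_le s(v, y) G'
    intro z hz
    rcases mem_rect.mp hz with rfl | rfl | rfl | rfl <;> apply mem_iff_of_tbit_eq <;> omega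

end KTV
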