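import Vale.Agent.Lib.KTV.PairAux

/-!
# Abstract pair bound (KTV project)
Four fibrations `a'` finer than `a`, `b'` finer than `b` on a finite set, an active set `D`
with an involution `τ`. Uses `cond`, `cQ`, `ipS` of `Vale.Agent.Lib.P335.Cond`.
Paper proof: team notes `P335pair`.
-/

open Finset

namespace KTV

open Vale.Agent.Lib.P335 Vale.Agent.Lib.P335.PairAux Classical

variable {X β : Type*} [DecidableEq β]

/-- Square completion implies commutation of the conditional expectations on `S`. -/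
theorem cond_comm_of_square {β' : Type*} [DecidableEq β'] (S : Finset X) (π : X → β) (π' : X → β')
    (hsq : ∀ x ∈ S, ∀ x1 ∈ S, ∀ x2 ∈ S, π x1 = π x → π' x2 = π' x →
      ∃! x12, x12 ∈ S ∧ π' x12 = π' x1 ∧ π x12 = π x2)
    (g : X → ℝ) {x : X} (hx : x ∈ S) :
    cond S π (cond S π' g) x = cond S π' (cond S π g) x :=
  cond_comm_of_square' hsq g hx

/-- Data of the pair bound. `D` is the set of active states (t=2, alternating rectangle), `τ` the flip,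
`T` the set on which `a` and `b` commute (t=1,3); on the rest `a=a'` or `b=b'` locally. -/
structure PairData (X β : Type*) [DecidableEq β] where
  S : Finset X
  a : X → β
  a' : X → β
  b : X → β
  b' : X → β
  D : X → Prop
  T : X → Prop
  τ : X → X
  a'_le : ∀ x ∈ S, ∀ y ∈ S, a' x = a' y → a x = a y
  b'_le : ∀ x ∈ S, ∀ y ∈ S, b' x = b' y → b x = b y
  τ_mem : ∀ x ∈ S, D x → τ x ∈ S ∧ D (τ x)
  τ_τ : ∀ x ∈ S, D x → τ (τ x) = x
  τ_a : ∀ x ∈ S, D x → a (τ x) = a x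
  τ_b : ∀ x ∈ S, D x → b (τ x) = b x
  τ_ne_a' : ∀ x ∈ S, D x → a' (τ x) ≠ a' x
  τ_ne_b' : ∀ x ∈ S, D x → b' (τ x) ≠ b' x
  a'_D : ∀ x ∈ S, ∀ y ∈ S, a' x = a' y → D x → D y
  b'_D : ∀ x ∈ S, ∀ y ∈ S, b' x = b' y → D x → D y
  a'_τ : ∀ x ∈ S, ∀ y ∈ S, D x → a' x = a' y → a' (τ x) = a' (τ y)
  b'_τ : ∀ x ∈ S, ∀ y ∈ S, D x → b' x = b' y → b' (τ x) = b' (τ y)
  a_D : ∀ x ∈ S, ∀ y ∈ S, D x → D y → a x = a y → a' x = a' y ∨ a' (τ x) = a' y
  b_D : ∀ x ∈ S, ∀ y ∈ S, D x → D y → b x = b y → b' x = b' y ∨ b' (τ x) = b' y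
  sq_a'_b : ∀ x ∈ S, ∀ x1 ∈ S, ∀ x2 ∈ S, a' x1 = a' x → b x2 = b x →
    ∃! x12, x12 ∈ S ∧ b x12 = b x1 ∧ a' x12 = a' x2
  sq_a_b' : ∀ x ∈ S, ∀ x1 ∈ S, ∀ x2 ∈ S, a x1 = a x → b' x2 = b' x →
    ∃! x12, x12 ∈ S ∧ b' x12 = b' x1 ∧ a x12 = a x2
  sq_a'_b' : ∀ x ∈ S, ∀ x1 ∈ S, ∀ x2 ∈ S, a' x1 = a' x → b' x2 = b' x →
    ∃! x12, x12 ∈ S ∧ b' x12 = b' x1 ∧ a' x12 = a' x2
  T_D : ∀ x ∈ S, T x → ¬ D x
  T_a : ∀ x ∈ S, ∀ y ∈ S, T x → a x = a y → T y
  T_b : ∀ x ∈ S, ∀ y ∈ S, T x → b x = b y → T y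
  T_square : ∀ x ∈ S, ∀ x1 ∈ S, ∀ x2 ∈ S, T x → a x1 = a x → b x2 = b x →
    ∃! x12, x12 ∈ S ∧ b x12 = b x1 ∧ a x12 = a x2
  rest : ∀ x ∈ S, ¬ D x → ¬ T x →
    (∀ y ∈ S, a x = a y → a' x = a' y) ∨ (∀ y ∈ S, b x = b y → b' x = b' y)

/-- Antisymmetric part squared over active states. -/
noncomputable def PairData.W (P : PairData X β) (f : X → ℝ) : ℝ :=
  ∑ x ∈ P.S.filter P.D, ((f x - f (P.τ x)) / 2) ^ 2

/-- `U_a`: squared difference between the active-part average and the full average in the `a`-fibre,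
summed over the active states. -/
noncomputable def PairData.Ua (P : PairData X β) (f : X → ℝ) : ℝ :=
  ∑ x ∈ P.S.filter P.D, (cond (P.S.filter P.D) P.a f x - cond P.S P.a f x) ^ 2

/-- `U_b`: same for `b`. -/
noncomputable def PairData.Ub (P : PairData X β) (f : X → ℝ) : ℝ :=
  ∑ x ∈ P.S.filter P.D, (cond (P.S.filter P.D) P.b f x - cond P.S P.b f x) ^ 2

/-- The pair bound: `(Q_a f, Q_b f) ≥ W - U_a/2 - U_b/2`. -/
theorem pair_bound (P : PairData X β) (f : X → ℝ) :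
    P.W f - P.Ua f / 2 - P.Ub f / 2 ≤ ipS P.S (cQ P.S P.a f) (cQ P.S P.b f) := by
  have comm_a'_b : ∀ g : X → ℝ, ∀ x ∈ P.S,
      cond P.S P.a' (cond P.S P.b g) x = cond P.S P.b (cond P.S P.a' g) x :=
    fun g x hx => cond_comm_of_square' P.sq_a'_b g hx
  have comm_a_b' : ∀ g : X → ℝ, ∀ x ∈ P.S,
      cond P.S P.a (cond P.S P.b' g) x = cond P.S P.b' (cond P.S P.a g) x :=
    fun g x hx => cond_comm_of_square' P.sq_a_b' g hx
  have comm_a'_b' : ∀ g : X → ℝ, ∀ x ∈ P.S,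
      cond P.S P.a' (cond P.S P.b' g) x = cond P.S P.b' (cond P.S P.a' g) x :=
    fun g x hx => cond_comm_of_square' P.sq_a'_b' g hx
  set h := piF P.D P.τ f with hh
  set w : X → ℝ := fun x => f x - h x with hw
  set g := cond P.S P.a' (cond P.S P.b' h) with hg
  set ρ := cQ P.S P.a g with hρ
  set σ := cQ P.S P.b g with hσ
  -- symmetrization
  have hQa : ∀ x ∈ P.S, cQ P.S P.a f x = cQ P.S P.a h x + w x := by
    intro x _
    unfold cQ
    rw [hh, cond_piF P.τ_mem P.τ_τ P.τ_a f x, hw]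
    ring
  have hQb : ∀ x ∈ P.S, cQ P.S P.b f x = cQ P.S P.b h x + w x := by
    intro x _
    unfold cQ
    rw [hh, cond_piF P.τ_mem P.τ_τ P.τ_b f x, hw]
    ring
  have hexp : ipS P.S (cQ P.S P.a f) (cQ P.S P.b f)
      = ipS P.S (cQ P.S P.a h) (cQ P.S P.b h) + ipS P.S (cQ P.S P.a h) w
        + ipS P.S (cQ P.S P.b h) w + ipS P.S w w := by
    rw [ipS_congr hQa hQb]
    unfold ipS
    rw [← Finset.sum_add_distrib, ← Finset.sum_add_distrib, ← Finset.sum_add_distrib]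
    exact Finset.sum_congr rfl (fun x _ => by ring)
  have hanti_a : ipS P.S (cQ P.S P.a h) w = 0 := ipS_cQ_anti P.τ_mem P.τ_τ P.τ_a f
  have hanti_b : ipS P.S (cQ P.S P.b h) w = 0 := ipS_cQ_anti P.τ_mem P.τ_τ P.τ_b f
  have hww : ipS P.S w w = P.W f := ipS_anti_self f
  -- the cross term
  have hcross : ipS P.S ρ σ ≤ ipS P.S (cQ P.S P.a h) (cQ P.S P.b h) :=
    cross_ge_cross P.a'_le P.b'_le comm_a'_b comm_a_b' comm_a'_b' h
  -- splitting `S`
  have hfilt : (P.S.filter (fun x => ¬ P.D x)).filter P.T = P.S.filter P.T := by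
    ext x
    simp only [Finset.mem_filter]
    constructor
    · rintro ⟨⟨h1, _⟩, h3⟩
      exact ⟨h1, h3⟩
    · rintro ⟨h1, h2⟩
      exact ⟨⟨h1, P.T_D x h1 h2⟩, h2⟩
  have hsplit : ipS P.S ρ σ = ∑ x ∈ P.S.filter P.D, ρ x * σ x + ∑ x ∈ P.S.filter P.T, ρ x * σ x
      + ∑ x ∈ (P.S.filter (fun x => ¬ P.D x)).filter (fun x => ¬ P.T x), ρ x * σ x := by
    unfold ipS
    rw [← Finset.sum_filter_add_sum_filter_not P.S P.D,
      ← Finset.sum_filter_add_sum_filter_not (P.S.filter (fun x => ¬ P.D x)) P.T, hfilt]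
    ring
  have hT : 0 ≤ ∑ x ∈ P.S.filter P.T, ρ x * σ x := T_part P.T_a P.T_b P.T_square g
  have hrest : ∑ x ∈ (P.S.filter (fun x => ¬ P.D x)).filter (fun x => ¬ P.T x), ρ x * σ x = 0 := by
    apply Finset.sum_eq_zero
    intro x hx
    have hx1 := Finset.mem_filter.mp hx
    have hx2 := Finset.mem_filter.mp hx1.1
    rcases P.rest x hx2.1 hx2.2 hx1.2 with h1 | h1
    · have : ρ x = 0 := by
        rw [hρ]
        unfold cQ
        rw [cond_of_factor hx2.1 (fun y hy hyx => cond_eq_of_eq (h1 y hy hyx.symm).symm)]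
        ring
      rw [this, zero_mul]
    · have : σ x = 0 := by
        rw [hσ]
        unfold cQ
        rw [cond_of_factor hx2.1 (f := g) (fun y hy hyx => by
          rw [hg, comm_a'_b' h y hy, comm_a'_b' h x hx2.1]
          exact cond_eq_of_eq (h1 y hy hyx.symm).symm)]
        ring
      rw [this, mul_zero]
  -- active part
  have hρU : ∑ x ∈ P.S.filter P.D, ρ x ^ 2 ≤ P.Ua f :=
    half_U P.a'_le P.τ_mem P.τ_τ P.τ_a P.τ_ne_a' P.a'_D P.a'_τ P.a_D P.b'_D comm_a_b' comm_a'_b' f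
  have hσU : ∑ x ∈ P.S.filter P.D, σ x ^ 2 ≤ P.Ub f := by
    have h0 := half_U (a := P.b) (a' := P.b') (b' := P.a') P.b'_le P.τ_mem P.τ_τ P.τ_b P.τ_ne_b'
      P.b'_D P.b'_τ P.b_D P.a'_D (fun g x hx => (comm_a'_b g x hx).symm)
      (fun g x hx => (comm_a'_b' g x hx).symm) f
    refine le_trans (le_of_eq ?_) h0
    apply Finset.sum_congr rfl
    intro x hx
    have hgg : ∀ y ∈ P.S, g y = cond P.S P.b' (cond P.S P.a' h) y := fun y hy => comm_a'_b' h y hy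
    have : σ x = cQ P.S P.b (cond P.S P.b' (cond P.S P.a' h)) x := by
      rw [hσ]
      unfold cQ
      rw [hgg x (Finset.mem_filter.mp hx).1, cond_congr hgg x]
    rw [this]
  have hD : -(P.Ua f / 2) - P.Ub f / 2 ≤ ∑ x ∈ P.S.filter P.D, ρ x * σ x := by
    have h1 : 0 ≤ ∑ x ∈ P.S.filter P.D, (ρ x + σ x) ^ 2 :=
      Finset.sum_nonneg (fun x _ => sq_nonneg _)
    have h2 : ∑ x ∈ P.S.filter P.D, (ρ x + σ x) ^ 2 = ∑ x ∈ P.S.filter P.D, ρ x ^ 2
        + 2 * ∑ x ∈ P.S.filter P.D, ρ x * σ x + ∑ x ∈ P.S.filter P.D, σ x ^ 2 := by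
      rw [Finset.mul_sum, ← Finset.sum_add_distrib, ← Finset.sum_add_distrib]
      exact Finset.sum_congr rfl (fun x _ => by ring)
    linarith
  rw [hexp, hanti_a, hanti_b, hww]
  linarith

end KTV
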