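import Vale.Agent.Lib.KTV.Graph
import Vale.Agent.Lib.KTV.Pair
import Vale.Agent.Lib.KTV.GraphExchange
import Vale.Agent.Lib.KTV.GraphPairT

/-!
# The pair bound for two disjoint blocks of a graph (KTV project)
Instance of `PairData`; paper proof in team notes `P335plan2`.
-/

open Finset

namespace KTV

open Vale.Agent.Lib.P335 Classical

variable {n : ℕ}

section Facts

variable {u v x y : Fin n} {G G' : EdgeSet n}

theorem off_mono {C C' G G' : EdgeSet n} (hCC : C ⊆ C') (h : off C G = off C G') :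
    off C' G = off C' G' := by
  rw [off_eq_iff] at h ⊢
  exact fun e he => h e (fun hc => he (hCC hc))

theorem mem_flip_rect {e : Cell n} (he : e ∈ rect u v x y) : e ∈ flip u v x y G ↔ e ∉ G := by
  rw [mem_flip]
  tauto

theorem mem_flip_off {e : Cell n} (he : e ∉ rect u v x y) : e ∈ flip u v x y G ↔ e ∈ G := by
  rw [mem_flip]
  tauto

theorem cell_ux_rect : s(u, x) ∈ rect u v x y := mem_rect.mpr (by simp)
theorem cell_uy_rect : s(u, y) ∈ rect u v x y := mem_rect.mpr (by simp)
theorem cell_vx_rect : s(v, x) ∈ rect u v x y := mem_rect.mpr (by simp)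
theorem cell_vy_rect : s(v, y) ∈ rect u v x y := mem_rect.mpr (by simp)

theorem active_flip (ha : active u v x y G) : active u v x y (flip u v x y G) := by
  unfold active at ha ⊢
  rw [mem_flip_rect cell_ux_rect, mem_flip_rect cell_vy_rect, mem_flip_rect cell_uy_rect,
    mem_flip_rect cell_vx_rect]
  tauto

theorem flip_flip : flip u v x y (flip u v x y G) = G := by
  unfold flip
  exact symmDiff_symmDiff_cancel_right _ _

theorem off_flip_of_sub {C : EdgeSet n} (hs : rect u v x y ⊆ C) :
    off C (flip u v x y G) = off C G := by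
  rw [off_eq_iff]
  exact fun e he => mem_flip_off (fun hc => he (hs hc))

/-- The cell sets `C \ rect` see the rectangle. -/
theorem flip_ne_off {C : EdgeSet n} :
    off (C \ rect u v x y) (flip u v x y G) ≠ off (C \ rect u v x y) G := by
  intro h
  have h1 := off_eq_iff.mp h s(u, x) (fun hc => (Finset.mem_sdiff.mp hc).2 cell_ux_rect)
  rw [mem_flip_rect cell_ux_rect] at h1
  tauto

theorem active_of_off {C : EdgeSet n} (h : off (C \ rect u v x y) G = off (C \ rect u v x y) G')
    (ha : active u v x y G) : active u v x y G' := by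
  have hr : ∀ e ∈ rect u v x y, (e ∈ G ↔ e ∈ G') := fun e he =>
    off_eq_iff.mp h e (fun hc => (Finset.mem_sdiff.mp hc).2 he)
  unfold active at ha ⊢
  rw [← hr _ cell_ux_rect, ← hr _ cell_vy_rect, ← hr _ cell_uy_rect, ← hr _ cell_vx_rect]
  exact ha

theorem off_flip_congr {C : EdgeSet n} (h : off C G = off C G') :
    off C (flip u v x y G) = off C (flip u v x y G') := by
  rw [off_eq_iff] at h ⊢
  intro e he
  rw [mem_flip, mem_flip, h e he]

theorem off_sdiff_of {C R : EdgeSet n} (h : off C G = off C G') (hr : ∀ e ∈ R, (e ∈ G ↔ e ∈ G')) :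
    off (C \ R) G = off (C \ R) G' := by
  rw [off_eq_iff] at h ⊢
  intro e he
  by_cases hc : e ∈ R
  · exact hr e hc
  · exact h e (fun hc' => he (Finset.mem_sdiff.mpr ⟨hc', hc⟩))

theorem active_pattern (ha : active u v x y G) (ha' : active u v x y G') :
    (∀ e ∈ rect u v x y, (e ∈ G ↔ e ∈ G')) ∨
      (∀ e ∈ rect u v x y, (e ∈ flip u v x y G ↔ e ∈ G')) := by
  have key : (s(u, x) ∈ G ↔ s(u, x) ∈ G') ∧ (s(u, y) ∈ G ↔ s(u, y) ∈ G') ∧
        (s(v, x) ∈ G ↔ s(v, x) ∈ G') ∧ (s(v, y) ∈ G ↔ s(v, y) ∈ G') ∨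
      (s(u, x) ∉ G ↔ s(u, x) ∈ G') ∧ (s(u, y) ∉ G ↔ s(u, y) ∈ G') ∧
        (s(v, x) ∉ G ↔ s(v, x) ∈ G') ∧ (s(v, y) ∉ G ↔ s(v, y) ∈ G') := by
    unfold active at ha ha'
    tauto
  rcases key with ⟨k1, k2, k3, k4⟩ | ⟨k1, k2, k3, k4⟩
  · left
    intro e he
    rcases mem_rect.mp he with rfl | rfl | rfl | rfl <;> assumption
  · right
    intro e he
    rw [mem_flip_rect he]
    rcases mem_rect.mp he with rfl | rfl | rfl | rfl <;> assumption

theorem off_D {C : EdgeSet n} (hs : rect u v x y ⊆ C) (ha : active u v x y G) (ha' : active u v x y G')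
    (h : off C G = off C G') :
    off (C \ rect u v x y) G = off (C \ rect u v x y) G' ∨
      off (C \ rect u v x y) (flip u v x y G) = off (C \ rect u v x y) G' := by
  rcases active_pattern ha ha' with hr | hr
  · exact Or.inl (off_sdiff_of h hr)
  · exact Or.inr (off_sdiff_of ((off_flip_of_sub hs).trans h) hr)

theorem active_comm (G : EdgeSet n) : active x y u v G ↔ active u v x y G := by
  unfold active
  have e1 : s(x, u) = s(u, x) := Sym2.eq_swap
  have e2 : s(y, v) = s(v, y) := Sym2.eq_swap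
  have e3 : s(x, v) = s(v, x) := Sym2.eq_swap
  have e4 : s(y, u) = s(u, y) := Sym2.eq_swap
  rw [e1, e2, e3, e4]
  tauto

end Facts

/-- The pair data for disjoint vertex pairs `{u,v}`, `{x,y}`. `T` is: the number of edges of `G` in
the rectangle is 1 or 3. -/
noncomputable def graphPairData (d : Fin n → ℕ) (u v x y : Fin n) (h : Distinct4 u v x y) :
    PairData (EdgeSet n) (EdgeSet n) where
  S := Omega d
  a := off (blk u v)
  a' := off (blk u v \ rect u v x y)
  b := off (blk x y)
  b' := off (blk x y \ rect u v x y)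
  D := active u v x y
  T := fun G => ((rect u v x y) ∩ G).card = 1 ∨ ((rect u v x y) ∩ G).card = 3
  τ := flip u v x y
  a'_le := fun _ _ _ _ e => off_mono Finset.sdiff_subset e
  b'_le := fun _ _ _ _ e => off_mono Finset.sdiff_subset e
  τ_mem := fun _ hG ha => ⟨flip_mem h hG ha, active_flip ha⟩
  τ_τ := fun _ _ _ => flip_flip
  τ_a := fun _ _ _ => off_flip_of_sub (Exch.rect_sub_left h)
  τ_b := fun _ _ _ => off_flip_of_sub (Exch.rect_sub_right h)
  τ_ne_a' := fun _ _ _ => flip_ne_off
  τ_ne_b' := fun _ _ _ => flip_ne_off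
  a'_D := fun _ _ _ _ e ha => active_of_off e ha
  b'_D := fun _ _ _ _ e ha => active_of_off e ha
  a'_τ := fun _ _ _ _ _ e => off_flip_congr e
  b'_τ := fun _ _ _ _ _ e => off_flip_congr e
  a_D := fun _ _ _ _ ha ha' e => off_D (Exch.rect_sub_left h) ha ha' e
  b_D := fun _ _ _ _ ha ha' e => off_D (Exch.rect_sub_right h) ha ha' e
  sq_a'_b := fun _ hG _ hG1 _ hG2 e1 e2 =>
    Exch.exchange (Exch.disj_cA_blk h) hG hG1 hG2 e1 e2
  sq_a_b' := fun _ hG _ hG1 _ hG2 e1 e2 =>
    Exch.exchange (Exch.disj_blk_cB h) hG hG1 hG2 e1 e2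
  sq_a'_b' := fun _ hG _ hG1 _ hG2 e1 e2 =>
    Exch.exchange (Exch.disj_cA_cB h) hG hG1 hG2 e1 e2
  T_D := T_D d u v x y h
  T_a := T_a d u v x y h
  T_b := T_b d u v x y h
  T_square := T_square d u v x y h
  rest := rest_field d u v x y h

/-- Pair bound for graphs. -/
theorem graph_pair (d : Fin n → ℕ) (u v x y : Fin n) (h : Distinct4 u v x y)
    (f : EdgeSet n → ℝ) :
    Wq d u v x y f - Uq d u v x y f / 2 - Uq d x y u v f / 2
      ≤ ipS (Omega d) (Qb d u v f) (Qb d x y f) := by
  have key := pair_bound (graphPairData d u v x y h) f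
  have eU : Uq d x y u v f = (graphPairData d u v x y h).Ub f := by
    have ef : (Omega d).filter (active x y u v) = (Omega d).filter (active u v x y) :=
      Finset.filter_congr (fun G _ => active_comm G)
    unfold Uq PairData.Ub
    simp only [graphPairData]
    rw [ef]
    rfl
  rw [eU]
  exact key

end KTV
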