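import Vale.Agent.Lib.KTV.Graph
import Vale.Agent.Lib.P335.GraphTriple

/-!
# Three vertices: the 3-row theorem on graphs (KTV project)
Fix the cells not touching `{i,j,k}` and `t = x_ij + x_ik + x_jk`. Columns: `V - {i,j,k}` plus one
extra column `*` with `x_{i,*} = 1 - x_jk`, `x_{j,*} = 1 - x_ik`, `x_{k,*} = 1 - x_ij`. This is a
3-row binary table (`ThreeRow`), `Q_jk` is the complement of conditioning on row `i`.
The work is done in `Vale.Agent.Lib.P335.GraphTriple`.
-/

open Finset

namespace KTV

open Vale.Agent.Lib.P335 Classical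

variable {n : ℕ}

/-- On loopless graphs the two forms of the block complement agree. -/
theorem off_blk_eq {u v : Fin n} {V : EdgeSet n} (hV : ∀ x, s(x, x) ∉ V) :
    off (blk u v) V = offP u v V := by
  unfold off offP
  ext e
  simp only [Finset.mem_sdiff]
  refine and_congr_right (fun he => not_congr ?_)
  induction e using Sym2.ind with
  | _ a b =>
    have hab : a ≠ b := by
      rintro rfl
      exact hV _ he
    simp only [blk, cellsP, Finset.mem_filter, Finset.mem_univ, true_and]
    constructor
    · rintro ⟨w, h1, h2, h | h⟩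
      · rw [h]
        refine ⟨Or.inl (by simp), ?_⟩
        intro h3
        rcases Sym2.eq_iff.mp h3 with ⟨_, h4⟩ | ⟨h4, h5⟩
        · exact h2 h4
        · exact h1 h5
      · rw [h]
        refine ⟨Or.inr (by simp), ?_⟩
        intro h3
        rcases Sym2.eq_iff.mp h3 with ⟨h4, h5⟩ | ⟨_, h5⟩
        · exact h2 h5
        · exact h1 h5
    · rintro ⟨h1 | h1, h2⟩
      · rcases Sym2.mem_iff.mp h1 with rfl | rfl
        · refine ⟨b, Ne.symm hab, ?_, Or.inl rfl⟩
          rintro rfl
          exact h2 rfl
        · refine ⟨a, hab, ?_, Or.inl (Sym2.eq_swap)⟩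
          rintro rfl
          exact h2 Sym2.eq_swap
      · rcases Sym2.mem_iff.mp h1 with rfl | rfl
        · refine ⟨b, ?_, Ne.symm hab, Or.inr rfl⟩
          rintro rfl
          exact h2 Sym2.eq_swap
        · refine ⟨a, ?_, hab, Or.inr (Sym2.eq_swap)⟩
          rintro rfl
          exact h2 rfl

/-- On the set of realizations, `Qb` is the complement for `offP`. -/
theorem Qb_eq_cQ (d : Fin n → ℕ) (u v : Fin n) (f : EdgeSet n → ℝ) :
    ∀ G ∈ Omega d, Qb d u v f G = cQ (Omega d) (offP u v) f G := by
  intro G hG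
  unfold Qb cQ Vale.Agent.Lib.P335.cond
  have e : (Omega d).filter (fun V => off (blk u v) V = off (blk u v) G)
      = (Omega d).filter (fun V => offP u v V = offP u v G) := by
    apply Finset.filter_congr
    intro V hV
    rw [off_blk_eq (irrefl_of_Omega hV), off_blk_eq (irrefl_of_Omega hG)]
  rw [e]

/-- The three overlapping cross terms on three vertices have nonnegative sum. -/
theorem graph_triple (d : Fin n → ℕ) {i j k : Fin n} (hij : i ≠ j) (hik : i ≠ k) (hjk : j ≠ k)
    (f : EdgeSet n → ℝ) :
    0 ≤ ipS (Omega d) (Qb d i j f) (Qb d i k f)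
      + ipS (Omega d) (Qb d j i f) (Qb d j k f)
      + ipS (Omega d) (Qb d k i f) (Qb d k j f) := by
  rw [ipS_congr (Qb_eq_cQ d i j f) (Qb_eq_cQ d i k f),
    ipS_congr (Qb_eq_cQ d j i f) (Qb_eq_cQ d j k f),
    ipS_congr (Qb_eq_cQ d k i f) (Qb_eq_cQ d k j f)]
  exact cross_triple_graph hij hik hjk f

end KTV
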