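import Vale.Agent.Lib.KTV.GraphPair
import Vale.Agent.Lib.KTV.GraphTriple
import Vale.Agent.Lib.KTV.GraphFiber
import Vale.Agent.Lib.KTV.GraphConnect

/-!
# Assembly: spectral gap of `H` on `Omega d`, Poincare inequality, mixing (KTV project)
-/

open Finset

namespace KTV

open Vale.Agent.Lib.P335 Classical

variable {n : ℕ}

/-- Ordered distinct quadruples. -/
noncomputable def quads (n : ℕ) : Finset (Fin n × Fin n × Fin n × Fin n) :=
  univ.filter fun q => Distinct4 q.1 q.2.1 q.2.2.1 q.2.2.2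

/-- The combinatorial core of the pair decomposition, with the disjoint part collected. -/
theorem pair_sum_total {ι : Type*} [Fintype ι] [DecidableEq ι] (G : ι → ι → ι → ι → ℝ)
    (hr : ∀ x y u v, G x y u v = G x y v u)
    (hl : ∀ x y u v, G x y u v = G y x u v)
    (h3 : ∀ x y z, x ≠ y → x ≠ z → y ≠ z → 0 ≤ G x y x z + G y x y z + G z x z y)
    (h4 : 0 ≤ ∑ x, ∑ y, (if x ≠ y then
      ∑ u ∈ univ.filter (fun z => z ≠ x ∧ z ≠ y), ∑ v ∈ univ.filter (fun z => z ≠ x ∧ z ≠ y),
        (if u ≠ v then G x y u v else 0) else 0)) :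
    2 * ∑ x, ∑ y, (if x ≠ y then G x y x y else 0)
      ≤ ∑ x, ∑ y, (if x ≠ y then ∑ u, ∑ v, (if u ≠ v then G x y u v else 0) else 0) := by
  classical
  -- the row-overlap sum
  let U : ι → ι → ι → ℝ := fun x y z => if x ≠ y ∧ x ≠ z ∧ y ≠ z then G x y x z else 0
  let Dj : ι → ι → ℝ := fun x y =>
    ∑ u ∈ univ.filter (fun z => z ≠ x ∧ z ≠ y), ∑ v ∈ univ.filter (fun z => z ≠ x ∧ z ≠ y),
        (if u ≠ v then G x y u v else 0)
  have hstep : ∀ x y, x ≠ y → 2 * G x y x y + 2 * ∑ z, (U x y z + U y x z) + Dj x y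
      = ∑ u, ∑ v, (if u ≠ v then G x y u v else 0) := by
    intro x y hxy
    set R := univ.filter (fun z => z ≠ x ∧ z ≠ y) with hR
    have hUz : ∑ z, (U x y z + U y x z) = ∑ z ∈ R, (G x y x z + G x y y z) := by
      rw [sum_two_parts hxy, ← hR]
      have e1 : U x y x + U y x x = 0 := by simp [U, hxy]
      have e2 : U x y y + U y x y = 0 := by simp [U, hxy]
      rw [e1, e2, zero_add, zero_add]
      apply Finset.sum_congr rfl
      intro z hz
      have hz' := (Finset.mem_filter.mp hz).2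
      simp only [U]
      rw [if_pos ⟨hxy, hz'.1.symm, hz'.2.symm⟩, if_pos ⟨hxy.symm, hz'.2.symm, hz'.1.symm⟩,
        hl y x y z]
    have two : ∀ h : ι → ℝ, ∑ u, h u = h x + h y + ∑ u ∈ R, h u := fun h => sum_two_parts hxy h
    rw [hUz, two (fun u => ∑ v, (if u ≠ v then G x y u v else 0)),
      two (fun v => if x ≠ v then G x y x v else 0),
      two (fun v => if y ≠ v then G x y y v else 0)]
    have e3 : ∀ u ∈ R, ∑ v, (if u ≠ v then G x y u v else 0)
        = G x y x u + G x y y u + ∑ v ∈ R, (if u ≠ v then G x y u v else 0) := by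
      intro u hu
      have hu' := (Finset.mem_filter.mp hu).2
      rw [two (fun v => if u ≠ v then G x y u v else 0)]
      simp only [if_pos hu'.1, if_pos hu'.2, hr x y u x, hr x y u y]
    rw [Finset.sum_congr rfl e3, Finset.sum_add_distrib, Finset.sum_add_distrib]
    have e4 : ∑ v ∈ R, (if x ≠ v then G x y x v else 0) = ∑ z ∈ R, G x y x z := by
      apply Finset.sum_congr rfl
      intro z hz
      rw [if_pos (Finset.mem_filter.mp hz).2.1.symm]
    have e5 : ∑ v ∈ R, (if y ≠ v then G x y y v else 0) = ∑ z ∈ R, G x y y z := by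
      apply Finset.sum_congr rfl
      intro z hz
      rw [if_pos (Finset.mem_filter.mp hz).2.2.symm]
    simp only [e4, e5, ne_eq, not_true_eq_false, if_false, not_false_eq_true, if_true, hxy,
      Ne.symm hxy, Dj]
    rw [hr x y y x, Finset.sum_add_distrib]
    simp only [ne_eq, ← hR]
    linarith
  have hU3 : 0 ≤ ∑ x, ∑ y, ∑ z, U x y z := by
    have e1 : ∑ x, ∑ y, ∑ z, U y x z = ∑ x, ∑ y, ∑ z, U x y z := Finset.sum_comm
    have e2 : ∑ x, ∑ y, ∑ z, U z x y = ∑ x, ∑ y, ∑ z, U x y z := by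
      calc ∑ x, ∑ y, ∑ z, U z x y = ∑ x, ∑ z, ∑ y, U z x y :=
            Finset.sum_congr rfl (fun x _ => Finset.sum_comm)
        _ = ∑ z, ∑ x, ∑ y, U z x y := Finset.sum_comm
    have e3 : 0 ≤ ∑ x, ∑ y, ∑ z, (U x y z + U y x z + U z x y) := by
      apply Finset.sum_nonneg; intro x _
      apply Finset.sum_nonneg; intro y _
      apply Finset.sum_nonneg; intro z _
      simp only [U]
      by_cases hd : x ≠ y ∧ x ≠ z ∧ y ≠ z
      · rw [if_pos hd, if_pos ⟨hd.1.symm, hd.2.2, hd.2.1⟩, if_pos ⟨hd.2.1.symm, hd.2.2.symm, hd.1⟩]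
        exact h3 x y z hd.1 hd.2.1 hd.2.2
      · have h1 : ¬ (y ≠ x ∧ y ≠ z ∧ x ≠ z) := fun h => hd ⟨h.1.symm, h.2.2, h.2.1⟩
        have h2 : ¬ (z ≠ x ∧ z ≠ y ∧ x ≠ y) := fun h => hd ⟨h.2.2, h.1.symm, h.2.1.symm⟩
        rw [if_neg hd, if_neg h1, if_neg h2]
        simp
    simp only [Finset.sum_add_distrib] at e3
    rw [e1, e2] at e3
    linarith
  have hfin : ∑ x, ∑ y, (if x ≠ y then 2 * G x y x y + 2 * ∑ z, (U x y z + U y x z) + Dj x y else 0)
      = ∑ x, ∑ y, (if x ≠ y then ∑ u, ∑ v, (if u ≠ v then G x y u v else 0) else 0) := by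
    apply Finset.sum_congr rfl; intro x _
    apply Finset.sum_congr rfl; intro y _
    split_ifs with hxy
    · exact hstep x y hxy
    · rfl
  rw [← hfin]
  have e6 : ∑ x, ∑ y, (if x ≠ y then 2 * G x y x y + 2 * ∑ z, (U x y z + U y x z) + Dj x y else 0)
      = 2 * ∑ x, ∑ y, (if x ≠ y then G x y x y else 0)
        + 2 * ∑ x, ∑ y, ∑ z, (U x y z + U y x z) + ∑ x, ∑ y, (if x ≠ y then Dj x y else 0) := by
    rw [Finset.mul_sum, Finset.mul_sum, ← Finset.sum_add_distrib, ← Finset.sum_add_distrib]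
    apply Finset.sum_congr rfl
    intro x _
    rw [Finset.mul_sum, Finset.mul_sum, ← Finset.sum_add_distrib, ← Finset.sum_add_distrib]
    apply Finset.sum_congr rfl
    intro y _
    by_cases hxy : x = y
    · subst hxy
      have hz : ∑ z, (U x x z + U x x z) = 0 := by
        apply Finset.sum_eq_zero
        intro z _
        simp [U]
      simp [hz]
    · simp [hxy]
  rw [e6]
  have e7 : ∑ x, ∑ y, ∑ z, (U x y z + U y x z) = 2 * ∑ x, ∑ y, ∑ z, U x y z := by
    simp only [Finset.sum_add_distrib]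
    have e1 : ∑ x, ∑ y, ∑ z, U y x z = ∑ x, ∑ y, ∑ z, U x y z := Finset.sum_comm
    rw [e1]
    ring
  rw [e7]
  have h4' : 0 ≤ ∑ x, ∑ y, (if x ≠ y then Dj x y else 0) := h4
  linarith

/-- Normal form of a sum over ordered distinct quadruples. -/
noncomputable def sum4 (F : Fin n → Fin n → Fin n → Fin n → ℝ) : ℝ :=
  ∑ x, ∑ y, ∑ u, ∑ v, if Distinct4 x y u v then F x y u v else 0

theorem sum_quads (F : Fin n → Fin n → Fin n → Fin n → ℝ) :
    ∑ q ∈ quads n, F q.1 q.2.1 q.2.2.1 q.2.2.2 = sum4 F := by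
  unfold quads sum4
  rw [Finset.sum_filter, Fintype.sum_prod_type]
  apply Finset.sum_congr rfl; intro x _
  rw [Fintype.sum_prod_type]
  apply Finset.sum_congr rfl; intro y _
  rw [Fintype.sum_prod_type]

theorem sum_pairsOff (F : Fin n → Fin n → Fin n → Fin n → ℝ) :
    ∑ x, ∑ y, (if x ≠ y then ∑ q ∈ pairsOff x y, F x y q.1 q.2 else 0) = sum4 F := by
  unfold sum4
  apply Finset.sum_congr rfl; intro x _
  apply Finset.sum_congr rfl; intro y _
  by_cases hxy : x = y
  · subst hxy
    simp [Distinct4]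
  · rw [if_pos hxy]
    unfold pairsOff
    rw [Finset.sum_filter, Fintype.sum_prod_type]
    apply Finset.sum_congr rfl; intro u _
    apply Finset.sum_congr rfl; intro v _
    have e : (u ≠ v ∧ u ≠ x ∧ u ≠ y ∧ v ≠ x ∧ v ≠ y) ↔ Distinct4 x y u v := by
      constructor
      · intro h1
        exact ⟨hxy, h1.2.1.symm, h1.2.2.2.1.symm, h1.2.2.1.symm, h1.2.2.2.2.symm, h1.1⟩
      · rintro ⟨_, a, b, c, e, f⟩
        exact ⟨f, a.symm, c.symm, b.symm, e.symm⟩
    by_cases h1 : Distinct4 x y u v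
    · rw [if_pos h1, if_pos (e.mpr h1)]
    · rw [if_neg h1, if_neg (fun h => h1 (e.mp h))]

theorem sum_inner_R {x y : Fin n} (hxy : x ≠ y) (F : Fin n → Fin n → ℝ) :
    ∑ u ∈ univ.filter (fun z => z ≠ x ∧ z ≠ y), ∑ v ∈ univ.filter (fun z => z ≠ x ∧ z ≠ y),
        (if u ≠ v then F u v else 0) = ∑ q ∈ pairsOff x y, F q.1 q.2 := by
  unfold pairsOff
  rw [Finset.sum_filter, Finset.sum_filter, Fintype.sum_prod_type]
  apply Finset.sum_congr rfl; intro u _
  by_cases hu : u ≠ x ∧ u ≠ y
  · rw [if_pos hu, Finset.sum_filter]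
    apply Finset.sum_congr rfl; intro v _
    by_cases hv : v ≠ x ∧ v ≠ y
    · by_cases huv : u ≠ v
      · rw [if_pos hv, if_pos huv, if_pos ⟨huv, hu.1, hu.2, hv.1, hv.2⟩]
      · rw [if_pos hv, if_neg huv, if_neg]
        exact fun h => huv h.1
    · rw [if_neg hv, if_neg]
      exact fun h => hv ⟨h.2.2.2.1, h.2.2.2.2⟩
  · rw [if_neg hu]
    symm
    apply Finset.sum_eq_zero
    intro v _
    rw [if_neg]
    exact fun h => hu ⟨h.2.1, h.2.2.1⟩

theorem distinct4_swap {x y u v : Fin n} : Distinct4 x y u v ↔ Distinct4 u v x y := by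
  unfold Distinct4
  constructor <;>
  · rintro ⟨a, b, c, e, f, g⟩
    exact ⟨g, b.symm, e.symm, c.symm, f.symm, a⟩

theorem sum4_swap (F : Fin n → Fin n → Fin n → Fin n → ℝ) :
    sum4 (fun x y u v => F u v x y) = sum4 F := by
  unfold sum4
  have e : ∀ x y u v, (if Distinct4 x y u v then F u v x y else 0)
      = (if Distinct4 u v x y then F u v x y else 0) := by
    intro x y u v
    by_cases h : Distinct4 x y u v
    · rw [if_pos h, if_pos (distinct4_swap.mp h)]
    · rw [if_neg h, if_neg (fun h' => h (distinct4_swap.mpr h'))]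
  have e1 : (∑ x, ∑ y, ∑ u, ∑ v, (if Distinct4 x y u v then F u v x y else 0))
      = ∑ x, ∑ y, ∑ u, ∑ v, (if Distinct4 u v x y then F u v x y else 0) := by
    apply Finset.sum_congr rfl; intro x _
    apply Finset.sum_congr rfl; intro y _
    apply Finset.sum_congr rfl; intro u _
    apply Finset.sum_congr rfl; intro v _
    exact e x y u v
  rw [e1]
  calc ∑ x, ∑ y, ∑ u, ∑ v, (if Distinct4 u v x y then F u v x y else 0)
      = ∑ x, ∑ u, ∑ y, ∑ v, (if Distinct4 u v x y then F u v x y else 0) :=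
        Finset.sum_congr rfl (fun x _ => Finset.sum_comm)
    _ = ∑ u, ∑ x, ∑ y, ∑ v, (if Distinct4 u v x y then F u v x y else 0) := Finset.sum_comm
    _ = ∑ u, ∑ x, ∑ v, ∑ y, (if Distinct4 u v x y then F u v x y else 0) :=
        Finset.sum_congr rfl (fun u _ => Finset.sum_congr rfl (fun x _ => Finset.sum_comm))
    _ = ∑ u, ∑ v, ∑ x, ∑ y, (if Distinct4 u v x y then F u v x y else 0) :=
        Finset.sum_congr rfl (fun u _ => Finset.sum_comm)

theorem sum4_le {F F' : Fin n → Fin n → Fin n → Fin n → ℝ}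
    (h : ∀ x y u v, Distinct4 x y u v → F x y u v ≤ F' x y u v) : sum4 F ≤ sum4 F' := by
  unfold sum4
  apply Finset.sum_le_sum; intro x _
  apply Finset.sum_le_sum; intro y _
  apply Finset.sum_le_sum; intro u _
  apply Finset.sum_le_sum; intro v _
  split_ifs with hd
  · exact h x y u v hd
  · exact le_rfl

theorem sum4_add (F F' : Fin n → Fin n → Fin n → Fin n → ℝ) :
    sum4 (fun x y u v => F x y u v + F' x y u v) = sum4 F + sum4 F' := by
  unfold sum4
  simp only [← Finset.sum_add_distrib]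
  apply Finset.sum_congr rfl; intro x _
  apply Finset.sum_congr rfl; intro y _
  apply Finset.sum_congr rfl; intro u _
  apply Finset.sum_congr rfl; intro v _
  split_ifs <;> simp

theorem sum4_smul (k : ℝ) (F : Fin n → Fin n → Fin n → Fin n → ℝ) :
    sum4 (fun x y u v => k * F x y u v) = k * sum4 F := by
  unfold sum4
  simp only [Finset.mul_sum]
  apply Finset.sum_congr rfl; intro x _
  apply Finset.sum_congr rfl; intro y _
  apply Finset.sum_congr rfl; intro u _
  apply Finset.sum_congr rfl; intro v _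
  split_ifs <;> simp

theorem blk_comm (u v : Fin n) : (blk u v : EdgeSet n) = blk v u := by
  ext e
  simp only [blk, Finset.mem_filter, Finset.mem_univ, true_and]
  constructor <;>
  · rintro ⟨w, h1, h2, h3⟩
    exact ⟨w, h2, h1, h3.symm⟩

theorem Qb_comm (d : Fin n → ℕ) (u v : Fin n) : Qb d u v = Qb d v u := by
  funext f
  unfold Qb
  rw [blk_comm]

/-- The disjoint part of `H²` is nonnegative: the pair bound and the fibre bound. -/
theorem disjoint_part_nonneg (d : Fin n → ℕ) (f : EdgeSet n → ℝ) :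
    0 ≤ sum4 (fun x y u v => ipS (Omega d) (Qb d x y f) (Qb d u v f)) := by
  have h1 : sum4 (fun x y u v => Wq d x y u v f + (-(1 / 2)) * Uq d x y u v f
        + (-(1 / 2)) * (fun x y u v => Uq d u v x y f) x y u v)
      ≤ sum4 (fun x y u v => ipS (Omega d) (Qb d x y f) (Qb d u v f)) := by
    apply sum4_le
    intro x y u v hd
    have := graph_pair d x y u v hd f
    simp only
    linarith
  refine le_trans ?_ h1
  rw [sum4_add, sum4_add, sum4_smul, sum4_smul, sum4_swap (fun x y u v => Uq d x y u v f)]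
  have h2 : sum4 (fun x y u v => Uq d x y u v f) ≤ sum4 (fun x y u v => Wq d x y u v f) := by
    rw [← sum_pairsOff, ← sum_pairsOff]
    apply Finset.sum_le_sum; intro x _
    apply Finset.sum_le_sum; intro y _
    split_ifs with hxy
    · exact fiber_U_le_W d hxy f
    · exact le_rfl
  linarith

/-- The sum of all block complements over ordered pairs of distinct vertices. -/
noncomputable def opH (d : Fin n → ℕ) : (EdgeSet n → ℝ) →ₗ[ℝ] (EdgeSet n → ℝ) where
  toFun f G := ∑ x, ∑ y, if x ≠ y then Qb d x y f G else 0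
  map_add' := by
    intro f g
    funext T
    simp only [Pi.add_apply, ← Finset.sum_add_distrib]
    apply Finset.sum_congr rfl; intro x _
    apply Finset.sum_congr rfl; intro y _
    split_ifs
    · have := cond_add (Omega d) (off (blk x y)) f g T
      unfold Qb cQ
      change f T + g T - Vale.Agent.Lib.P335.cond (Omega d) (off (blk x y)) (fun y => f y + g y) T = _
      rw [this]
      ring
    · simp
  map_smul' := by
    intro k f
    funext T
    simp only [Pi.smul_apply, smul_eq_mul, RingHom.id_apply, Finset.mul_sum]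
    apply Finset.sum_congr rfl; intro x _
    apply Finset.sum_congr rfl; intro y _
    split_ifs
    · have := cond_smul (Omega d) (off (blk x y)) k f T
      unfold Qb cQ
      change k * f T - Vale.Agent.Lib.P335.cond (Omega d) (off (blk x y)) (fun y => k * f y) T = _
      rw [this]
      ring
    · simp

theorem opH_apply (d : Fin n → ℕ) (f : EdgeSet n → ℝ) :
    opH d f = fun G => ∑ x, ∑ y, if x ≠ y then Qb d x y f G else 0 := rfl

theorem ipS_opH_left (d : Fin n → ℕ) (f g : EdgeSet n → ℝ) :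
    ipS (Omega d) (opH d f) g
      = ∑ x, ∑ y, if x ≠ y then ipS (Omega d) (Qb d x y f) g else 0 := by
  rw [opH_apply, ipS_add_sum_left]
  apply Finset.sum_congr rfl; intro x _
  rw [ipS_add_sum_left]
  apply Finset.sum_congr rfl; intro y _
  rw [ipS_ite_left]

theorem ipS_opH_right (d : Fin n → ℕ) (f g : EdgeSet n → ℝ) :
    ipS (Omega d) g (opH d f)
      = ∑ x, ∑ y, if x ≠ y then ipS (Omega d) g (Qb d x y f) else 0 := by
  rw [opH_apply, ipS_add_sum_right]
  apply Finset.sum_congr rfl; intro x _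
  rw [ipS_add_sum_right]
  apply Finset.sum_congr rfl; intro y _
  rw [ipS_ite_right]

theorem ipS_opH_self (d : Fin n → ℕ) (f : EdgeSet n → ℝ) :
    ipS (Omega d) f (opH d f)
      = ∑ x, ∑ y, if x ≠ y then ipS (Omega d) (Qb d x y f) (Qb d x y f) else 0 := by
  rw [ipS_opH_right]
  apply Finset.sum_congr rfl; intro x _
  apply Finset.sum_congr rfl; intro y _
  unfold Qb
  rw [ipS_cQ_self]

/-- A rectangle with side `u, v` lies in the block of `u, v`. -/
theorem rect_subset_blk {u v x y : Fin n} (h : Distinct4 u v x y) : rect u v x y ⊆ blk u v := by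
  obtain ⟨h1, h2, h3, h4, h5, h6⟩ := h
  intro e he
  simp only [rect, Finset.mem_insert, Finset.mem_singleton] at he
  simp only [blk, Finset.mem_filter, Finset.mem_univ, true_and]
  rcases he with rfl | rfl | rfl | rfl
  · exact ⟨x, h2.symm, h4.symm, Or.inl rfl⟩
  · exact ⟨y, h3.symm, h5.symm, Or.inl rfl⟩
  · exact ⟨x, h2.symm, h4.symm, Or.inr rfl⟩
  · exact ⟨y, h3.symm, h5.symm, Or.inr rfl⟩

/-- A flip stays in the fibre of the block complement. -/
theorem off_blk_flip {u v x y : Fin n} (h : Distinct4 u v x y) (G : EdgeSet n) :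
    off (blk u v) (flip u v x y G) = off (blk u v) G := by
  have hs := rect_subset_blk h
  unfold off flip
  ext e
  simp only [Finset.mem_sdiff, Finset.mem_symmDiff]
  by_cases he : e ∈ blk u v
  · simp [he]
  · have he' : e ∉ rect u v x y := fun h' => he (hs h')
    simp [he, he']

/-- `H²≥ 2H`. -/
theorem opH_main (d : Fin n → ℕ) (f : EdgeSet n → ℝ) :
    2 * ipS (Omega d) f (opH d f) ≤ ipS (Omega d) (opH d f) (opH d f) := by
  rw [ipS_opH_self, ipS_opH_left]
  have e : ∀ x y, ipS (Omega d) (Qb d x y f) (opH d f)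
      = ∑ u, ∑ v, if u ≠ v then ipS (Omega d) (Qb d x y f) (Qb d u v f) else 0 :=
    fun x y => ipS_opH_right _ _ _
  simp only [e]
  apply pair_sum_total (fun x y u v => ipS (Omega d) (Qb d x y f) (Qb d u v f))
  · intro x y u v
    rw [Qb_comm d u v]
  · intro x y u v
    rw [Qb_comm d x y]
  · intro x y z hxy hxz hyz
    exact graph_triple d hxy hxz hyz f
  · have h := disjoint_part_nonneg d f
    rw [← sum_pairsOff] at h
    refine le_of_le_of_eq h ?_
    apply Finset.sum_congr rfl; intro x _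
    apply Finset.sum_congr rfl; intro y _
    split_ifs with hxy
    · exact (sum_inner_R hxy (fun u v => ipS (Omega d) (Qb d x y f) (Qb d u v f))).symm
    · rfl

/-- `H ≥ 2` on mean-zero functions. -/
theorem graphs_gap (d : Fin n → ℕ) (g : EdgeSet n → ℝ) (hg : ∑ G ∈ Omega d, g G = 0) :
    2 * ipS (Omega d) g g
      ≤ ∑ x, ∑ y, if x ≠ y then ipS (Omega d) (Qb d x y g) (Qb d x y g) else 0 := by
  rw [← ipS_opH_self]
  refine spectral_step (Omega d) (opH d) 2 two_pos ?_ ?_ ?_ ?_ (opH_main d) g hg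
  · -- symmetry
    intro f h
    rw [ipS_opH_left, ipS_opH_right]
    apply Finset.sum_congr rfl; intro x _
    apply Finset.sum_congr rfl; intro y _
    unfold Qb
    rw [ipS_cQ]
  · -- positivity
    intro f
    rw [ipS_opH_self]
    apply Finset.sum_nonneg; intro x _
    apply Finset.sum_nonneg; intro y _
    split_ifs
    · exact ipS_self_nonneg _ _
    · exact le_rfl
  · -- kernel
    intro f hf
    rw [ipS_opH_self] at hf
    have hnn1 : ∀ x ∈ (univ : Finset (Fin n)), 0 ≤ ∑ y, if x ≠ y then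
        ipS (Omega d) (Qb d x y f) (Qb d x y f) else 0 := by
      intro x _
      apply Finset.sum_nonneg; intro y _
      split_ifs
      · exact ipS_self_nonneg _ _
      · exact le_rfl
    have h1 := (Finset.sum_eq_zero_iff_of_nonneg hnn1).mp hf
    apply const_of_flip_invariant f
    intro x y u v hdist G hG hact
    have h2 := h1 x (Finset.mem_univ x)
    have hnn2 : ∀ y ∈ (univ : Finset (Fin n)), 0 ≤ if x ≠ y then
        ipS (Omega d) (Qb d x y f) (Qb d x y f) else 0 := by
      intro y _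
      split_ifs
      · exact ipS_self_nonneg _ _
      · exact le_rfl
    have h3 := (Finset.sum_eq_zero_iff_of_nonneg hnn2).mp h2 y (Finset.mem_univ y)
    rw [if_pos hdist.1] at h3
    have hzero : ∀ W ∈ Omega d, Qb d x y f W = 0 := by
      unfold ipS at h3
      have := (Finset.sum_eq_zero_iff_of_nonneg (fun W _ => mul_self_nonneg _)).mp h3
      intro W hW
      exact mul_self_eq_zero.mp (this W hW)
    have e1 := hzero G hG
    have e2 := hzero _ (flip_mem hdist hG hact)
    unfold Qb cQ at e1 e2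
    rw [cond_eq_of_eq (off_blk_flip hdist G)] at e2
    linarith
  · -- annihilates constants
    intro T hT
    rw [opH_apply]
    apply Finset.sum_eq_zero; intro x _
    apply Finset.sum_eq_zero; intro y _
    split_ifs
    · unfold Qb cQ
      rw [cond_const _ _ _ hT]
      ring
    · rfl

/-- The antisymmetric energy as a sum over all realizations. -/
theorem Wq_eq (d : Fin n → ℕ) (u v x y : Fin n) (f : EdgeSet n → ℝ) :
    Wq d u v x y f = (1 / 4) * ∑ G ∈ Omega d, if active u v x y G then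
      (f G - f (flip u v x y G)) ^ 2 else 0 := by
  unfold Wq
  rw [Finset.sum_filter, Finset.mul_sum]
  apply Finset.sum_congr rfl
  intro G _
  split_ifs
  · ring
  · simp

/-- Poincare inequality: the flip-graph Laplacian has second eigenvalue at least 1. -/
theorem graphs_poincare (d : Fin n → ℕ) (h : EdgeSet n → ℝ) (hh : ∑ G ∈ Omega d, h G = 0) :
    16 * ∑ G ∈ Omega d, h G ^ 2 ≤
      ∑ G ∈ Omega d, ∑ q ∈ quads n, if active q.1 q.2.1 q.2.2.1 q.2.2.2 G then
        (h G - h (flip q.1 q.2.1 q.2.2.1 q.2.2.2 G)) ^ 2 else 0 := by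
  let E : Fin n → Fin n → Fin n → Fin n → ℝ := fun x y u v =>
    ∑ G ∈ Omega d, if active x y u v G then (h G - h (flip x y u v G)) ^ 2 else 0
  have e1 : (∑ G ∈ Omega d, ∑ q ∈ quads n, if active q.1 q.2.1 q.2.2.1 q.2.2.2 G then
      (h G - h (flip q.1 q.2.1 q.2.2.1 q.2.2.2 G)) ^ 2 else 0) = sum4 E := by
    rw [Finset.sum_comm]
    exact sum_quads E
  have e2 : sum4 (fun x y u v => Wq d x y u v h) = (1 / 4) * sum4 E := by
    rw [← sum4_smul]
    congr 1
    funext x y u v
    exact Wq_eq d x y u v h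
  have h1 : 2 * (∑ x, ∑ y, if x ≠ y then ipS (Omega d) (Qb d x y h) (Qb d x y h) else 0)
      ≤ sum4 (fun x y u v => Wq d x y u v h) := by
    rw [← sum_pairsOff, Finset.mul_sum]
    apply Finset.sum_le_sum; intro x _
    rw [Finset.mul_sum]
    apply Finset.sum_le_sum; intro y _
    split_ifs with hxy
    · exact fiber_Q_le_W d hxy h
    · simp
  have h2 := graphs_gap d h hh
  have e3 : ipS (Omega d) h h = ∑ G ∈ Omega d, h G ^ 2 := by
    unfold ipS
    exact Finset.sum_congr rfl (fun G _ => by ring)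
  rw [e1]
  rw [e2] at h1
  rw [e3] at h2
  linarith

/-- A switch on a set of present and a set of absent cells is a symmetric difference. -/
theorem step_eq_symmDiff {F F' G : EdgeSet n} (h1 : F ⊆ G) (h2 : Disjoint F' G) :
    switchStep F F' G = symmDiff G (F ∪ F') := by
  unfold switchStep
  rw [if_pos ⟨h1, h2⟩]
  ext e
  simp only [Finset.mem_union, Finset.mem_sdiff, Finset.mem_symmDiff]
  have a1 := @h1 e
  have a2 : e ∈ F' → e ∉ G := fun h => Finset.disjoint_left.mp h2 h
  tauto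

theorem rect_eq_union (u v x y : Fin n) :
    (rect u v x y : EdgeSet n) = ({s(u, x), s(v, y)} : EdgeSet n) ∪ {s(u, y), s(v, x)} := by
  ext e
  simp only [rect, Finset.mem_union, Finset.mem_insert, Finset.mem_singleton]
  tauto

theorem rect_comm (u v x y : Fin n) :
    (rect u v x y : EdgeSet n) = ({s(u, y), s(v, x)} : EdgeSet n) ∪ {s(u, x), s(v, y)} := by
  ext e
  simp only [rect, Finset.mem_union, Finset.mem_insert, Finset.mem_singleton]
  tauto

/-- The chain move of an active rectangle. -/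
noncomputable def moveQ (G : EdgeSet n) (q : Fin n × Fin n × Fin n × Fin n) :
    Σ _ : Finset (Fin n), EdgeSet n × EdgeSet n :=
  if s(q.1, q.2.2.1) ∈ G then moveOf q.1 q.2.1 q.2.2.1 q.2.2.2 else moveOf q.1 q.2.1 q.2.2.2 q.2.2.1

theorem moveQ_mem (G : EdgeSet n) {q : Fin n × Fin n × Fin n × Fin n}
    (hq : Distinct4 q.1 q.2.1 q.2.2.1 q.2.2.2) : moveQ G q ∈ chainMoves n := by
  obtain ⟨a, b, c, e, f, g⟩ := hq
  unfold moveQ
  split_ifs
  · exact moveOf_mem a g b c e f
  · exact moveOf_mem a g.symm c b f e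

theorem moveQ_union (G : EdgeSet n) (q : Fin n × Fin n × Fin n × Fin n) :
    (moveQ G q).2.1 ∪ (moveQ G q).2.2 = rect q.1 q.2.1 q.2.2.1 q.2.2.2 := by
  unfold moveQ
  split_ifs
  · exact (rect_eq_union _ _ _ _).symm
  · exact (rect_comm _ _ _ _).symm

theorem step_moveQ {G : EdgeSet n} {q : Fin n × Fin n × Fin n × Fin n}
    (ha : active q.1 q.2.1 q.2.2.1 q.2.2.2 G) :
    switchStep (moveQ G q).2.1 (moveQ G q).2.2 G = flip q.1 q.2.1 q.2.2.1 q.2.2.2 G := by
  obtain ⟨u, v, x, y⟩ := q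
  simp only at ha
  unfold flip
  rw [← moveQ_union G]
  apply step_eq_symmDiff
  · unfold moveQ
    rcases ha with ⟨h1, h2, h3, h4⟩ | ⟨h1, h2, h3, h4⟩
    · simp only [if_pos h1, moveOf]
      intro e he
      simp only [Finset.mem_insert, Finset.mem_singleton] at he
      rcases he with rfl | rfl <;> assumption
    · simp only [if_neg h1, moveOf]
      intro e he
      simp only [Finset.mem_insert, Finset.mem_singleton] at he
      rcases he with rfl | rfl <;> assumption
  · unfold moveQ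
    rcases ha with ⟨h1, h2, h3, h4⟩ | ⟨h1, h2, h3, h4⟩
    · simp only [if_pos h1, moveOf]
      rw [Finset.disjoint_left]
      intro e he
      simp only [Finset.mem_insert, Finset.mem_singleton] at he
      rcases he with rfl | rfl <;> assumption
    · simp only [if_neg h1, moveOf]
      rw [Finset.disjoint_left]
      intro e he
      simp only [Finset.mem_insert, Finset.mem_singleton] at he
      rcases he with rfl | rfl <;> assumption

/-- The eight orderings of a rectangle. -/
def eightOf (q : Fin n × Fin n × Fin n × Fin n) : Finset (Fin n × Fin n × Fin n × Fin n) :=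
  match q with
  | (u, v, x, y) =>
    [(u, v, x, y), (v, u, x, y), (u, v, y, x), (v, u, y, x),
      (x, y, u, v), (y, x, u, v), (x, y, v, u), (y, x, v, u)].toFinset

theorem eightOf_card (q : Fin n × Fin n × Fin n × Fin n) : (eightOf q).card ≤ 8 := by
  obtain ⟨u, v, x, y⟩ := q
  exact List.toFinset_card_le _

theorem rect_sides {u v x y a b : Fin n} (h : s(a, b) ∈ (rect u v x y : EdgeSet n)) :
    ((a = u ∨ a = v) ∧ (b = x ∨ b = y)) ∨ ((a = x ∨ a = y) ∧ (b = u ∨ b = v)) := by
  simp only [rect, Finset.mem_insert, Finset.mem_singleton, Sym2.eq_iff] at h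
  tauto

theorem two_sides {u v a b : Fin n} (huv : u ≠ v) (hu : u = a ∨ u = b) (hv : v = a ∨ v = b) :
    (u = a ∧ v = b) ∨ (u = b ∧ v = a) := by
  rcases hu with h1 | h1 <;> rcases hv with h2 | h2
  · exact (huv (h1.trans h2.symm)).elim
  · exact Or.inl ⟨h1, h2⟩
  · exact Or.inr ⟨h1, h2⟩
  · exact (huv (h1.trans h2.symm)).elim

/-- Two orderings with the same rectangle differ by one of the eight symmetries. -/
theorem mem_eightOf {q q₀ : Fin n × Fin n × Fin n × Fin n}
    (hq : Distinct4 q.1 q.2.1 q.2.2.1 q.2.2.2) (hq₀ : Distinct4 q₀.1 q₀.2.1 q₀.2.2.1 q₀.2.2.2)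
    (h : (rect q.1 q.2.1 q.2.2.1 q.2.2.2 : EdgeSet n) = rect q₀.1 q₀.2.1 q₀.2.2.1 q₀.2.2.2) :
    q ∈ eightOf q₀ := by
  obtain ⟨u, v, x, y⟩ := q
  obtain ⟨u₀, v₀, x₀, y₀⟩ := q₀
  simp only at hq hq₀ h
  obtain ⟨a1, a2, a3, a4, a5, a6⟩ := hq
  obtain ⟨b1, b2, b3, b4, b5, b6⟩ := hq₀
  have m1 : s(u, x) ∈ (rect u₀ v₀ x₀ y₀ : EdgeSet n) := h ▸ (by simp [rect])
  have m2 : s(u, y) ∈ (rect u₀ v₀ x₀ y₀ : EdgeSet n) := h ▸ (by simp [rect])
  have m3 : s(v, x) ∈ (rect u₀ v₀ x₀ y₀ : EdgeSet n) := h ▸ (by simp [rect])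
  have m4 : s(v, y) ∈ (rect u₀ v₀ x₀ y₀ : EdgeSet n) := h ▸ (by simp [rect])
  have s1 := rect_sides m1
  have s2 := rect_sides m2
  have s3 := rect_sides m3
  have s4 := rect_sides m4
  unfold eightOf
  simp only [List.mem_toFinset, List.mem_cons, List.not_mem_nil, or_false, Prod.mk.injEq]
  have hsep : ∀ {a : Fin n}, (a = u₀ ∨ a = v₀) → (a = x₀ ∨ a = y₀) → False := by
    rintro a (h' | h') (h'' | h'')
    · exact b2 (h'.symm.trans h'')
    · exact b3 (h'.symm.trans h'')
    · exact b4 (h'.symm.trans h'')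
    · exact b5 (h'.symm.trans h'')
  have c1 : (u = u₀ ∨ u = v₀) ∨ (u = x₀ ∨ u = y₀) := by
    rcases s1 with s1 | s1
    · exact Or.inl s1.1
    · exact Or.inr s1.1
  rcases c1 with c1 | c1
  · have hx : x = x₀ ∨ x = y₀ := by
      rcases s1 with s1 | s1
      · exact s1.2
      · exact (hsep c1 s1.1).elim
    have hy : y = x₀ ∨ y = y₀ := by
      rcases s2 with s2 | s2
      · exact s2.2
      · exact (hsep c1 s2.1).elim
    have hv : v = u₀ ∨ v = v₀ := by
      rcases s3 with s3 | s3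
      · exact s3.1
      · exact (hsep s3.2 hx).elim
    rcases two_sides a1 c1 hv with ⟨p1, p2⟩ | ⟨p1, p2⟩ <;>
      rcases two_sides a6 hx hy with ⟨p3, p4⟩ | ⟨p3, p4⟩
    · exact Or.inl ⟨p1, p2, p3, p4⟩
    · exact Or.inr (Or.inr (Or.inl ⟨p1, p2, p3, p4⟩))
    · exact Or.inr (Or.inl ⟨p1, p2, p3, p4⟩)
    · exact Or.inr (Or.inr (Or.inr (Or.inl ⟨p1, p2, p3, p4⟩)))
  · have hx : x = u₀ ∨ x = v₀ := by
      rcases s1 with s1 | s1
      · exact (hsep s1.1 c1).elim
      · exact s1.2
    have hy : y = u₀ ∨ y = v₀ := by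
      rcases s2 with s2 | s2
      · exact (hsep s2.1 c1).elim
      · exact s2.2
    have hv : v = x₀ ∨ v = y₀ := by
      rcases s3 with s3 | s3
      · exact (hsep hx s3.2).elim
      · exact s3.1
    rcases two_sides a1 c1 hv with ⟨p1, p2⟩ | ⟨p1, p2⟩ <;>
      rcases two_sides a6 hx hy with ⟨p3, p4⟩ | ⟨p3, p4⟩
    · exact Or.inr (Or.inr (Or.inr (Or.inr (Or.inl ⟨p1, p2, p3, p4⟩))))
    · exact Or.inr (Or.inr (Or.inr (Or.inr (Or.inr (Or.inr (Or.inl ⟨p1, p2, p3, p4⟩))))))
    · exact Or.inr (Or.inr (Or.inr (Or.inr (Or.inr (Or.inl ⟨p1, p2, p3, p4⟩)))))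
    · exact Or.inr (Or.inr (Or.inr (Or.inr (Or.inr (Or.inr (Or.inr ⟨p1, p2, p3, p4⟩))))))

/-- Energy comparison with the chain moves. -/
theorem quads_energy_le (d : Fin n → ℕ) (h : EdgeSet n → ℝ) {G : EdgeSet n} (hG : G ∈ Omega d) :
    (∑ q ∈ quads n, if active q.1 q.2.1 q.2.2.1 q.2.2.2 G then
        (h G - h (flip q.1 q.2.1 q.2.2.1 q.2.2.2 G)) ^ 2 else 0)
      ≤ 8 * ∑ m ∈ chainMoves n, (h G - h (switchStep m.2.1 m.2.2 G)) ^ 2 := by
  let a : (Σ _ : Finset (Fin n), EdgeSet n × EdgeSet n) → ℝ :=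
    fun m => (h G - h (switchStep m.2.1 m.2.2 G)) ^ 2
  have ha0 : ∀ m, 0 ≤ a m := fun m => sq_nonneg _
  let D := (quads n).filter (fun q => active q.1 q.2.1 q.2.2.1 q.2.2.2 G)
  have hD : ∀ q ∈ D, Distinct4 q.1 q.2.1 q.2.2.1 q.2.2.2 ∧ active q.1 q.2.1 q.2.2.1 q.2.2.2 G := by
    intro q hq
    have h1 := Finset.mem_filter.mp hq
    exact ⟨(Finset.mem_filter.mp h1.1).2, h1.2⟩
  have e1 : (∑ q ∈ quads n, if active q.1 q.2.1 q.2.2.1 q.2.2.2 G then
      (h G - h (flip q.1 q.2.1 q.2.2.1 q.2.2.2 G)) ^ 2 else 0) = ∑ q ∈ D, a (moveQ G q) := by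
    rw [← Finset.sum_filter]
    apply Finset.sum_congr rfl
    intro q hq
    simp only [a]
    rw [step_moveQ (hD q hq).2]
  rw [e1]
  have hmaps : ∀ q ∈ D, moveQ G q ∈ D.image (moveQ G) := fun q hq => Finset.mem_image_of_mem _ hq
  rw [← Finset.sum_fiberwise_of_maps_to hmaps]
  have hfib : ∀ m ∈ D.image (moveQ G),
      ∑ q ∈ D.filter (fun q => moveQ G q = m), a (moveQ G q) ≤ 8 * a m := by
    intro m _
    have e2 : ∑ q ∈ D.filter (fun q => moveQ G q = m), a (moveQ G q)
        = ((D.filter (fun q => moveQ G q = m)).card : ℝ) * a m := by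
      rw [Finset.sum_congr rfl (fun q hq => by rw [(Finset.mem_filter.mp hq).2])]
      simp
    rw [e2]
    have hcard : (D.filter (fun q => moveQ G q = m)).card ≤ 8 := by
      rcases (D.filter (fun q => moveQ G q = m)).eq_empty_or_nonempty with he | ⟨q₀, hq₀⟩
      · rw [he]
        simp
      · refine le_trans (Finset.card_le_card ?_) (eightOf_card q₀)
        intro q hq
        have h1 := Finset.mem_filter.mp hq
        have h2 := Finset.mem_filter.mp hq₀
        apply mem_eightOf (hD q h1.1).1 (hD q₀ h2.1).1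
        rw [← moveQ_union G q, ← moveQ_union G q₀, h1.2, h2.2]
    have : ((D.filter (fun q => moveQ G q = m)).card : ℝ) ≤ 8 := by exact_mod_cast hcard
    exact mul_le_mul_of_nonneg_right this (ha0 m)
  refine le_trans (Finset.sum_le_sum hfib) ?_
  rw [← Finset.mul_sum]
  apply mul_le_mul_of_nonneg_left _ (by norm_num)
  apply Finset.sum_le_sum_of_subset_of_nonneg
  · intro m hm
    obtain ⟨q, hq, rfl⟩ := Finset.mem_image.mp hm
    exact moveQ_mem G (hD q hq).1
  · intro m _ _
    exact ha0 m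

/-- The size of `Omega d`. -/
theorem omega_card_le (d : Fin n → ℕ) : ((Omega d).card : ℝ) ≤ 2 ^ (n * n) := by
  have h1 : (Omega d).card ≤ 2 ^ (n * n) := by
    refine le_trans (Finset.card_le_univ _) ?_
    rw [Fintype.card_finset, Sym2.card, Fintype.card_fin]
    apply Nat.pow_le_pow_right (by norm_num)
    rw [Nat.choose_two_right]
    apply Nat.div_le_of_le_mul
    rcases Nat.eq_zero_or_pos n with rfl | hn
    · simp
    · simp only [Nat.add_sub_cancel]
      nlinarith
  exact_mod_cast h1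

/-- Numerical bound on the number of steps. -/
theorem steps_le2 (hn : 4 ≤ n) : (2 * (n.choose 4 * 6)) * (n * n + 2) ≤ n ^ 6 := by
  have h1 : 24 * n.choose 4 ≤ n ^ 4 := by
    have h2 := Nat.descFactorial_eq_factorial_mul_choose n 4
    have h3 := Nat.descFactorial_le_pow n 4
    have h4 : Nat.factorial 4 = 24 := rfl
    rw [h4] at h2
    omega
  have h5 : n * n + 2 ≤ 2 * (n * n) := by nlinarith
  have h6 : (2 * (n.choose 4 * 6)) * (n * n + 2) * 2 ≤ n ^ 6 * 2 := by
    calc (2 * (n.choose 4 * 6)) * (n * n + 2) * 2 = (24 * n.choose 4) * (n * n + 2) := by ring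
      _ ≤ n ^ 4 * (2 * (n * n)) := Nat.mul_le_mul h1 h5
      _ = n ^ 6 * 2 := by ring
  omega

/-- THE KTV CONJECTURE for simple graphs: `t ≥ n^6` steps suffice for every degree vector. -/
theorem ktv_mixing (hn : 4 ≤ n) (d : Fin n → ℕ) {G : EdgeSet n} (hG : G ∈ Omega d) {t : ℕ}
    (ht : n ^ 6 ≤ t) : tvDist d t G ≤ 1 / 4 := by
  have hcard : 1 ≤ (chainMoves n).card := by
    rw [chainMoves_card]
    have : 0 < n.choose 4 := Nat.choose_pos hn
    omega
  have hcardR : (0 : ℝ) < ((chainMoves n).card : ℝ) := by exact_mod_cast hcard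
  refine switch_tv (N := 2 * (chainMoves n).card) (k := n * n) hn (by omega) ?_ (omega_card_le d) hG ?_
  · intro h hh
    have e : (1 / ((2 * (chainMoves n).card : ℕ) : ℝ)) * (4 * ((chainMoves n).card : ℝ)) = 2 := by
      push_cast
      field_simp
      norm_num
    rw [e]
    have h1 := graphs_poincare d h hh
    have h2 : (∑ G ∈ Omega d, ∑ q ∈ quads n, if active q.1 q.2.1 q.2.2.1 q.2.2.2 G then
        (h G - h (flip q.1 q.2.1 q.2.2.1 q.2.2.2 G)) ^ 2 else 0)
        ≤ ∑ G ∈ Omega d, 8 * ∑ m ∈ chainMoves n, (h G - h (switchStep m.2.1 m.2.2 G)) ^ 2 :=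
      Finset.sum_le_sum fun G hG => quads_energy_le d h hG
    rw [← Finset.mul_sum] at h2
    linarith
  · rw [chainMoves_card]
    exact le_trans (steps_le2 hn) ht

end KTV
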