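import Vale.Agent.Lib.P335.Cond

/-!
# Algebra of conditional expectations for the pair bound (KTV project)
Towers of fibrations, commutation from square completion, the symmetrization along an involution.
-/

namespace Vale.Agent.Lib.P335.PairAux

open Finset BigOperators Classical

variable {X β β' : Type*} [DecidableEq β] [DecidableEq β']

section Tower

variable {S : Finset X} {a a' : X → β}

theorem cond_tower_right (hle : ∀ x ∈ S, ∀ y ∈ S, a' x = a' y → a x = a y) (g : X → ℝ) {x : X}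
    (hx : x ∈ S) : cond S a' (cond S a g) x = cond S a g x :=
  cond_of_factor hx (fun y hy h => cond_eq_of_eq (hle y hy x hx h))

theorem sum_fibre_cond (hle : ∀ x ∈ S, ∀ y ∈ S, a' x = a' y → a x = a y) (g : X → ℝ) (x : X) :
    ∑ y ∈ S.filter (fun y => a y = a x), cond S a' g y
      = ∑ y ∈ S.filter (fun y => a y = a x), g y := by
  set e : X → ℝ := fun y => if a y = a x then 1 else 0 with he
  have h1 := ipS_cond S a' g e
  have h2 : ∀ y ∈ S, cond S a' e y = e y := by
    intro y hy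
    apply cond_of_factor hy
    intro z hz hzy
    simp only [he]
    rw [hle z hz y hy hzy]
  have h3 : ∀ φ : X → ℝ, ipS S φ e = ∑ y ∈ S.filter (fun y => a y = a x), φ y := by
    intro φ
    unfold ipS
    rw [Finset.sum_filter]
    apply Finset.sum_congr rfl
    intro y _
    simp only [he]
    split_ifs <;> simp
  rw [← h3, ← h3, h1]
  exact ipS_congr (fun _ _ => rfl) h2

theorem cond_tower_left (hle : ∀ x ∈ S, ∀ y ∈ S, a' x = a' y → a x = a y) (g : X → ℝ) (x : X) :
    cond S a (cond S a' g) x = cond S a g x := by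
  have := sum_fibre_cond hle g x
  unfold cond at this ⊢
  rw [this]

/-- `‖P φ‖² ≤ ‖φ‖²`. -/
theorem cond_contraction (S : Finset X) (π : X → β) (φ : X → ℝ) :
    ipS S (cond S π φ) (cond S π φ) ≤ ipS S φ φ := by
  have h1 := ipS_cQ_self S π φ
  have h2 := ipS_cond_self S π φ
  have h3 := ipS_self_nonneg S (cQ S π φ)
  have h4 : ipS S φ (cQ S π φ) = ipS S φ φ - ipS S φ (cond S π φ) := ipS_sub_right S φ (cond S π φ) φ
  linarith

/-- Monotonicity in the fibration: `⟨P k, k⟩ ≤ ⟨P' k, k⟩`. -/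
theorem cond_mono (hle : ∀ x ∈ S, ∀ y ∈ S, a' x = a' y → a x = a y) (k : X → ℝ) :
    ipS S (cond S a k) k ≤ ipS S (cond S a' k) k := by
  have h1 : ipS S (cond S a k) k = ipS S (cond S a k) (cond S a k) := by
    rw [ipS_cond_self, ipS_comm]
  have h2 : ipS S (cond S a' k) k = ipS S (cond S a' k) (cond S a' k) := by
    rw [ipS_cond_self, ipS_comm]
  have h3 := cond_contraction S a (cond S a' k)
  have h4 : ipS S (cond S a (cond S a' k)) (cond S a (cond S a' k))
      = ipS S (cond S a k) (cond S a k) :=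
    ipS_congr (fun x _ => cond_tower_left hle k x) (fun x _ => cond_tower_left hle k x)
  rw [h1, h2]
  linarith

end Tower

/-- Commutation moves a conditional expectation through the complement. -/
theorem ipS_cond_cQ_of_comm {S : Finset X} {π : X → β} {π' : X → β'} (h : X → ℝ)
    (hcomm : ∀ x ∈ S, cond S π (cond S π' h) x = cond S π' (cond S π h) x) :
    ipS S (cond S π h) (cQ S π' h) = ipS S (cond S π (cQ S π' h)) (cQ S π' h) := by
  calc ipS S (cond S π h) (cQ S π' h)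
      = ipS S (cond S π h) (cQ S π' (cQ S π' h)) :=
        ipS_congr (fun _ _ => rfl) (fun x hx => (cQ_cQ S π' h hx).symm)
    _ = ipS S (cQ S π' (cond S π h)) (cQ S π' h) := (ipS_cQ S π' _ _).symm
    _ = ipS S (cond S π (cQ S π' h)) (cQ S π' h) := by
        apply ipS_congr _ (fun _ _ => rfl)
        intro x hx
        have : cond S π (cQ S π' h) x = cond S π h x - cond S π (cond S π' h) x := by
          have := cond_sub S π h (cond S π' h) x
          exact this
        rw [this, hcomm x hx]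
        rfl

/-- Two averages agree under a bijection of the index sets. -/
theorem avg_eq_of_bij {F G : Finset X} (φ : X → X) (h1 : ∀ y ∈ F, φ y ∈ G)
    (h2 : ∀ y ∈ F, ∀ z ∈ F, φ y = φ z → y = z) (h3 : ∀ z ∈ G, ∃ y ∈ F, φ y = z) (g : X → ℝ) :
    (∑ z ∈ G, g z) / (G.card : ℝ) = (∑ y ∈ F, g (φ y)) / (F.card : ℝ) := by
  have e1 : ∑ y ∈ F, g (φ y) = ∑ z ∈ G, g z :=
    Finset.sum_bij (fun y _ => φ y) h1 (fun y hy z hz h => h2 y hy z hz h)
      (fun z hz => by
        obtain ⟨y, hy, rfl⟩ := h3 z hz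
        exact ⟨y, hy, rfl⟩) (fun _ _ => rfl)
  have e2 : F.card = G.card :=
    Finset.card_bij (fun y _ => φ y) h1 (fun y hy z hz h => h2 y hy z hz h)
      (fun z hz => by
        obtain ⟨y, hy, rfl⟩ := h3 z hz
        exact ⟨y, hy, rfl⟩)
  rw [e1, e2]

/-- Square completion implies commutation of the conditional expectations on `S`. -/
theorem cond_comm_of_square' {S : Finset X} {π : X → β} {π' : X → β'}
    (hsq : ∀ x ∈ S, ∀ x1 ∈ S, ∀ x2 ∈ S, π x1 = π x → π' x2 = π' x →
      ∃! x12, x12 ∈ S ∧ π' x12 = π' x1 ∧ π x12 = π x2)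
    (g : X → ℝ) {x : X} (hx : x ∈ S) :
    cond S π (cond S π' g) x = cond S π' (cond S π g) x := by
  have : Nonempty X := ⟨x⟩
  have inj : ∀ y ∈ S, ∀ z ∈ S, π y = π z → π' y = π' z → y = z := by
    intro y hy z hz h1 h2
    obtain ⟨c, _, huniq⟩ := hsq y hy z hz y hy h1.symm rfl
    have h3 := huniq y ⟨hy, h2, rfl⟩
    have h4 := huniq z ⟨hz, rfl, h1.symm⟩
    rw [h3, h4]
  set F := S.filter (fun y => π y = π x) with hF
  set G := S.filter (fun y => π' y = π' x) with hG
  have hc : ∀ x1 x2, (x1 ∈ F ∧ x2 ∈ G) → ∃ z, z ∈ S ∧ π' z = π' x1 ∧ π z = π x2 := by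
    rintro x1 x2 ⟨h1, h2⟩
    rw [hF, Finset.mem_filter] at h1
    rw [hG, Finset.mem_filter] at h2
    exact (hsq x hx x1 h1.1 x2 h2.1 h1.2 h2.2).exists
  choose! c hc using hc
  have e1 : ∀ x1 ∈ F, cond S π' g x1 = (∑ x2 ∈ G, g (c x1 x2)) / (G.card : ℝ) := by
    intro x1 hx1
    have hx1' := Finset.mem_filter.mp hx1
    unfold cond
    apply avg_eq_of_bij (fun x2 => c x1 x2)
    · intro y hy
      have := hc x1 y ⟨hx1, hy⟩
      exact Finset.mem_filter.mpr ⟨this.1, this.2.1⟩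
    · intro y hy z hz h
      have hy' := Finset.mem_filter.mp hy
      have hz' := Finset.mem_filter.mp hz
      have a1 := hc x1 y ⟨hx1, hy⟩
      have a2 := hc x1 z ⟨hx1, hz⟩
      have h : c x1 y = c x1 z := h
      apply inj y hy'.1 z hz'.1
      · rw [← a1.2.2, ← a2.2.2, h]
      · rw [hy'.2, hz'.2]
    · intro z hz
      have hz' := Finset.mem_filter.mp hz
      obtain ⟨y, hy, h1, h2⟩ := (hsq x1 hx1'.1 x hx z hz'.1 hx1'.2.symm hz'.2).exists
      have hyG : y ∈ G := Finset.mem_filter.mpr ⟨hy, h1⟩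
      refine ⟨y, hyG, ?_⟩
      have a1 := hc x1 y ⟨hx1, hyG⟩
      apply inj _ a1.1 z hz'.1
      · rw [a1.2.2, h2]
      · rw [a1.2.1, hz'.2]
  have e2 : ∀ x2 ∈ G, cond S π g x2 = (∑ x1 ∈ F, g (c x1 x2)) / (F.card : ℝ) := by
    intro x2 hx2
    have hx2' := Finset.mem_filter.mp hx2
    unfold cond
    apply avg_eq_of_bij (fun x1 => c x1 x2)
    · intro y hy
      have := hc y x2 ⟨hy, hx2⟩
      exact Finset.mem_filter.mpr ⟨this.1, this.2.2⟩
    · intro y hy z hz h
      have hy' := Finset.mem_filter.mp hy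
      have hz' := Finset.mem_filter.mp hz
      have a1 := hc y x2 ⟨hy, hx2⟩
      have a2 := hc z x2 ⟨hz, hx2⟩
      have h : c y x2 = c z x2 := h
      apply inj y hy'.1 z hz'.1
      · rw [hy'.2, hz'.2]
      · rw [← a1.2.1, ← a2.2.1, h]
    · intro z hz
      have hz' := Finset.mem_filter.mp hz
      obtain ⟨y, hy, h1, h2⟩ := (hsq x2 hx2'.1 z hz'.1 x hx hz'.2 hx2'.2.symm).exists
      have hyF : y ∈ F := Finset.mem_filter.mpr ⟨hy, h2⟩
      refine ⟨y, hyF, ?_⟩
      have a1 := hc y x2 ⟨hyF, hx2⟩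
      apply inj _ a1.1 z hz'.1
      · rw [a1.2.2, hz'.2]
      · rw [a1.2.1, h1]
  have l1 : cond S π (cond S π' g) x
      = (∑ x1 ∈ F, (∑ x2 ∈ G, g (c x1 x2)) / (G.card : ℝ)) / (F.card : ℝ) := by
    conv_lhs => unfold cond
    congr 1
    exact Finset.sum_congr rfl e1
  have l2 : cond S π' (cond S π g) x
      = (∑ x2 ∈ G, (∑ x1 ∈ F, g (c x1 x2)) / (F.card : ℝ)) / (G.card : ℝ) := by
    conv_lhs => unfold cond
    congr 1
    exact Finset.sum_congr rfl e2
  rw [l1, l2, ← Finset.sum_div, ← Finset.sum_div, Finset.sum_comm, div_div, div_div, mul_comm]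

section Pi

variable {S : Finset X} {a a' : X → β} {D : X → Prop} {τ : X → X}

/-- The symmetrization of `f` along `τ` on `D`. -/
noncomputable def piF (D : X → Prop) (τ : X → X) (f : X → ℝ) (x : X) : ℝ :=
  if D x then (f x + f (τ x)) / 2 else f x

theorem sum_tau {T : Finset X} (h1 : ∀ x ∈ T, τ x ∈ T) (h2 : ∀ x ∈ T, τ (τ x) = x) (f : X → ℝ) :
    ∑ x ∈ T, f (τ x) = ∑ x ∈ T, f x :=
  Finset.sum_nbij' τ τ h1 h1 h2 h2 (fun _ _ => rfl)

theorem sum_piF_fibre (τ_mem : ∀ x ∈ S, D x → τ x ∈ S ∧ D (τ x))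
    (τ_τ : ∀ x ∈ S, D x → τ (τ x) = x) (τ_a : ∀ x ∈ S, D x → a (τ x) = a x) (f : X → ℝ) (x : X) :
    ∑ y ∈ S.filter (fun y => a y = a x), piF D τ f y
      = ∑ y ∈ S.filter (fun y => a y = a x), f y := by
  set F := S.filter (fun y => a y = a x) with hF
  rw [← Finset.sum_filter_add_sum_filter_not F D (piF D τ f),
    ← Finset.sum_filter_add_sum_filter_not F D f]
  have e2 : ∑ y ∈ F.filter (fun y => ¬ D y), piF D τ f y = ∑ y ∈ F.filter (fun y => ¬ D y), f y := by
    apply Finset.sum_congr rfl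
    intro y hy
    simp only [piF, if_neg (Finset.mem_filter.mp hy).2]
  have e1 : ∑ y ∈ F.filter D, piF D τ f y = ∑ y ∈ F.filter D, (f y + f (τ y)) / 2 := by
    apply Finset.sum_congr rfl
    intro y hy
    simp only [piF, if_pos (Finset.mem_filter.mp hy).2]
  have e3 : ∑ y ∈ F.filter D, f (τ y) = ∑ y ∈ F.filter D, f y := by
    apply sum_tau
    · intro y hy
      have hy1 := Finset.mem_filter.mp hy
      have hy2 := Finset.mem_filter.mp hy1.1
      have := τ_mem y hy2.1 hy1.2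
      refine Finset.mem_filter.mpr ⟨Finset.mem_filter.mpr ⟨this.1, ?_⟩, this.2⟩
      rw [τ_a y hy2.1 hy1.2]
      exact hy2.2
    · intro y hy
      have hy1 := Finset.mem_filter.mp hy
      have hy2 := Finset.mem_filter.mp hy1.1
      exact τ_τ y hy2.1 hy1.2
  rw [e1, e2, ← Finset.sum_div, Finset.sum_add_distrib, e3]
  ring

theorem cond_piF (τ_mem : ∀ x ∈ S, D x → τ x ∈ S ∧ D (τ x))
    (τ_τ : ∀ x ∈ S, D x → τ (τ x) = x) (τ_a : ∀ x ∈ S, D x → a (τ x) = a x) (f : X → ℝ) (x : X) :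
    cond S a (piF D τ f) x = cond S a f x := by
  unfold cond
  rw [sum_piF_fibre τ_mem τ_τ τ_a]

/-- The antisymmetric part is orthogonal to the complement of the fibre average. -/
theorem ipS_cQ_anti (τ_mem : ∀ x ∈ S, D x → τ x ∈ S ∧ D (τ x))
    (τ_τ : ∀ x ∈ S, D x → τ (τ x) = x) (τ_a : ∀ x ∈ S, D x → a (τ x) = a x) (f : X → ℝ) :
    ipS S (cQ S a (piF D τ f)) (fun x => f x - piF D τ f x) = 0 := by
  unfold ipS
  rw [← Finset.sum_filter_add_sum_filter_not S D]
  have e2 : ∑ x ∈ S.filter (fun x => ¬ D x), cQ S a (piF D τ f) x * (f x - piF D τ f x) = 0 := by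
    apply Finset.sum_eq_zero
    intro x hx
    simp [piF, if_neg (Finset.mem_filter.mp hx).2]
  rw [e2, add_zero]
  have e3 : ∑ x ∈ S.filter D, (fun x => cQ S a (piF D τ f) x * (f x - piF D τ f x)) (τ x)
      = ∑ x ∈ S.filter D, (fun x => cQ S a (piF D τ f) x * (f x - piF D τ f x)) x :=
    sum_tau (T := S.filter D) (τ := τ)
      (fun y hy => Finset.mem_filter.mpr
        (τ_mem y (Finset.mem_filter.mp hy).1 (Finset.mem_filter.mp hy).2))
      (fun y hy => τ_τ y (Finset.mem_filter.mp hy).1 (Finset.mem_filter.mp hy).2)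
      (fun x => cQ S a (piF D τ f) x * (f x - piF D τ f x))
  have e4 : ∀ x ∈ S.filter D,
      (fun x => cQ S a (piF D τ f) x * (f x - piF D τ f x)) (τ x)
        = - (cQ S a (piF D τ f) x * (f x - piF D τ f x)) := by
    intro x hx
    have hx1 := Finset.mem_filter.mp hx
    have ht := τ_mem x hx1.1 hx1.2
    have htt := τ_τ x hx1.1 hx1.2
    have hpi : piF D τ f (τ x) = piF D τ f x := by
      simp only [piF, if_pos ht.2, if_pos hx1.2, htt]
      ring
    have hq : cQ S a (piF D τ f) (τ x) = cQ S a (piF D τ f) x := by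
      unfold cQ
      rw [hpi, cond_eq_of_eq (τ_a x hx1.1 hx1.2)]
    have hpx : piF D τ f x = (f x + f (τ x)) / 2 := by
      simp only [piF, if_pos hx1.2]
    show cQ S a (piF D τ f) (τ x) * (f (τ x) - piF D τ f (τ x)) = _
    rw [hq, hpi, hpx]
    ring
  rw [Finset.sum_congr rfl e4, Finset.sum_neg_distrib] at e3
  linarith

/-- The norm of the antisymmetric part. -/
theorem ipS_anti_self (f : X → ℝ) :
    ipS S (fun x => f x - piF D τ f x) (fun x => f x - piF D τ f x)
      = ∑ x ∈ S.filter D, ((f x - f (τ x)) / 2) ^ 2 := by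
  unfold ipS
  rw [← Finset.sum_filter_add_sum_filter_not S D]
  have e2 : ∑ x ∈ S.filter (fun x => ¬ D x), (f x - piF D τ f x) * (f x - piF D τ f x) = 0 := by
    apply Finset.sum_eq_zero
    intro x hx
    simp [piF, if_neg (Finset.mem_filter.mp hx).2]
  rw [e2, add_zero]
  apply Finset.sum_congr rfl
  intro x hx
  simp only [piF, if_pos (Finset.mem_filter.mp hx).2]
  ring

/-- On active states the finer average of the symmetrization is the active part of the coarser
average. -/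
theorem cond_piF_active (a'_le : ∀ x ∈ S, ∀ y ∈ S, a' x = a' y → a x = a y)
    (τ_mem : ∀ x ∈ S, D x → τ x ∈ S ∧ D (τ x)) (τ_τ : ∀ x ∈ S, D x → τ (τ x) = x)
    (τ_a : ∀ x ∈ S, D x → a (τ x) = a x) (τ_ne_a' : ∀ x ∈ S, D x → a' (τ x) ≠ a' x)
    (a'_D : ∀ x ∈ S, ∀ y ∈ S, a' x = a' y → D x → D y)
    (a'_τ : ∀ x ∈ S, ∀ y ∈ S, D x → a' x = a' y → a' (τ x) = a' (τ y))
    (a_D : ∀ x ∈ S, ∀ y ∈ S, D x → D y → a x = a y → a' x = a' y ∨ a' (τ x) = a' y)
    (f : X → ℝ) {x : X} (hx : x ∈ S) (hD : D x) :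
    cond S a' (piF D τ f) x = cond (S.filter D) a f x := by
  have hτ := τ_mem x hx hD
  have hττ := τ_τ x hx hD
  set F1 := S.filter (fun y => a' y = a' x) with hF1
  set F2 := S.filter (fun y => a' y = a' (τ x)) with hF2
  have hF1D : ∀ y ∈ F1, y ∈ S ∧ D y ∧ a' x = a' y := by
    intro y hy
    have h := Finset.mem_filter.mp hy
    exact ⟨h.1, a'_D x hx y h.1 h.2.symm hD, h.2.symm⟩
  have hF2D : ∀ y ∈ F2, y ∈ S ∧ D y ∧ a' (τ x) = a' y := by
    intro y hy
    have h := Finset.mem_filter.mp hy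
    exact ⟨h.1, a'_D (τ x) hτ.1 y h.1 h.2.symm hτ.2, h.2.symm⟩
  -- `τ` is a bijection from `F1` to `F2`
  have hs1 : ∑ y ∈ F1, f (τ y) = ∑ y ∈ F2, f y := by
    apply Finset.sum_nbij' τ τ
    · intro y hy
      have h := hF1D y hy
      have hy' := τ_mem y h.1 h.2.1
      exact Finset.mem_filter.mpr ⟨hy'.1, (a'_τ x hx y h.1 hD h.2.2).symm⟩
    · intro y hy
      have h := hF2D y hy
      have hy' := τ_mem y h.1 h.2.1
      refine Finset.mem_filter.mpr ⟨hy'.1, ?_⟩
      have := a'_τ (τ x) hτ.1 y h.1 hτ.2 h.2.2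
      rw [hττ] at this
      exact this.symm
    · intro y hy
      have h := hF1D y hy
      exact τ_τ y h.1 h.2.1
    · intro y hy
      have h := hF2D y hy
      exact τ_τ y h.1 h.2.1
    · intro _ _
      rfl
  have hc1 : F1.card = F2.card := by
    apply Finset.card_nbij' τ τ
    · intro y hy
      have hy0 : y ∈ F1 := by simpa using hy
      have h := hF1D y hy0
      have hy' := τ_mem y h.1 h.2.1
      exact Finset.mem_coe.mpr (Finset.mem_filter.mpr ⟨hy'.1, (a'_τ x hx y h.1 hD h.2.2).symm⟩)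
    · intro y hy
      have hy0 : y ∈ F2 := by simpa using hy
      have h := hF2D y hy0
      have hy' := τ_mem y h.1 h.2.1
      refine Finset.mem_coe.mpr (Finset.mem_filter.mpr ⟨hy'.1, ?_⟩)
      have := a'_τ (τ x) hτ.1 y h.1 hτ.2 h.2.2
      rw [hττ] at this
      exact this.symm
    · intro y hy
      have hy0 : y ∈ F1 := by simpa using hy
      have h := hF1D y hy0
      exact τ_τ y h.1 h.2.1
    · intro y hy
      have hy0 : y ∈ F2 := by simpa using hy
      have h := hF2D y hy0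
      exact τ_τ y h.1 h.2.1
  set G := (S.filter D).filter (fun y => a y = a x) with hG
  have hGp : G.filter (fun y => a' y = a' x) = F1 := by
    ext y
    simp only [hG, hF1, Finset.mem_filter]
    constructor
    · rintro ⟨⟨⟨h1, _⟩, _⟩, h3⟩
      exact ⟨h1, h3⟩
    · rintro ⟨h1, h2⟩
      exact ⟨⟨⟨h1, a'_D x hx y h1 h2.symm hD⟩, a'_le y h1 x hx h2⟩, h2⟩
  have hGn : G.filter (fun y => ¬ a' y = a' x) = F2 := by
    ext y
    simp only [hG, hF2, Finset.mem_filter]
    constructor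
    · rintro ⟨⟨⟨h1, h2⟩, h3⟩, h4⟩
      refine ⟨h1, ?_⟩
      rcases a_D x hx y h1 hD h2 h3.symm with h5 | h5
      · exact absurd h5.symm h4
      · exact h5.symm
    · rintro ⟨h1, h2⟩
      refine ⟨⟨⟨h1, a'_D (τ x) hτ.1 y h1 h2.symm hτ.2⟩, ?_⟩, ?_⟩
      · rw [a'_le y h1 (τ x) hτ.1 h2, τ_a x hx hD]
      · rw [h2]
        exact τ_ne_a' x hx hD
  have hsumG : ∑ y ∈ G, f y = ∑ y ∈ F1, f y + ∑ y ∈ F2, f y := by
    rw [← Finset.sum_filter_add_sum_filter_not G (fun y => a' y = a' x) f, hGp, hGn]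
  have hcardG : G.card = F1.card + F2.card := by
    rw [← Finset.card_filter_add_card_filter_not (s := G) (fun y => a' y = a' x), hGp, hGn]
  have hpos : (0 : ℝ) < (F1.card : ℝ) := fiber_card_pos hx
  have hnum : ∑ y ∈ F1, piF D τ f y = (∑ y ∈ F1, f y + ∑ y ∈ F2, f y) / 2 := by
    rw [← hs1, ← Finset.sum_add_distrib, Finset.sum_div]
    apply Finset.sum_congr rfl
    intro y hy
    simp only [piF, if_pos (hF1D y hy).2.1]
  show (∑ y ∈ F1, piF D τ f y) / (F1.card : ℝ) = (∑ y ∈ G, f y) / (G.card : ℝ)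
  rw [hnum, hsumG, hcardG, ← hc1]
  push_cast
  field_simp
  ring

/-- The bound on the `a`-complement of `g = A' B' h` on the active states. -/
theorem half_U {b' : X → β} (a'_le : ∀ x ∈ S, ∀ y ∈ S, a' x = a' y → a x = a y)
    (τ_mem : ∀ x ∈ S, D x → τ x ∈ S ∧ D (τ x)) (τ_τ : ∀ x ∈ S, D x → τ (τ x) = x)
    (τ_a : ∀ x ∈ S, D x → a (τ x) = a x) (τ_ne_a' : ∀ x ∈ S, D x → a' (τ x) ≠ a' x)
    (a'_D : ∀ x ∈ S, ∀ y ∈ S, a' x = a' y → D x → D y)
    (a'_τ : ∀ x ∈ S, ∀ y ∈ S, D x → a' x = a' y → a' (τ x) = a' (τ y))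
    (a_D : ∀ x ∈ S, ∀ y ∈ S, D x → D y → a x = a y → a' x = a' y ∨ a' (τ x) = a' y)
    (b'_D : ∀ x ∈ S, ∀ y ∈ S, b' x = b' y → D x → D y)
    (comm1 : ∀ g : X → ℝ, ∀ x ∈ S, cond S a (cond S b' g) x = cond S b' (cond S a g) x)
    (comm2 : ∀ g : X → ℝ, ∀ x ∈ S, cond S a' (cond S b' g) x = cond S b' (cond S a' g) x)
    (f : X → ℝ) :
    ∑ x ∈ S.filter D, (cQ S a (cond S a' (cond S b' (piF D τ f))) x) ^ 2
      ≤ ∑ x ∈ S.filter D, (cond (S.filter D) a f x - cond S a f x) ^ 2 := by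
  set h := piF D τ f with hh
  set φ : X → ℝ := fun x => cond S a' h x - cond S a f x with hφ
  have c1 : ∀ x ∈ S, cQ S a (cond S a' (cond S b' h)) x = cond S b' φ x := by
    intro x hx
    unfold cQ
    rw [cond_tower_left a'_le, comm2 h x hx, comm1 h x hx]
    have e : cond S b' (cond S a h) x = cond S b' (cond S a f) x :=
      cond_congr (fun y _ => cond_piF τ_mem τ_τ τ_a f y) x
    rw [e, hφ, cond_sub]
  have c2 : ∀ x ∈ S.filter D, cond S b' φ x = cond (S.filter D) b' φ x := by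
    intro x hx
    have hx1 := Finset.mem_filter.mp hx
    have e : S.filter (fun y => b' y = b' x) = (S.filter D).filter (fun y => b' y = b' x) := by
      ext y
      simp only [Finset.mem_filter]
      constructor
      · rintro ⟨h1, h2⟩
        exact ⟨⟨h1, b'_D x hx1.1 y h1 h2.symm hx1.2⟩, h2⟩
      · rintro ⟨⟨h1, _⟩, h2⟩
        exact ⟨h1, h2⟩
    unfold cond
    rw [e]
  have c3 := cond_contraction (S.filter D) b' φ
  unfold ipS at c3
  calc ∑ x ∈ S.filter D, (cQ S a (cond S a' (cond S b' h)) x) ^ 2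
      = ∑ x ∈ S.filter D, cond (S.filter D) b' φ x * cond (S.filter D) b' φ x := by
        apply Finset.sum_congr rfl
        intro x hx
        rw [c1 x (Finset.mem_filter.mp hx).1, c2 x hx, sq]
    _ ≤ ∑ x ∈ S.filter D, φ x * φ x := c3
    _ = ∑ x ∈ S.filter D, (cond (S.filter D) a f x - cond S a f x) ^ 2 := by
        apply Finset.sum_congr rfl
        intro x hx
        have hx1 := Finset.mem_filter.mp hx
        simp only [hφ, hh]
        rw [cond_piF_active a'_le τ_mem τ_τ τ_a τ_ne_a' a'_D a'_τ a_D f hx1.1 hx1.2, sq]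

end Pi

/-- The part of the cross term where `a` and `b` commute. -/
theorem T_part {S : Finset X} {a b : X → β} {T : X → Prop}
    (T_a : ∀ x ∈ S, ∀ y ∈ S, T x → a x = a y → T y)
    (T_b : ∀ x ∈ S, ∀ y ∈ S, T x → b x = b y → T y)
    (T_square : ∀ x ∈ S, ∀ x1 ∈ S, ∀ x2 ∈ S, T x → a x1 = a x → b x2 = b x →
      ∃! x12, x12 ∈ S ∧ b x12 = b x1 ∧ a x12 = a x2) (g : X → ℝ) :
    0 ≤ ∑ x ∈ S.filter T, cQ S a g x * cQ S b g x := by
  have hca : ∀ {π : X → β}, (∀ x ∈ S, ∀ y ∈ S, T x → π x = π y → T y) →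
      ∀ x ∈ S.filter T, cQ S π g x = cQ (S.filter T) π g x := by
    intro π hπ x hx
    have hx1 := Finset.mem_filter.mp hx
    have e : S.filter (fun y => π y = π x) = (S.filter T).filter (fun y => π y = π x) := by
      ext y
      simp only [Finset.mem_filter]
      constructor
      · rintro ⟨h1, h2⟩
        exact ⟨⟨h1, hπ x hx1.1 y h1 hx1.2 h2.symm⟩, h2⟩
      · rintro ⟨⟨h1, _⟩, h2⟩
        exact ⟨h1, h2⟩
    unfold cQ cond
    rw [e]
  have hcomm : ∀ g' : X → ℝ, ∀ x ∈ S.filter T,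
      cond (S.filter T) a (cond (S.filter T) b g') x
        = cond (S.filter T) b (cond (S.filter T) a g') x := by
    intro g' x hx
    apply cond_comm_of_square' _ g' hx
    intro y hy x1 hx1 x2 hx2 h1 h2
    have hy' := Finset.mem_filter.mp hy
    have hx1' := Finset.mem_filter.mp hx1
    have hx2' := Finset.mem_filter.mp hx2
    obtain ⟨z, ⟨hz1, hz2, hz3⟩, huniq⟩ := T_square y hy'.1 x1 hx1'.1 x2 hx2'.1 hy'.2 h1 h2
    refine ⟨z, ⟨Finset.mem_filter.mpr ⟨hz1, T_a x2 hx2'.1 z hz1 hx2'.2 hz3.symm⟩, hz2, hz3⟩, ?_⟩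
    rintro w ⟨hw1, hw2, hw3⟩
    exact huniq w ⟨(Finset.mem_filter.mp hw1).1, hw2, hw3⟩
  have := cross_nonneg_of_commute (S := S.filter T) a b hcomm g
  unfold ipS at this
  calc 0 ≤ _ := this
    _ = _ := by
      apply Finset.sum_congr rfl
      intro x hx
      rw [hca T_a x hx, hca T_b x hx]

/-- The cross term decreases under `h ↦ A' B' h`. -/
theorem cross_ge_cross {S : Finset X} {a a' b b' : X → β}
    (a'_le : ∀ x ∈ S, ∀ y ∈ S, a' x = a' y → a x = a y)
    (b'_le : ∀ x ∈ S, ∀ y ∈ S, b' x = b' y → b x = b y)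
    (comm_a'_b : ∀ g : X → ℝ, ∀ x ∈ S, cond S a' (cond S b g) x = cond S b (cond S a' g) x)
    (comm_a_b' : ∀ g : X → ℝ, ∀ x ∈ S, cond S a (cond S b' g) x = cond S b' (cond S a g) x)
    (comm_a'_b' : ∀ g : X → ℝ, ∀ x ∈ S, cond S a' (cond S b' g) x = cond S b' (cond S a' g) x)
    (h : X → ℝ) :
    ipS S (cQ S a (cond S a' (cond S b' h))) (cQ S b (cond S a' (cond S b' h)))
      ≤ ipS S (cQ S a h) (cQ S b h) := by
  set P2 : X → ℝ := fun x => cond S a' h x - cond S a h x with hP2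
  set R2 : X → ℝ := fun x => cond S b' h x - cond S b h x with hR2
  have stepA : ipS S (cQ S a h) (cQ S b h)
      = ipS S (cQ S a' h) (cQ S b h) + ipS S P2 (cQ S b' h) + ipS S P2 R2 := by
    unfold ipS
    rw [← Finset.sum_add_distrib, ← Finset.sum_add_distrib]
    apply Finset.sum_congr rfl
    intro x _
    simp only [cQ, hP2, hR2]
    ring
  have stepB : 0 ≤ ipS S (cQ S a' h) (cQ S b h) :=
    cross_nonneg_of_commute a' b comm_a'_b h
  have stepC : 0 ≤ ipS S P2 (cQ S b' h) := by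
    have e1 : ipS S P2 (cQ S b' h) = ipS S (cond S a' h) (cQ S b' h) - ipS S (cond S a h) (cQ S b' h) :=
      ipS_sub_left S _ _ _
    rw [e1, ipS_cond_cQ_of_comm h (comm_a'_b' h), ipS_cond_cQ_of_comm h (comm_a_b' h)]
    have := cond_mono a'_le (cQ S b' h)
    linarith
  have stepD : ipS S (cQ S a (cond S a' (cond S b' h))) (cQ S b (cond S a' (cond S b' h)))
      = ipS S P2 R2 := by
    have d1 : ∀ x ∈ S, cQ S a (cond S a' (cond S b' h)) x = cond S b' P2 x := by
      intro x hx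
      unfold cQ
      rw [cond_tower_left a'_le, comm_a'_b' h x hx, comm_a_b' h x hx, hP2, cond_sub]
    have d2 : ∀ x ∈ S, cQ S b (cond S a' (cond S b' h)) x = cond S a' R2 x := by
      intro x hx
      unfold cQ
      rw [← comm_a'_b (cond S b' h) x hx]
      have e : cond S a' (cond S b (cond S b' h)) x = cond S a' (cond S b h) x :=
        cond_congr (fun y _ => cond_tower_left b'_le h y) x
      rw [e, hR2, cond_sub]
    rw [ipS_congr d1 d2]
    calc ipS S (cond S b' P2) (cond S a' R2)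
        = ipS S (cond S a' (cond S b' P2)) R2 := (ipS_cond S a' _ _).symm
      _ = ipS S (cond S b' P2) R2 := by
          apply ipS_congr _ (fun _ _ => rfl)
          intro x hx
          rw [comm_a'_b' P2 x hx]
          apply cond_congr
          intro y hy
          rw [hP2, cond_sub, cond_cond S a' h hy, cond_tower_right a'_le h hy]
      _ = ipS S P2 (cond S b' R2) := ipS_cond S b' _ _
      _ = ipS S P2 R2 := by
          apply ipS_congr (fun _ _ => rfl)
          intro x hx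
          rw [hR2, cond_sub, cond_cond S b' h hx, cond_tower_right b'_le h hx]
  rw [stepD, stepA]
  linarith

end Vale.Agent.Lib.P335.PairAux
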